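import Vale.Agent.P200.Exist

/-! Base change to the algebraic closure and the case of equal degrees. -/

namespace Vale.Agent.P200

open MvPolynomial Module Finset

universe u

section bc

variable {K F : Type*} [Field K] [Field F] [Algebra K F] {n : ℕ}

/-- Applying a functional to all coefficients. -/
noncomputable def lam (ρ : F →ₗ[K] K) (p : MvPolynomial (Fin n) F) : MvPolynomial (Fin n) K :=
  ∑ μ ∈ p.support, monomial μ (ρ (coeff μ p))

lemma coeff_lam (ρ : F →ₗ[K] K) (p : MvPolynomial (Fin n) F) (μ : Fin n →₀ ℕ) :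
    coeff μ (lam ρ p) = ρ (coeff μ p) := by
  simp only [lam, coeff_sum, coeff_monomial, sum_ite_eq']
  split_ifs with h
  · rfl
  · rw [MvPolynomial.notMem_support_iff.mp h, map_zero]

lemma lam_mul (ρ : F →ₗ[K] K) (p : MvPolynomial (Fin n) F) (q : MvPolynomial (Fin n) K) :
    lam ρ (p * map (algebraMap K F) q) = lam ρ p * q := by
  ext μ
  simp only [coeff_lam, coeff_mul, map_sum, coeff_map]
  refine sum_congr rfl fun x _ => ?_
  rw [mul_comm, ← Algebra.smul_def, map_smul, smul_eq_mul, mul_comm]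

lemma mem_of_lam (p : MvPolynomial (Fin n) F) (N : Submodule F (MvPolynomial (Fin n) F))
    (h : ∀ ρ : F →ₗ[K] K, map (algebraMap K F) (lam ρ p) ∈ N) : p ∈ N := by
  classical
  let b := Basis.ofVectorSpace K F
  have : p = ∑ i ∈ p.support.biUnion fun μ => (b.repr (coeff μ p)).support,
      b i • map (algebraMap K F) (lam (b.coord i) p) := by
    ext μ
    simp only [coeff_sum, coeff_smul, coeff_map, coeff_lam, Basis.coord_apply, smul_eq_mul]
    conv_lhs => rw [← b.linearCombination_repr (coeff μ p), Finsupp.linearCombination_apply]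
    rw [Finsupp.sum_of_support_subset _ (s := p.support.biUnion fun μ =>
      (b.repr (coeff μ p)).support) _ _ (by simp)]
    · exact sum_congr rfl fun i _ => by rw [Algebra.smul_def, mul_comm]
    · by_cases hμ : μ ∈ p.support
      · exact subset_biUnion_of_mem (fun μ => (b.repr (coeff μ p)).support) hμ
      · simp [notMem_support_iff.mp hμ]
  rw [this]
  exact N.sum_mem fun i _ => N.smul_mem _ (h _)

lemma lam_mem (ρ : F →ₗ[K] K) {I : Ideal (MvPolynomial (Fin n) K)} {p : MvPolynomial (Fin n) F}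
    (hp : p ∈ I.map (map (algebraMap K F))) : lam ρ p ∈ I := by
  suffices h : ∀ q, lam ρ (q * p) ∈ I by simpa using h 1
  induction hp using Submodule.span_induction with
  | mem x hx =>
    obtain ⟨x, hx, rfl⟩ := hx
    exact fun q => lam_mul ρ q x ▸ I.mul_mem_left _ hx
  | zero => simp [lam]
  | add x y _ _ hx hy =>
    intro q
    rw [show lam ρ (q * (x + y)) = lam ρ (q * x) + lam ρ (q * y) by
      ext μ; simp [coeff_lam, mul_add]]
    exact add_mem (hx q) (hy q)
  | smul c x _ hx => intro q; rw [smul_eq_mul, ← mul_assoc]; exact hx _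

lemma reg_map {c : ℕ} {f : Fin c → MvPolynomial (Fin n) K}
    (hreg : ∀ i g, g * f i ∈ Ideal.span (f '' {j | j < i}) → g ∈ Ideal.span (f '' {j | j < i}))
    (i : Fin c) (g : MvPolynomial (Fin n) F)
    (h : g * map (algebraMap K F) (f i) ∈
      Ideal.span ((fun j => map (algebraMap K F) (f j)) '' {j | j < i})) :
    g ∈ Ideal.span ((fun j => map (algebraMap K F) (f j)) '' {j | j < i}) := by
  rw [← Set.image_image (map (algebraMap K F)) f, ← Ideal.map_span] at h ⊢
  exact mem_of_lam (K := K) g (Submodule.restrictScalars F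
    ((Ideal.span (f '' {j | j < i})).map (map (algebraMap K F)))) fun ρ =>
    Ideal.mem_map_of_mem (map (algebraMap K F)) (hreg i _ (lam_mul ρ g (f i) ▸ lam_mem ρ h))

lemma Id_map (I : Ideal (MvPolynomial (Fin n) K)) (d : ℕ) :
    Id (I.map (map (algebraMap K F))) d = ext1 F (Id I d) := by
  refine le_antisymm (fun p hp => mem_of_lam (K := K) p _ fun ρ =>
    Submodule.subset_span (Set.mem_image_of_mem _ ?_)) (Submodule.span_le.mpr ?_)
  · refine ⟨fun μ hμ => hp.1 fun h => hμ ?_, lam_mem ρ hp.2⟩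
    rw [coeff_lam, h, map_zero]
  · rintro _ ⟨p, hp, rfl⟩
    exact ⟨IsHomogeneous.map hp.1 _, Ideal.mem_map_of_mem _ hp.2⟩

open Classical in
/-- The combinatorial form of the conclusion. -/
def EGH {c : ℕ} (hcn : c ≤ n) (a : Fin c → ℕ) (I : Ideal (MvPolynomial (Fin n) K)) : Prop :=
  ∃ s : Set (Fin n →₀ ℕ), IsUpperSet s ∧ (∀ i, Finsupp.single (Fin.castLE hcn i) (a i) ∈ s) ∧
    ∀ d, ((Mon n d).filter (· ∈ s)).card = finrank K (Id I d)

theorem final {c : ℕ} (hcn : c ≤ n) (a : Fin c → ℕ) (I : Ideal (MvPolynomial (Fin n) K))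
    (h : EGH hcn a (I.map (map (algebraMap K F)))) : ∃ s : Set (Fin n →₀ ℕ),
      (∀ i, X (Fin.castLE hcn i) ^ a i ∈ Ideal.span ((fun m => monomial m (1 : K)) '' s)) ∧
      ∀ d, finrank K ↥(homogeneousSubmodule (Fin n) K d ⊓ I.restrictScalars K) =
        finrank K ↥(homogeneousSubmodule (Fin n) K d ⊓
          (Ideal.span ((fun m => monomial m (1 : K)) '' s)).restrictScalars K) := by
  classical
  obtain ⟨s, h1, h2, h3⟩ := h
  refine ⟨s, fun i => Ideal.subset_span ⟨_, h2 i, X_pow_eq_monomial.symm⟩, fun d => ?_⟩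
  rw [finrank_monomial_ideal K s h1, ← Id, ← finrank_ext1 (L := F), ← Id_map, ← h3]

/-- The forms of degree `b + 1` in the ideal plus some linear forms. -/
noncomputable def UU (I : Ideal (MvPolynomial (Fin n) F)) (l : Fin n → MvPolynomial (Fin n) F)
    (b : ℕ) : Submodule F (MvPolynomial (Fin n) F) :=
  Id I (b + 1) ⊔ ⨆ j, (homogeneousSubmodule (Fin n) F b).map (LinearMap.mulLeft F (l j))

lemma UU_le {I : Ideal (MvPolynomial (Fin n) F)} {l : Fin n → MvPolynomial (Fin n) F}
    (hl : ∀ j, (l j).IsHomogeneous 1) (b : ℕ) :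
    UU I l b ≤ homogeneousSubmodule (Fin n) F (b + 1) := by
  refine sup_le inf_le_left (iSup_le fun j => ?_)
  rintro _ ⟨p, hp, rfl⟩
  rw [add_comm]
  exact (hl j).mul hp

lemma UU_prim {I : Ideal (MvPolynomial (Fin n) F)} {l : Fin n → MvPolynomial (Fin n) F} {b : ℕ}
    {H : Set (MvPolynomial (Fin n) F)} (hH : ∀ h ∈ H, h ∈ I ∧ ∃ e ≤ b + 1, h.IsHomogeneous e) {D : ℕ}
    (hD : Prim (Ideal.span (H ∪ Set.range l)) D) :
    ∃ D, Prim (Ideal.span (UU I l b : Set (MvPolynomial (Fin n) F))) D := by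
  refine prim_of_pow fun j => ⟨b + 1 + D, ?_⟩
  have : Ideal.span (H ∪ Set.range l) ≤ Submodule.comap (LinearMap.mulLeft _ (X j ^ (b + 1)))
      (Ideal.span (UU I l b : Set (MvPolynomial (Fin n) F))) := by
    refine Ideal.span_le.mpr ?_
    rintro h (hh | ⟨i, rfl⟩)
    · obtain ⟨h1, e, he, h2⟩ := hH h hh
      obtain ⟨k, hk⟩ := Nat.exists_eq_add_of_le he
      rw [SetLike.mem_coe, Submodule.mem_comap, LinearMap.mulLeft_apply, hk, pow_add,
        mul_assoc]
      refine Ideal.mul_mem_left _ _ (Ideal.subset_span (Submodule.mem_sup_left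
        ⟨?_, I.mul_mem_left _ h1⟩))
      rw [hk, add_comm]
      exact (isHomogeneous_X_pow j k).mul h2
    · rw [SetLike.mem_coe, Submodule.mem_comap, LinearMap.mulLeft_apply, pow_succ', mul_assoc,
        mul_comm _ (l i)]
      exact Ideal.mul_mem_left _ _ (Ideal.subset_span (Submodule.mem_sup_right
        (Submodule.mem_iSup_of_mem i ⟨_, isHomogeneous_X_pow j b, rfl⟩)))
  rw [pow_add]
  exact this (hD _ (isHomogeneous_X_pow j D))

variable {E : Type*} [Field E] [Algebra F E] {ι : Type*} [Fintype ι] [DecidableEq ι]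

lemma Setup.smul_mem_UU (S : Setup F E n ι) {I : Ideal (MvPolynomial (Fin n) F)}
    {l : Fin n → MvPolynomial (Fin n) F} {J : Finset (Fin n)}
    (hl : ∀ j, l j = 0 ∨ j ∈ J ∧ S.Z j = map (algebraMap F E) (l j) • 1) {b : ℕ}
    {g : MvPolynomial (Fin n) E} (hg : g ∈ ext1 E (UU I l b)) {t : ι → MvPolynomial (Fin n) E}
    (ht : t ∈ Td ι n E 0) : g • t ∈ BB ι E (Id I (b + 1)) ⊔ S.W J b := by
  induction hg using Submodule.span_induction with
  | mem x hx =>
    obtain ⟨x, hx, rfl⟩ := hx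
    obtain ⟨y, hy, z, hz, rfl⟩ := Submodule.mem_sup.mp hx
    rw [map_add, add_smul]
    refine Submodule.add_mem_sup (mem_piSub.mpr fun β => ?_) ?_
    · refine mul_mem_ext1 (A := Id I (b + 1)) (B := homogeneousSubmodule (Fin n) F 0)
        (D := Id I (b + 1)) (fun p hp q hq => ⟨IsHomogeneous.mul (m := b + 1) (n := 0) hp.1 hq,
          I.mul_mem_right _ hp.2⟩)
        (Submodule.subset_span ⟨_, hy, rfl⟩) ?_
      rw [ext1_homog]
      exact mem_piSub.mp ht β
    · clear hx
      induction hz using Submodule.iSup_induction' with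
      | mem j z hz =>
        obtain ⟨p, hp, rfl⟩ := hz
        rcases hl j with h | ⟨h1, h2⟩
        · simp [h]
        · refine le_sup (f := fun j => (Td ι n E b).map (S.op j)) h1
            ⟨_, smul_mem_Td (IsHomogeneous.map hp (algebraMap F E)) ht, ?_⟩
          rw [S.op_apply, h2, Matrix.smul_mulVec, Matrix.one_mulVec, smul_smul,
            LinearMap.mulLeft_apply, map_mul]
      | zero => simp
      | add x y _ _ hx hy => rw [map_add, add_smul]; exact add_mem hx hy
  | zero => simp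
  | add x y _ _ hx hy => rw [add_smul]; exact add_mem hx hy
  | smul q x _ hx => rw [smul_assoc]; exact Submodule.smul_mem _ _ hx

lemma Setup.single_mem_of_UU (S : Setup F E n ι) {I : Ideal (MvPolynomial (Fin n) F)}
    {l : Fin n → MvPolynomial (Fin n) F} (i : Fin n)
    (hl : ∀ j, l j = 0 ∨ i < j ∧ S.Z j = map (algebraMap F E) (l j) • 1) {b : ℕ}
    {g : MvPolynomial (Fin n) E} (hg : g ∈ ext1 E (UU I l b)) (hZ : S.Z i ^ (b + 1) = g • 1) :
    Finsupp.single i (b + 1) ∈ S.NS I := by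
  refine S.single_mem_NS I i b ?_
  rw [S.O_single]
  rintro _ ⟨t, ht, rfl⟩
  rw [hZ, LinearMap.restrictScalars_apply, Matrix.mulVecLin_apply, Matrix.smul_mulVec,
    Matrix.one_mulVec]
  exact S.smul_mem_UU (by simpa using hl) hg ht

end bc

lemma exists_lin_prim {F : Type*} [Field F] [Infinite F] {n c : ℕ} (hcn : c ≤ n)
    {f : Fin c → MvPolynomial (Fin n) F} (hf : ∀ i, ∃ e, (f i).IsHomogeneous e)
    (hreg : ∀ i g, g * f i ∈ Ideal.span (f '' {j | j < i}) → g ∈ Ideal.span (f '' {j | j < i})) :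
    ∃ l : Fin n → MvPolynomial (Fin n) F, (∀ j, (l j).IsHomogeneous 1) ∧
      (∀ j : Fin n, (j : ℕ) < c → l j = 0) ∧
        ∃ D, Prim (Ideal.span (Set.range f ∪ Set.range l)) D := by
  obtain ⟨l, h1, h2, h3⟩ := (ht_of_reg f hreg c le_rfl).exists_lins
    (univ.filter fun j : Fin n => ¬ (j : ℕ) < c)
  refine ⟨l, h1, fun j hj => h2 j (by simpa using hj), Ht.prim ?_ ?_⟩
  · rintro _ (⟨i, rfl⟩ | ⟨i, rfl⟩)
    exacts [hf i, ⟨1, h1 i⟩]
  · have := card_filter_add_card_filter_not (s := univ) fun j : Fin n => (j : ℕ) < c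
    rw [Fin.card_filter_val_lt, min_eq_right hcn, card_univ, Fintype.card_fin] at this
    rw [this] at h3
    exact h3.mono (by
      rw [Ideal.span_union]
      exact sup_le_sup_right (Ideal.span_mono (Set.image_subset_range _ _)) _)

theorem equal_closed {F : Type u} [Field F] [IsAlgClosed F] {n c : ℕ} (hcn : c ≤ n) (hn : 0 < n)
    {a : ℕ} (ha : 2 ≤ a) {f : Fin c → MvPolynomial (Fin n) F} (hf : ∀ i, (f i).IsHomogeneous a)
    (hreg : ∀ i g, g * f i ∈ Ideal.span (f '' {j | j < i}) → g ∈ Ideal.span (f '' {j | j < i}))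
    (I : Ideal (MvPolynomial (Fin n) F)) (hfI : ∀ i, f i ∈ I) : EGH hcn (fun _ => a) I := by
  obtain ⟨l, h1, h2, D, hD⟩ := exists_lin_prim hcn (fun i => ⟨a, hf i⟩) hreg
  obtain ⟨b, rfl⟩ : ∃ b, a = b + 1 := ⟨a - 1, by omega⟩
  obtain ⟨D0, hD0⟩ := UU_prim (I := I) (b := b) (by
    rintro _ ⟨i, rfl⟩; exact ⟨hfI i, _, le_rfl, hf i⟩) hD
  obtain ⟨E, _, _, ι, _, _, S, g, hg, hZ, hZ', -⟩ := exists_setup ha hn (Fin.castLE_injective hcn)
    (fun i => h2 _ i.2) h1 _ (UU_le h1 b) hD0 f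
    (fun i => Submodule.mem_sup_left ⟨hf i, hfI i⟩) hD
  refine ⟨S.NS I, S.isUpperSet_NS I, fun i => S.single_mem_of_UU _ (fun j => ?_) (hg i) (hZ i),
    S.card_NS I⟩
  by_cases hj : (j : ℕ) < c
  · exact Or.inl (h2 j hj)
  · refine Or.inr ⟨Nat.lt_of_lt_of_le i.2 (Nat.le_of_not_lt hj), hZ' j ?_⟩
    rintro ⟨k, rfl⟩
    exact hj k.2

end Vale.Agent.P200
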