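import Vale.Agent.P200.End2

/-! The initial monomial ideal. -/

namespace Vale.Agent.P200

open MvPolynomial Module

variable {K L : Type*} [Field K] [Field L] [Algebra K L] {n : ℕ} {ι : Type*} [Fintype ι]
  [DecidableEq ι]

/-- The reverse lexicographic key. -/
def key (β : Fin n →₀ ℕ) : (Lex (Fin n → ℕ))ᵒᵈ :=
  OrderDual.toDual (toLex fun i => β (Fin.rev i))

lemma key_injective : Function.Injective (key (n := n)) := by
  intro β γ h
  have h1 : (fun i => β (Fin.rev i)) = fun i => γ (Fin.rev i) := h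
  ext i
  simpa using congrFun h1 (Fin.rev i)

lemma key_lt_iff {β γ : Fin n →₀ ℕ} :
    key β < key γ ↔ ∃ j, (∀ k, j < k → γ k = β k) ∧ γ j < β j := by
  rw [key, key, OrderDual.toDual_lt_toDual]
  constructor
  · rintro ⟨i, h1, h2⟩
    refine ⟨Fin.rev i, fun k hk => ?_, h2⟩
    have := h1 (Fin.rev k) (Fin.rev_lt_iff.mp hk)
    simpa using this
  · rintro ⟨j, h1, h2⟩
    refine ⟨Fin.rev j, fun k hk => h1 _ (by rwa [Fin.lt_rev_iff]), by simpa using h2⟩

lemma key_add_lt {β γ : Fin n →₀ ℕ} (h : key β < key γ) (δ : Fin n →₀ ℕ) :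
    key (β + δ) < key (γ + δ) := by
  rw [key_lt_iff] at h ⊢
  obtain ⟨j, h1, h2⟩ := h
  exact ⟨j, fun k hk => by simp [h1 k hk], by simpa using h2⟩

lemma key_lt_single {β : Fin n →₀ ℕ} {i j : Fin n} (hij : i < j) (hβ : β j ≠ 0) (a : ℕ) :
    key β < key (Finsupp.single i a) := by
  classical
  rw [key_lt_iff]
  have hne : β.support.Nonempty := ⟨j, Finsupp.mem_support_iff.mpr hβ⟩
  have hj : j ≤ β.support.max' hne := Finset.le_max' _ _ (Finsupp.mem_support_iff.mpr hβ)
  refine ⟨β.support.max' hne, fun k hk => ?_, ?_⟩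
  · have h1 : β k = 0 := by
      by_contra h
      exact absurd (Finset.le_max' _ _ (Finsupp.mem_support_iff.mpr h)) (not_le.mpr hk)
    rw [h1, Finsupp.single_eq_of_ne (ne_of_gt (lt_of_lt_of_le hij (hj.trans hk.le)))]
  · rw [Finsupp.single_eq_of_ne (ne_of_gt (lt_of_lt_of_le hij hj))]
    exact Nat.pos_of_ne_zero (Finsupp.mem_support_iff.mp (Finset.max'_mem _ _))

/-- The degree `d` part of an ideal. -/
noncomputable def Id (I : Ideal (MvPolynomial (Fin n) K)) (d : ℕ) :
    Submodule K (MvPolynomial (Fin n) K) :=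
  homogeneousSubmodule (Fin n) K d ⊓ I.restrictScalars K

instance (I : Ideal (MvPolynomial (Fin n) K)) (d : ℕ) : FiniteDimensional K (Id I d) :=
  Submodule.finiteDimensional_of_le (S₂ := homogeneousSubmodule (Fin n) K d) inf_le_left

omit [DecidableEq ι] [Fintype ι] in
lemma BB_le_Td (I : Ideal (MvPolynomial (Fin n) K)) (d : ℕ) : BB ι L (Id I d) ≤ Td ι n L d :=
  piSub_mono (ext1_le_homog inf_le_left)

namespace Setup

variable (S : Setup K L n ι)

/-- The image of the constants under a monomial. -/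
noncomputable def O (β : Fin n →₀ ℕ) : Submodule L (ι → MvPolynomial (Fin n) L) :=
  S.act β (Td ι n L 0)

/-- The part of the filtration below a monomial. -/
noncomputable def F (I : Ideal (MvPolynomial (Fin n) K)) (β : Fin n →₀ ℕ) :
    Submodule L (ι → MvPolynomial (Fin n) L) :=
  BB ι L (Id I β.degree) ⊔ ((Mon n β.degree).filter fun b => key b < key β).sup S.O

/-- Non-standard monomials. -/
def NS (I : Ideal (MvPolynomial (Fin n) K)) : Set (Fin n →₀ ℕ) := {β | S.O β ≤ S.F I β}

lemma map_BB_le (I : Ideal (MvPolynomial (Fin n) K)) (d : ℕ) (i : Fin n) :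
    (BB ι L (Id I d)).map (S.op i) ≤ BB ι L (Id I (d + 1)) := by
  rintro _ ⟨t, ht, rfl⟩
  refine mem_piSub.mpr fun j => ?_
  rw [op_apply, Matrix.mulVec, dotProduct]
  refine Submodule.sum_mem _ fun k _ => ?_
  refine mul_mem_ext1 (A := homogeneousSubmodule (Fin n) K 1) (B := Id I d) ?_ ?_
    (mem_piSub.mp ht k)
  · intro a ha b hb
    exact ⟨by rw [add_comm]; exact IsHomogeneous.mul ha hb.1, I.mul_mem_left a hb.2⟩
  · rw [ext1_homog]; exact S.hom i j k

lemma O_add_single (β : Fin n →₀ ℕ) (i : Fin n) :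
    S.O (β + Finsupp.single i 1) = (S.O β).map (S.op i) := S.act_add_single _ _ _

lemma NS_add_single {I : Ideal (MvPolynomial (Fin n) K)} {β : Fin n →₀ ℕ} (h : β ∈ S.NS I)
    (i : Fin n) : β + Finsupp.single i 1 ∈ S.NS I := by
  change S.O _ ≤ S.F I _
  rw [O_add_single]
  refine (Submodule.map_mono h).trans ?_
  rw [F, F, Submodule.map_sup]
  have hdeg : (β + Finsupp.single i 1).degree = β.degree + 1 := by simp
  rw [hdeg]
  refine sup_le_sup (S.map_BB_le I _ i) ?_
  rw [Submodule.map_le_iff_le_comap]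
  refine Finset.sup_le fun b hb => ?_
  rw [← Submodule.map_le_iff_le_comap, ← O_add_single]
  rw [Finset.mem_filter, mem_Mon] at hb
  refine Finset.le_sup (f := S.O) ?_
  rw [Finset.mem_filter, mem_Mon]
  exact ⟨by simp [hb.1], key_add_lt hb.2 _⟩

lemma isUpperSet_NS (I : Ideal (MvPolynomial (Fin n) K)) : IsUpperSet (S.NS I) := by
  intro β γ hle hβ
  obtain ⟨δ, rfl⟩ := exists_add_of_le hle
  clear hle
  induction δ using finsupp_ind with
  | h0 => simpa using hβ
  | h1 δ i ih => rw [← add_assoc]; exact S.NS_add_single ih i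

lemma O_le_Td {β : Fin n →₀ ℕ} {d : ℕ} (h : β ∈ Mon n d) : S.O β ≤ Td ι n L d := by
  have := S.act_le_Td β (N := Td ι n L 0) le_rfl
  rwa [zero_add, mem_Mon.mp h] at this

lemma finrank_O (β : Fin n →₀ ℕ) : finrank L (S.O β) ≤ Fintype.card ι := by
  refine (S.finrank_act β (d := 0) le_rfl).trans ?_
  rw [finrank_Td, card_Mon]; simp

open Classical in
lemma card_NS (I : Ideal (MvPolynomial (Fin n) K)) (d : ℕ) :
    ((Mon n d).filter (· ∈ S.NS I)).card = finrank K (Id I d) := by
  have h := (count_jumps key key_injective S.Good S.good_sup (Td ι n L d)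
    (Fintype.card ι) (S.dvd d) (BB ι L (Id I d)) (S.good_BB d _ inf_le_left) (BB_le_Td I d) S.O
    (Mon n d) (fun β hβ => ⟨S.good_act β (S.good_Td 0), S.O_le_Td hβ, S.finrank_O β⟩)).2
  have htop : BB ι L (Id I d) ⊔ (Mon n d).sup S.O = Td ι n L d :=
    le_antisymm (sup_le (BB_le_Td I d) (Finset.sup_le fun β hβ => S.O_le_Td hβ))
      ((S.Td_le_mon d).trans le_sup_right)
  have : FiniteDimensional L (ext1 L (Id I d)) :=
    Submodule.finiteDimensional_of_le (ext1_le_homog (d := d) inf_le_left)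
  rw [htop, finrank_Td, finrank_piSub, finrank_ext1, ← mul_add] at h
  have hι : 0 < Fintype.card ι := by have := S.nonempty; exact Fintype.card_pos
  have h2 := Nat.eq_of_mul_eq_mul_left hι h
  have h3 := Finset.card_filter_add_card_filter_not (s := Mon n d) (fun β => β ∈ S.NS I)
  have h4 : (Mon n d).card = finrank K (Id I d) +
      ((Mon n d).filter (fun β => ¬ β ∈ S.NS I)).card := by
    rw [h2]
    congr 2
    ext β
    simp only [Finset.mem_filter, and_congr_right_iff]
    intro hβ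
    rw [NS, Set.mem_ofPred_eq, F, mem_Mon.mp hβ]
  omega

lemma W_le_sup (J : Finset (Fin n)) (m : ℕ) (s : Finset (Fin n →₀ ℕ))
    (hs : ∀ j ∈ J, ∀ γ ∈ Mon n m, γ + Finsupp.single j 1 ∈ s) : S.W J m ≤ s.sup S.O := by
  refine Finset.sup_le fun j hj => (Submodule.map_mono (S.Td_le_mon m)).trans ?_
  rw [Submodule.map_le_iff_le_comap]
  refine Finset.sup_le fun γ hγ => ?_
  rw [← Submodule.map_le_iff_le_comap]
  change (S.O γ).map (S.op j) ≤ _
  rw [← O_add_single]
  exact Finset.le_sup (f := S.O) (hs j hj γ hγ)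

lemma single_mem_NS (I : Ideal (MvPolynomial (Fin n) K)) (i : Fin n) (a : ℕ)
    (h : S.O (Finsupp.single i (a + 1)) ≤
      BB ι L (Id I (a + 1)) ⊔ S.W (Finset.univ.filter (i < ·)) a) :
    Finsupp.single i (a + 1) ∈ S.NS I := by
  refine h.trans ?_
  rw [F, Finsupp.degree_single]
  refine sup_le_sup_left (S.W_le_sup _ _ _ fun j hj γ hγ => ?_) _
  rw [Finset.mem_filter, mem_Mon]
  refine ⟨by simp [mem_Mon.mp hγ], key_lt_single (j := j) (by simpa using hj) (by simp) _⟩

/-- The end game: a monomial ideal with the same Hilbert function. -/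
theorem endgame (I : Ideal (MvPolynomial (Fin n) K)) (d : ℕ) :
    finrank K ↥(homogeneousSubmodule (Fin n) K d ⊓ I.restrictScalars K) =
      finrank K ↥(homogeneousSubmodule (Fin n) K d ⊓
        (Ideal.span ((fun m => monomial m (1 : K)) '' S.NS I)).restrictScalars K) := by
  classical
  rw [finrank_monomial_ideal K _ (S.isUpperSet_NS I), ← Id, ← S.card_NS I d]

lemma O_single (i : Fin n) (a : ℕ) : S.O (Finsupp.single i a) =
    (Td ι n L 0).map (((S.Z i) ^ a).mulVecLin.restrictScalars L) := by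
  induction a with
  | zero =>
    rw [Finsupp.single_zero, O, act_zero, pow_zero, Matrix.mulVecLin_one]
    exact (Submodule.map_id _).symm
  | succ a ih =>
    rw [Finsupp.single_add, O_add_single, ih, ← Submodule.map_comp, pow_succ',
      Matrix.mulVecLin_mul]
    rfl

end Setup

end Vale.Agent.P200
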