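import Vale.Agent.P200.CoreAbs
import Vale.Agent.P200.End3

/-! The degeneracy locus of one block has codimension two. -/

namespace Vale.Agent.P200

open MvPolynomial Module Finset

lemma exists_left_kernel {E C0 : Type*} [Field E] {r : ℕ} (M : Matrix (Fin r) C0 E)
    (h : ∀ e : Fin r → C0, (M.submatrix id e).det = 0) :
    ∃ l : Fin r → E, l ≠ 0 ∧ ∀ c, ∑ s, l s * M s c = 0 := by
  by_cases ht : Submodule.span E (Set.range fun c s => M s c) = ⊤
  · exfalso
    obtain ⟨f, hf, -, hli⟩ := Submodule.exists_fun_fin_finrank_span_eq E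
      (Set.range fun c s => M s c)
    have hr : r = finrank E (Submodule.span E (Set.range fun c s => M s c)) := by
      rw [ht, finrank_top]; simp
    choose e he using hf
    obtain ⟨v, hv, h0⟩ := Matrix.exists_mulVec_eq_zero_iff.mpr (h fun j => e (Fin.cast hr j))
    refine hv (funext (Fintype.linearIndependent_iff.mp
      (hli.comp (Fin.cast hr) (Fin.cast_injective hr)) v ?_))
    funext s
    have := congrFun h0 s
    simp only [Matrix.mulVec, dotProduct, Matrix.submatrix_apply, id] at this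
    simp only [Function.comp_apply, ← he, Finset.sum_apply, Pi.smul_apply, smul_eq_mul]
    rw [← this]
    exact sum_congr rfl fun j _ => mul_comm _ _
  · obtain ⟨φ, hφ, hk⟩ := Submodule.exists_le_ker_of_lt_top _ (lt_top_iff_ne_top.mpr ht)
    refine ⟨fun s => φ (Pi.single s 1), fun h0 => hφ ?_, fun c => ?_⟩
    · ext s
      simpa using congrFun h0 s
    · have := hk (Submodule.subset_span ⟨c, rfl⟩)
      rw [LinearMap.mem_ker, LinearMap.pi_apply_eq_sum_univ] at this
      rw [← this]
      refine sum_congr rfl fun s _ => ?_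
      rw [smul_eq_mul, mul_comm]
      refine congrArg (fun z => M s c * φ z) (funext fun j => ?_)
      simp [Pi.single_apply, eq_comm]

variable {R R' : Type*} [CommRing R] [CommRing R'] {n : ℕ}

/-- Linear forms. -/
noncomputable def lin (v : Fin n → R) : MvPolynomial (Fin n) R := ∑ j, C (v j) * X j

lemma map_lin (f : R →+* R') (v : Fin n → R) : map f (lin v) = lin fun j => f (v j) := by
  simp [lin]

lemma lin_single (i : Fin n) : lin (Pi.single i (1 : R)) = X i := by
  simp [lin, Pi.single_apply, apply_ite C]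

lemma lin_hom (v : Fin n → R) : (lin v).IsHomogeneous 1 :=
  IsHomogeneous.sum _ _ _ fun _ _ => isHomogeneous_C_mul_X _ _

/-- Functionals on the forms of degree `a`. -/
noncomputable def fn (a : ℕ) (c : (Fin n →₀ ℕ) → R) : MvPolynomial (Fin n) R →ₗ[R] R :=
  ∑ μ ∈ Mon n a, c μ • lcoeff R μ

lemma fn_apply (a : ℕ) (c : (Fin n →₀ ℕ) → R) (g : MvPolynomial (Fin n) R) :
    fn a c g = ∑ μ ∈ Mon n a, c μ * coeff μ g := by
  simp [fn, LinearMap.sum_apply]

lemma map_fn (f : R →+* R') (a : ℕ) (c : (Fin n →₀ ℕ) → R) (g : MvPolynomial (Fin n) R) :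
    f (fn a c g) = fn a (fun μ => f (c μ)) (map f g) := by
  simp [fn_apply, coeff_map]

lemma fn_monomial {a : ℕ} (c : (Fin n →₀ ℕ) → R) {d : Fin n →₀ ℕ} (hd : d.degree = a) :
    fn a c (monomial d 1) = c d := by
  simp [fn_apply, coeff_monomial, mem_Mon, hd]

lemma fn_lin_mul (a : ℕ) (c : (Fin n →₀ ℕ) → R) (v : Fin n → R) (g g' : MvPolynomial (Fin n) R) :
    fn a c (g * (lin v * g')) = ∑ j, fn a c (g * (X j * g')) * v j := by
  rw [lin, sum_mul, mul_sum, map_sum]
  refine sum_congr rfl fun j _ => ?_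
  rw [mul_assoc, mul_left_comm, ← smul_eq_C_mul, map_smul, smul_eq_mul, mul_comm]

lemma exists_prod_X (R : Type*) [CommRing R] {T : Type*} [Fintype T] (d : Fin n →₀ ℕ)
    (hd : d.degree = Fintype.card T) :
    ∃ μ : T → Fin n, ∏ t, (X (μ t) : MvPolynomial (Fin n) R) = monomial d 1 := by
  have key : ∀ k (d : Fin n →₀ ℕ), d.degree = k →
      ∃ μ : Fin k → Fin n, ∏ t, (X (μ t) : MvPolynomial (Fin n) R) = monomial d 1 := by
    intro k
    induction k with
    | zero =>
      intro d hd
      rw [Finsupp.degree_eq_zero_iff] at hd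
      exact ⟨Fin.elim0, by simp [hd]⟩
    | succ k ih =>
      intro d hd
      obtain ⟨i, hi⟩ : ∃ i, d i ≠ 0 := by
        by_contra h
        push Not at h
        rw [show d = 0 from Finsupp.ext h] at hd
        simp at hd
      obtain ⟨γ, rfl⟩ := exists_eq_add_single hi
      obtain ⟨μ, hμ⟩ := ih γ (by simpa using hd)
      refine ⟨Fin.cons i μ, ?_⟩
      rw [Fin.prod_univ_succ]
      simp only [Fin.cons_zero, Fin.cons_succ, hμ]
      rw [mul_comm, X, monomial_mul, mul_one]
  obtain ⟨μ, hμ⟩ := key _ d hd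
  exact ⟨μ ∘ Fintype.equivFin T, by rw [← hμ]; exact Equiv.prod_comp _ fun t => X (μ t)⟩

lemma par_trans [IsDomain R] {p q b : Fin n → R} (hb : b ≠ 0) (h1 : ∀ i j, p i * b j = p j * b i)
    (h2 : ∀ i j, b i * q j = b j * q i) (i j : Fin n) : p i * q j = p j * q i := by
  obtain ⟨k, hk⟩ := Function.ne_iff.mp hb
  apply mul_left_cancel₀ (mul_ne_zero hk hk)
  linear_combination b k * q j * h1 i k - b k * q i * h1 j k + p k * b i * h2 k j -
    p k * b j * h2 k i

variable {T : Type*} [Fintype T] [DecidableEq T] {a : ℕ}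

/-- The vector of values of a functional on a product of linear forms. -/
noncomputable def pv (a : ℕ) (c : (Fin n →₀ ℕ) → R) (η : T → Fin n → R) (i : Fin n) : R :=
  fn a c (X i * ∏ t, lin (η t))

omit [DecidableEq T] in
lemma map_pv (f : R →+* R') (c : (Fin n →₀ ℕ) → R) (η : T → Fin n → R) (i : Fin n) :
    f (pv a c η i) = pv a (fun μ => f (c μ)) (fun t j => f (η t j)) i := by
  simp [pv, map_fn, map_lin]

/-- The matrix of values. -/
noncomputable def pm (a : ℕ) (c : (Fin n →₀ ℕ) → R) (η : T → Fin n → R) (t : T) (i j : Fin n) : R :=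
  fn a c (X i * (X j * ∏ t' ∈ univ.erase t, lin (η t')))

lemma map_pm (f : R →+* R') (c : (Fin n →₀ ℕ) → R) (η : T → Fin n → R) (t : T) (i j : Fin n) :
    f (pm a c η t i j) = pm a (fun μ => f (c μ)) (fun t j => f (η t j)) t i j := by
  simp [pm, map_fn, map_lin]

lemma pv_eq (c : (Fin n →₀ ℕ) → R) (η : T → Fin n → R) (t : T) (i : Fin n) :
    pv a c η i = ∑ j, pm a c η t i j * η t j := by
  rw [pv, ← mul_prod_erase _ _ (mem_univ t), fn_lin_mul]
  rfl

lemma pm_congr (c : (Fin n →₀ ℕ) → R) {η η' : T → Fin n → R} {t : T}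
    (h : ∀ t', t' ≠ t → η t' = η' t') : pm a c η t = pm a c η' t := by
  funext i j
  rw [pm, pm, prod_congr rfl fun t' ht' => by rw [h t' (ne_of_mem_erase ht')]]

lemma pm_swap (c : (Fin n →₀ ℕ) → R) (η : T → Fin n → R) (t t0 : T) :
    pm a c (η ∘ Equiv.swap t t0) t0 = pm a c η t := by
  funext i j
  rw [pm, pm]
  congr 3
  refine prod_equiv (Equiv.swap t t0) (fun x => ?_) fun _ _ => rfl
  simp only [mem_erase, mem_univ, and_true, ne_eq, Equiv.swap_apply_eq_iff, Equiv.swap_apply_left]

variable {A : Type*} [CommRing A] [IsDomain A]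

omit [DecidableEq T] [IsDomain A] in
lemma pv_spec (ha : Fintype.card T + 1 = a) (c : (Fin n →₀ ℕ) → A) {d : Fin n →₀ ℕ}
    (hd : d.degree = Fintype.card T) :
    ∃ η : T → Fin n → A, ∀ i, pv a c η i = c (d + Finsupp.single i 1) := by
  obtain ⟨μ, hμ⟩ := exists_prod_X A d hd
  refine ⟨fun t => Pi.single (μ t) 1, fun i => ?_⟩
  simp only [pv, lin_single, hμ]
  rw [mul_comm, X, monomial_mul, mul_one, fn_monomial]
  simp [hd, ha]

omit [DecidableEq T] [IsDomain A] in
lemma pv_ne_zero (ha : Fintype.card T + 1 = a) {c : (Fin n →₀ ℕ) → A}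
    (hc : ∃ μ ∈ Mon n a, c μ ≠ 0) :
    pv a (fun μ => C (c μ)) (fun t j => (X (t, j) : MvPolynomial (T × Fin n) A)) ≠ 0 := by
  obtain ⟨μ, hμ, h⟩ := hc
  rw [mem_Mon] at hμ
  obtain ⟨i, hi⟩ : ∃ i, μ i ≠ 0 := by
    by_contra h
    push Not at h
    rw [show μ = 0 from Finsupp.ext h] at hμ
    simp at hμ
    omega
  obtain ⟨d, rfl⟩ := exists_eq_add_single hi
  obtain ⟨η, hη⟩ := pv_spec ha c (d := d) (by simp at hμ; omega)
  intro h0
  have := map_pv (a := a) (eval fun v : T × Fin n => η v.1 v.2) (fun μ => C (c μ))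
    (fun t j => X (t, j)) i
  simp only [h0, Pi.zero_apply, map_zero, eval_C, eval_X, hη] at this
  exact h this.symm

lemma rank_one_false (ha : Fintype.card T + 1 = a) {c : (Fin n →₀ ℕ) → A}
    (hc : ∃ μ ∈ Mon n a, c μ ≠ 0) (U : Set (MvPolynomial (Fin n) A))
    (hU : ∀ u ∈ U, u.IsHomogeneous a ∧ fn a c u = 0) {N : ℕ} (hN : ∀ j, X j ^ N ∈ Ideal.span U)
    (t0 : T) (β : Fin n → Fin n → MvPolynomial (T × Fin n) A)
    (hβ : β = pm a (fun μ => C (c μ)) (fun t j => X (t, j)) t0)
    (h : ∀ i i' j j', β i j * β i' j' = β i' j * β i j') : False := by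
  subst hβ
  let R2 := MvPolynomial (Bool × T × Fin n) A
  have H1 : ∀ (η : T → Fin n → R2) t i i' j j', pm a (fun μ => C (c μ)) η t i j *
      pm a (fun μ => C (c μ)) η t i' j' = pm a (fun μ => C (c μ)) η t i' j *
      pm a (fun μ => C (c μ)) η t i j' := by
    intro η t i i' j j'
    have := congrArg (eval₂Hom C fun v : T × Fin n => η (Equiv.swap t t0 v.1) v.2) (h i i' j j')
    simp only [map_mul, map_pm, eval₂Hom_C, eval₂Hom_X'] at this
    rw [← pm_swap _ η t t0]
    exact this
  let mix : Finset T → T → Fin n → R2 := fun S t j => X (decide (t ∈ S), t, j)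
  have H2 : ∀ S, pv a (fun μ => C (c μ)) (mix S) ≠ 0 := by
    intro S h0
    refine pv_ne_zero ha hc (funext fun i => ?_)
    have := map_pv (a := a) (eval₂Hom C fun v : Bool × T × Fin n =>
      (X v.2 : MvPolynomial (T × Fin n) A)) (fun μ => C (c μ)) (mix S) i
    simp only [h0, Pi.zero_apply, map_zero, eval₂Hom_C, eval₂Hom_X', mix] at this
    exact this.symm
  have H3 : ∀ S i i', pv a (fun μ => C (c μ)) (mix S) i * pv a (fun μ => C (c μ)) (mix ∅) i' =
      pv a (fun μ => C (c μ)) (mix S) i' * pv a (fun μ => C (c μ)) (mix ∅) i := by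
    intro S
    induction S using Finset.induction_on with
    | empty => intro i i'; exact mul_comm _ _
    | insert t S _ ih =>
      refine par_trans (H2 S) (fun i i' => ?_) ih
      rw [pv_eq _ _ t, pv_eq _ _ t, pv_eq _ _ t, pv_eq _ _ t,
        pm_congr _ (η := mix (insert t S)) (η' := mix S) fun t' ht' => by simp [mix, ht'],
        sum_mul_sum, sum_mul_sum]
      refine sum_congr rfl fun j _ => sum_congr rfl fun j' _ => ?_
      linear_combination mix (insert t S) t j * mix S t j' * H1 (mix S) t i i' j j'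
  set p := pv a (fun μ => C (c μ)) (fun t j => (X (t, j) : MvPolynomial (T × Fin n) A)) with hp
  have H4 : ∀ d : Fin n →₀ ℕ, d.degree = Fintype.card T → ∀ i i',
      C (c (d + Finsupp.single i 1)) * p i' = C (c (d + Finsupp.single i' 1)) * p i := by
    intro d hd i i'
    obtain ⟨η, hη⟩ := pv_spec ha c hd
    have := congrArg (eval₂Hom C fun v : Bool × T × Fin n =>
      if v.1 then C (η v.2.1 v.2.2) else (X v.2 : MvPolynomial (T × Fin n) A)) (H3 univ i i')
    simp only [map_mul, map_pv, eval₂Hom_C, eval₂Hom_X', mix, mem_univ, decide_true, if_true,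
      notMem_empty, decide_false, Bool.false_eq_true, if_false] at this
    rwa [← map_pv C c η, ← map_pv C c η, hη, hη] at this
  obtain ⟨j, hj⟩ := Function.ne_iff.mp (pv_ne_zero ha hc)
  rw [← hp, Pi.zero_apply] at hj
  have H5 : ∀ d : Fin n →₀ ℕ, ∀ k, d.degree + k = a → C (c (d + Finsupp.single j k)) *
      p j ^ d.degree = C (c (Finsupp.single j a)) * d.prod fun i e => p i ^ e := by
    intro d
    induction d using finsupp_ind with
    | h0 => intro k hk; simp at hk; simp [hk]
    | h1 d i ih =>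
      intro k hk
      simp only [map_add, Finsupp.degree_single] at hk ⊢
      have h1 := H4 (d + Finsupp.single j k) (by simp; omega) i j
      have h2 := ih (k + 1) (by omega)
      rw [Finsupp.prod_add_index' (by simp) (fun _ _ _ => pow_add _ _ _),
        Finsupp.prod_single_index (by simp), pow_one, add_right_comm, pow_succ]
      rw [Finsupp.single_add, ← add_assoc] at h2
      linear_combination p j ^ d.degree * h1 + p i * h2
  have H6 : ∀ μ ∈ Mon n a, C (c μ) * p j ^ a =
      C (c (Finsupp.single j a)) * μ.prod fun i e => p i ^ e := by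
    intro μ hμ
    have := H5 μ 0 (mem_Mon.mp hμ)
    rwa [Finsupp.single_zero, add_zero, mem_Mon.mp hμ] at this
  have H7 : (C (c (Finsupp.single j a)) : MvPolynomial (T × Fin n) A) ≠ 0 := by
    intro h0
    obtain ⟨μ, hμ, h⟩ := hc
    have := H6 μ hμ
    rw [h0, zero_mul] at this
    exact mul_ne_zero (C_ne_zero.mpr h) (pow_ne_zero _ hj) this
  have H8 : Ideal.span U ≤ RingHom.ker (eval₂Hom C p) := by
    rw [Ideal.span_le]
    intro u hu
    obtain ⟨h1, h2⟩ := hU u hu
    change eval₂Hom C p u = 0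
    apply mul_left_cancel₀ H7
    have h3 : u = ∑ μ ∈ Mon n a, monomial μ (coeff μ u) := by
      conv_lhs => rw [u.as_sum]
      refine sum_subset (fun μ hμ => mem_Mon.mpr ?_) fun μ _ hμ => by
        rw [notMem_support_iff.mp hμ, monomial_zero]
      by_contra h4
      exact MvPolynomial.mem_support_iff.mp hμ (h1.coeff_eq_zero h4)
    rw [h3, map_sum, mul_sum, mul_zero, ← zero_mul (p j ^ a), ← C_0, ← h2, fn_apply, map_sum,
      sum_mul]
    refine sum_congr rfl fun μ hμ => ?_
    rw [eval₂Hom_monomial, map_mul]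
    linear_combination (-C (coeff μ u)) * H6 μ hμ
  have := H8 (hN j)
  rw [RingHom.mem_ker, map_pow, eval₂Hom_X'] at this
  exact pow_ne_zero _ hj this

lemma pm_mem (c : (Fin n →₀ ℕ) → A) (t0 : T) (i j : Fin n) :
    pm a (fun μ => C (c μ)) (fun t j => (X (t, j) : MvPolynomial (T × Fin n) A)) t0 i j ∈
      supported A {v | v.1 ≠ t0} := by
  let S := supported A {v : T × Fin n | v.1 ≠ t0}
  have := map_pm (a := a) S.val.toRingHom (fun μ => algebraMap A S (c μ))
    (fun t j => if h : t = t0 then 0 else ⟨X (t, j), X_mem_supported.mpr h⟩) t0 i j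
  rw [pm_congr _ (η' := fun t j => X (t, j)) fun t' ht' => by simp [ht']] at this
  have e : (fun μ => S.val.toRingHom (algebraMap A S (c μ))) = fun μ => C (c μ) := rfl
  rw [e] at this
  rw [← this]
  exact Subtype.property _

/-- The block lemma. -/
theorem block (ha : Fintype.card T + 1 = a) {c : (Fin n →₀ ℕ) → A}
    (hc : ∃ μ ∈ Mon n a, c μ ≠ 0) (U : Set (MvPolynomial (Fin n) A))
    (hU : ∀ u ∈ U, u.IsHomogeneous a ∧ fn a c u = 0) {N : ℕ} (hN : ∀ j, X j ^ N ∈ Ideal.span U)
    (v0 : T × Fin n) : ∃ q ∈ supported A {v | v ≠ v0}, q ≠ 0 ∧ q ∈ Ideal.span (Set.range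
      (pv a (fun μ => C (c μ)) (fun t j => (X (t, j) : MvPolynomial (T × Fin n) A)))) := by
  obtain ⟨t0, j0⟩ := v0
  by_contra hcon
  push Not at hcon
  set p := pv a (fun μ => C (c μ)) (fun t j => (X (t, j) : MvPolynomial (T × Fin n) A)) with hp
  set β := pm a (fun μ => C (c μ)) (fun t j => (X (t, j) : MvPolynomial (T × Fin n) A)) t0 with hβ
  have hβm : ∀ i j, β i j ∈ supported A {v | v ≠ (t0, j0)} := fun i j =>
    supported_mono (fun (v : T × Fin n) (hv : v.1 ≠ t0) (h : v = (t0, j0)) => hv (by rw [h]))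
      (pm_mem c t0 i j)
  have hpe : ∀ i, p i = β i j0 * X (t0, j0) + ∑ j ∈ univ.erase j0, β i j * X (t0, j) := fun i => by
    rw [hp, pv_eq _ _ t0, ← add_sum_erase _ _ (mem_univ j0)]
  have hsm : ∀ i, ∑ j ∈ univ.erase j0, β i j * X (t0, j) ∈ supported A {v | v ≠ (t0, j0)} :=
    fun i => Subalgebra.sum_mem _ fun j hj => mul_mem (hβm i j) (X_mem_supported.mpr fun h =>
      ne_of_mem_erase hj (Prod.mk.inj h).2)
  have hb : (fun i => β i j0) ≠ 0 := by
    intro h0
    refine pv_ne_zero ha hc (funext fun i => ?_)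
    by_contra h1
    refine hcon (p i) ?_ h1 (Ideal.subset_span ⟨i, rfl⟩)
    rw [hpe, show β i j0 = 0 from congrFun h0 i, zero_mul, zero_add]
    exact hsm i
  have h1 : ∀ i i', β i j0 * p i' = β i' j0 * p i := by
    intro i i'
    by_contra h1
    refine hcon _ ?_ (sub_ne_zero.mpr h1) (sub_mem
      (Ideal.mul_mem_left _ _ (Ideal.subset_span ⟨i', rfl⟩))
      (Ideal.mul_mem_left _ _ (Ideal.subset_span ⟨i, rfl⟩)))
    convert sub_mem (mul_mem (hβm i j0) (hsm i')) (mul_mem (hβm i' j0) (hsm i)) using 1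
    rw [hpe, hpe]
    ring
  have h2 : ∀ j i i', β i j0 * β i' j = β i' j0 * β i j := by
    intro j i i'
    let η : T → Fin n → MvPolynomial (T × Fin n) A := fun t l =>
      if t = t0 then Pi.single (M := fun _ => MvPolynomial (T × Fin n) A) j 1 l else X (t, l)
    have := congrArg (eval₂Hom C fun v : T × Fin n => η v.1 v.2) (h1 i i')
    simp only [map_mul, hp, hβ, map_pv, map_pm, eval₂Hom_C, eval₂Hom_X', pv_eq _ η t0] at this
    rw [pm_congr _ (η := η) (η' := fun t j => X (t, j)) fun t' ht' => by simp [η, ht']] at this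
    simpa [η, Pi.single_apply] using this
  refine rank_one_false ha hc U hU hN t0 β hβ fun i i' j j' => ?_
  exact par_trans (p := fun i => β i j) (q := fun i => β i j') hb
    (fun i i' => by rw [mul_comm, ← h2, mul_comm]) (h2 j') i i'

end Vale.Agent.P200
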