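import Vale.Agent.P200.Block

/-! The universal family of cyclic blocks. -/

namespace Vale.Agent.P200

open MvPolynomial Module Finset

universe u

section ch

variable {F σ Λ : Type*} [CommRing F] [AddCommGroup Λ] {wt : σ → Λ} {n : ℕ}

/-- Polynomials with homogeneous coefficients. -/
def CH (wt : σ → Λ) (l : Λ) (g : MvPolynomial (Fin n) (MvPolynomial σ F)) : Prop :=
  ∀ μ, (coeff μ g).IsWeightedHomogeneous wt l

lemma CH.mul {l l' : Λ} {g g' : MvPolynomial (Fin n) (MvPolynomial σ F)} (h : CH wt l g)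
    (h' : CH wt l' g') : CH wt (l + l') (g * g') := by
  classical
  intro μ
  rw [coeff_mul]
  exact IsWeightedHomogeneous.sum _ _ _ fun x _ => (h _).mul (h' _)

lemma CH.sum {α : Type*} {l : Λ} (s : Finset α) {g : α → MvPolynomial (Fin n) (MvPolynomial σ F)}
    (h : ∀ x ∈ s, CH wt l (g x)) : CH wt l (∑ x ∈ s, g x) := fun μ => by
  rw [coeff_sum]
  exact IsWeightedHomogeneous.sum _ _ _ fun x hx => h x hx μ

lemma CH_map (g : MvPolynomial (Fin n) F) :
    CH wt 0 (map (C : F →+* MvPolynomial σ F) g) := fun μ => by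
  rw [coeff_map]; exact isWeightedHomogeneous_C _ _

lemma CH_C {l : Λ} {p : MvPolynomial σ F} (h : p.IsWeightedHomogeneous wt l) :
    CH wt l (C p : MvPolynomial (Fin n) _) := fun μ => by
  classical
  rw [coeff_C]
  split_ifs
  exacts [h, isWeightedHomogeneous_zero _ _ _]

lemma CH_X (j : Fin n) : CH wt 0 (X j : MvPolynomial (Fin n) (MvPolynomial σ F)) := by
  simpa using CH_map (wt := wt) (X j : MvPolynomial (Fin n) F)

lemma CH_lin {l : Λ} {v : Fin n → MvPolynomial σ F} (h : ∀ j, (v j).IsWeightedHomogeneous wt l) :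
    CH wt l (lin v) :=
  CH.sum _ fun j _ => by simpa using (CH_C (h j)).mul (CH_X j)

lemma CH.prod {α : Type*} (s : Finset α) {l : α → Λ}
    {g : α → MvPolynomial (Fin n) (MvPolynomial σ F)} (h : ∀ x ∈ s, CH wt (l x) (g x)) :
    CH wt (∑ x ∈ s, l x) (∏ x ∈ s, g x) := by
  classical
  induction s using Finset.induction_on with
  | empty => simpa using CH_map (wt := wt) (1 : MvPolynomial (Fin n) F)
  | insert x s hx ih =>
    rw [sum_insert hx, prod_insert hx]
    exact (h x (mem_insert_self _ _)).mul (ih fun y hy => h y (mem_insert_of_mem hy))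

lemma CH.fn {l : Λ} {g : MvPolynomial (Fin n) (MvPolynomial σ F)} (h : CH wt l g) (a : ℕ)
    (c : (Fin n →₀ ℕ) → F) : (fn a (fun μ => C (c μ)) g).IsWeightedHomogeneous wt l := by
  rw [fn_apply]
  exact IsWeightedHomogeneous.sum _ _ _ fun μ _ => by
    simpa using (isWeightedHomogeneous_C wt (c μ)).mul (h μ)

lemma hom_rename (g : Λ →+ Λ) (p : σ → σ) (hp : ∀ v, wt (p v) = g (wt v)) (d : σ →₀ ℕ) (b : F) :
    (rename p (monomial d b)).IsWeightedHomogeneous wt (g (Finsupp.weight wt d)) := by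
  rw [rename_monomial]
  refine isWeightedHomogeneous_monomial _ _ _ ?_
  rw [Finsupp.weight_apply, Finsupp.weight_apply, Finsupp.sum_mapDomain_index (by simp)
    (fun _ _ _ => add_smul _ _ _), Finsupp.sum, Finsupp.sum, map_sum]
  exact sum_congr rfl fun v _ => by rw [map_nsmul, hp]

end ch

lemma π_rename {F σ Λ : Type*} [Field F] [AddCommGroup Λ] {wt : σ → Λ}
    {G : Gr F wt (MvPolynomial σ F)} (h1 : G.π 0 1 = 1) (g : Λ →+ Λ) (hg : Function.Injective g)
    (p : σ → σ) (hp : ∀ v, wt (p v) = g (wt v)) (χ : Λ) (q : MvPolynomial σ F) :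
    G.π (g χ) (rename p q) = rename p (G.π χ q) := by
  rw [q.as_sum]
  simp only [map_sum]
  refine sum_congr rfl fun d _ => ?_
  have h2 := π_eq_of_hom h1 (hom_rename g p hp d (coeff d q))
  have h3 := π_eq_of_hom h1 (isWeightedHomogeneous_monomial wt d (coeff d q) rfl)
  by_cases h : χ = Finsupp.weight wt d
  · rw [h, h2, h3]
  · rw [Gr.π_of_hom h2 fun h' => h (hg h'), Gr.π_of_hom h3 h, map_zero]

lemma val_add_one {a : ℕ} (ha : 2 ≤ a) (b : ZMod a) :
    ((b + 1).val : ℤ) = b.val + 1 - if b = -1 then (a : ℤ) else 0 := by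
  obtain ⟨a, rfl⟩ : ∃ a', a = a' + 1 := ⟨a - 1, by omega⟩
  have : Fact (1 < a + 1) := ⟨ha⟩
  split_ifs with h
  · simp [h, ZMod.val_neg_one]
  · have h1 : (b + 1).val ≠ 0 := by
      rw [Ne, ZMod.val_eq_zero]
      exact fun h' => h (eq_neg_of_add_eq_zero_left h')
    have h2 := ZMod.val_lt b
    rw [ZMod.val_add, ZMod.val_one] at h1 ⊢
    rw [Nat.mod_eq_of_lt (lt_of_le_of_ne h2 fun h => h1 (by
      rw [show b.val + 1 = a + 1 from h, Nat.mod_self]))]
    simp

/-- The blocks. -/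
abbrev Blk (c m : ℕ) := Lex (Fin c × Fin m)

/-- The variables. -/
abbrev Var (n c r m a : ℕ) := (Blk c m × ZMod a × Fin n) ⊕ (Fin c × Fin r)

/-- The weights. -/
abbrev Lam (c m a : ℕ) := ℤ × (Blk c m × ZMod a → ℤ)

variable {F : Type u} [Field F] {n c r m a : ℕ} [NeZero a]

/-- The generic linear forms. -/
noncomputable def xv (F : Type u) [Field F] (n r : ℕ) (k : Blk c m) (t : ZMod a) (j : Fin n) :
    MvPolynomial (Var n c r m a) F := X (Sum.inl (k, t, j))

/-- The system of equations. -/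
noncomputable def sys (c m a : ℕ) [NeZero a] (ψ : Fin r → (Fin n →₀ ℕ) → F) :
    LinSys F (Var n c r m a) (Fin c) (Fin m × Fin n) r where
  y v := Sum.inl (toLex (v.1, v.2.1), 0, v.2.2)
  τ := Sum.inr
  base i := univ.filter fun v => ∃ k t j, t ≠ 0 ∧ v = Sum.inl (toLex (i, k), t, j)
  M i := Matrix.of fun s v => pv a (fun μ => C (ψ s μ))
    (fun t : {t : ZMod a // t ≠ 0} => xv F n r (toLex (i, v.1)) t) v.2
  y_inj := by rintro ⟨i, k, j⟩ ⟨i', k', j'⟩ h; simpa [and_assoc] using h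
  τ_inj := Sum.inr_injective
  y_ne_τ _ _ := Sum.inl_ne_inr
  y_base := by rintro ⟨i, k, j⟩ i'; simp
  τ_base := by simp
  M_supp i s v := by
    let S := supported F ((univ.filter fun v : Var n c r m a =>
      ∃ k t j, t ≠ 0 ∧ v = Sum.inl (toLex (i, k), t, j) : Finset _) : Set (Var n c r m a))
    have := map_pv (a := a) S.val.toRingHom (fun μ => algebraMap F S (ψ s μ))
      (fun (t : {t : ZMod a // t ≠ 0}) j => ⟨xv F n r (toLex (i, v.1)) t j,
        X_mem_supported.mpr (mem_filter.mpr ⟨mem_univ _, _, _, _, t.2, rfl⟩)⟩) v.2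
    have e : (fun μ => S.val.toRingHom (algebraMap F S (ψ s μ))) = fun μ => C (ψ s μ) := rfl
    rw [e] at this
    rw [Matrix.of_apply]
    exact Eq.subst (motive := fun z => z ∈ S) this (Subtype.property _)

/-- The sums of products of linear forms. -/
noncomputable def gg (F : Type u) [Field F] (n r m a : ℕ) [NeZero a] (i : Fin c) :
    MvPolynomial (Fin n) (MvPolynomial (Var n c r m a) F) :=
  ∑ k : Fin m, ∏ t : ZMod a, lin (xv F n r (toLex (i, k)) t)

variable (ψ : Fin r → (Fin n →₀ ℕ) → F)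

lemma sys_w (s : Fin c × Fin r) :
    (sys c m a ψ).w s = fn a (fun μ => C (ψ s.2 μ)) (gg F n r m a s.1) := by
  rw [LinSys.w, gg, map_sum, Fintype.sum_prod_type]
  refine sum_congr rfl fun k _ => ?_
  rw [Fintype.prod_eq_mul_prod_subtype_ne _ 0, ← one_mul (_ * _), fn_lin_mul]
  simp only [one_mul]
  rfl

/-- The weights of the variables. -/
def wtv (n r : ℕ) : Var n c r m a → Lam c m a × ℤ :=
  Sum.elim (fun v => ((1, Pi.single (v.1, v.2.1 - 1) 1 - Pi.single (v.1, v.2.1) 1), 0))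
    fun _ => ((-a, 0), 2)

lemma sum_wtv (k : Blk c m) (j : Fin n) :
    ∑ t : ZMod a, wtv n r (Sum.inl (k, t, j)) = (((a : ℤ), 0), 0) := by
  have := Equiv.sum_comp (Equiv.subRight (1 : ZMod a))
    fun t => (Pi.single (k, t) 1 : Blk c m × ZMod a → ℤ)
  simp only [Equiv.subRight_apply] at this
  refine Prod.ext (Prod.ext ?_ ?_) ?_ <;> simp [wtv, Prod.fst_sum, Prod.snd_sum, this]

lemma sys_wt : (sys c m a ψ).Wt (wtv n r) ((a : ℤ), 0) where
  y2 _ := rfl
  y1 _ h := one_ne_zero (congrArg Prod.fst h)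
  τ _ := by simp [sys, wtv]
  M i s v := by
    have := ((CH_X v.2).mul (CH.prod (wt := wtv n r) univ
      (l := fun t : {t : ZMod a // t ≠ 0} => wtv n r (Sum.inl (toLex (i, v.1), t.1, v.2)))
      (g := fun t => lin (xv F n r (toLex (i, v.1)) t.1)) fun t _ =>
        CH_lin fun j => isWeightedHomogeneous_X F _ _)).fn a (ψ s)
    rw [zero_add] at this
    rw [show ((((a : ℤ), 0), 0) : Lam c m a × ℤ) - wtv n r ((sys c m a ψ).y (i, v)) = _ from
      (sub_eq_iff_eq_add'.mpr ((sum_wtv (r := r) (toLex (i, v.1)) v.2).symm.trans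
        (Fintype.sum_eq_add_sum_subtype_ne _ 0)))]
    exact this
  even v := by cases v <;> simp [wtv]

omit [NeZero a] in
lemma sum_pv {R T : Type*} [CommRing R] [Fintype T] (l : Fin r → R) (ψ : Fin r → (Fin n →₀ ℕ) → R)
    (η : T → Fin n → R) (j : Fin n) :
    ∑ s, l s * pv a (ψ s) η j = pv a (fun μ => ∑ s, l s * ψ s μ) η j := by
  simp only [pv, fn_apply, mul_sum, sum_mul, mul_assoc]
  exact sum_comm

lemma sys_C1 (ha : 2 ≤ a) (hs : ∀ v : Fin r → F, ∃ g, ∀ s, fn a (ψ s) g = v s) {N : ℕ}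
    (hN : ∀ j, (X j : MvPolynomial (Fin n) F) ^ N ∈
      Ideal.span {u | u.IsHomogeneous a ∧ ∀ s, fn a (ψ s) u = 0}) {s0 : ℕ} (hm : s0 + r ≤ 2 * m) :
    (sys c m a ψ).C1 s0 := by
  intro i E _ _ x hx Y hY hind
  by_contra hlt
  obtain ⟨l, hl0, hl⟩ := exists_left_kernel (((sys c m a ψ).M i).map (aeval x)) fun e => by
    have := hx e
    rw [LinSys.δ, AlgHom.map_det] at this
    exact this
  obtain ⟨Y', hY', hc, hind'⟩ := exists_indep_over hind l
  have hm0 : 0 < m := by omega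
  obtain ⟨k, -, hk⟩ := Finset.exists_card_fiber_lt_of_card_lt_mul
    (s := (sys c m a ψ).base i \ Y') (t := univ) (n := 2)
    (f := Sum.elim (fun v => (ofLex v.1).2) fun _ => (⟨0, hm0⟩ : Fin m)) (by
      have h1 := card_sdiff_of_subset hY
      have h2 := card_sdiff_of_subset (hY'.trans hY)
      have h3 := card_le_card hY
      simp only [card_univ, Fintype.card_fin]
      omega)
  let T := {t : ZMod a // t ≠ 0}
  let emb : T × Fin n → Var n c r m a := fun v => Sum.inl (toLex (i, k), v.1.1, v.2)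
  have hemb : Function.Injective emb := by
    rintro ⟨t, j⟩ ⟨t', j'⟩ h
    simp only [emb, Sum.inl.injEq, Prod.mk.injEq, true_and] at h
    exact Prod.ext (Subtype.ext h.1) h.2
  have hcard : Fintype.card T + 1 = a := by
    simp only [T, ne_eq, Fintype.card_subtype_compl, ZMod.card, Fintype.card_unique]
    omega
  let A := Algebra.adjoin F (Set.range l)
  let l' : Fin r → A := fun s => ⟨l s, Algebra.subset_adjoin ⟨s, rfl⟩⟩
  let cc : (Fin n →₀ ℕ) → A := fun μ => ∑ s, l' s * algebraMap F A (ψ s μ)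
  have hfn : ∀ g, fn a cc (map (algebraMap F A) g) = ∑ s, l' s * algebraMap F A (fn a (ψ s) g) := by
    intro g
    simp only [fn_apply, cc, coeff_map, sum_mul, map_sum, mul_sum, map_mul, mul_assoc]
    exact sum_comm
  have hcc : ∃ μ ∈ Mon n a, cc μ ≠ 0 := by
    by_contra h
    push Not at h
    refine hl0 (funext fun s => ?_)
    obtain ⟨g, hg⟩ := hs (Pi.single s 1)
    have := hfn g
    rw [fn_apply, sum_eq_zero fun μ hμ => by rw [h μ hμ, zero_mul]] at this
    simp only [hg, Pi.single_apply, apply_ite (algebraMap F A), map_one, map_zero, mul_ite, mul_one,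
      mul_zero, sum_ite_eq', mem_univ, if_true] at this
    exact (congrArg Subtype.val this).symm
  obtain ⟨v0, hv0⟩ : ∃ v0 : T × Fin n, ∀ v, v ≠ v0 → emb v ∈ Y' := by
    by_cases h : ∀ v, emb v ∈ Y'
    · obtain ⟨μ, hμ, -⟩ := hcc
      rw [mem_Mon] at hμ
      obtain ⟨j, -⟩ : ∃ j, μ j ≠ 0 := by
        by_contra h
        push Not at h
        rw [show μ = 0 from Finsupp.ext h] at hμ
        simp at hμ
        omega
      obtain ⟨t⟩ : Nonempty T := Fintype.card_pos_iff.mp (by omega)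
      exact ⟨(t, j), fun v _ => h v⟩
    · push Not at h
      obtain ⟨v0, h⟩ := h
      refine ⟨v0, fun v hv => ?_⟩
      by_contra h'
      have hb : ∀ v, emb v ∈ (sys c m a ψ).base i := fun v =>
        mem_filter.mpr ⟨mem_univ _, _, _, _, v.1.2, rfl⟩
      exact hv (hemb (card_le_one.mp (Nat.lt_succ_iff.mp hk)
        _ (mem_filter.mpr ⟨mem_sdiff.mpr ⟨hb v, h'⟩, rfl⟩)
        _ (mem_filter.mpr ⟨mem_sdiff.mpr ⟨hb v0, h⟩, rfl⟩)))
  obtain ⟨q, hq, hq0, hqs⟩ := block hcard hcc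
    (map (algebraMap F A) '' {u | u.IsHomogeneous a ∧ ∀ s, fn a (ψ s) u = 0})
    (by
      rintro _ ⟨u, ⟨h1, h2⟩, rfl⟩
      exact ⟨h1.map _, by simp [hfn, h2]⟩) (N := N) (fun j => by
      have := Ideal.mem_map_of_mem (map (algebraMap F A)) (hN j)
      rwa [Ideal.map_span, map_pow, map_X] at this) v0
  refine not_indep (x := x ∘ emb) hq hq0 ?_ (hind'.comp
    (fun v : {v : T × Fin n | v ≠ v0} => ⟨emb v.1, hv0 v.1 v.2⟩)
    fun v v' h => Subtype.ext (hemb (congrArg Subtype.val h)))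
  refine (show Ideal.span _ ≤ RingHom.ker (aeval (x ∘ emb)) from Ideal.span_le.mpr ?_) hqs
  rintro _ ⟨j, rfl⟩
  have h1 := hl (k, j)
  have h2 : ∀ s, aeval x ((sys c m a ψ).M i s (k, j)) =
      pv a (fun μ => algebraMap F E (ψ s μ)) (fun (t : T) j => x (emb (t, j))) j := fun s => by
    have := map_pv (a := a) (aeval x).toRingHom (fun μ => C (ψ s μ))
      (fun t : T => xv F n r (toLex (i, k)) t) j
    simp only [AlgHom.toRingHom_eq_coe, RingHom.coe_coe, aeval_C, xv, aeval_X] at this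
    exact this
  have h3 := map_pv (a := a) (aeval (R := A) (x ∘ emb)).toRingHom (fun μ => C (cc μ))
    (fun t j => X (t, j)) j
  simp only [AlgHom.toRingHom_eq_coe, RingHom.coe_coe, aeval_C, aeval_X, Function.comp_apply] at h3
  simp only [Matrix.map_apply, h2] at h1
  change aeval (x ∘ emb) _ = 0
  rw [h3, ← h1, sum_pv]
  congr 1
  funext μ
  simp only [cc, map_sum, map_mul]
  rfl

end Vale.Agent.P200
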