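import Vale.Agent.P200.Core

/-! The symmetries of the universal family and the divisibility of ranks. -/

namespace Vale.Agent.P200

open MvPolynomial Module Finset

universe u

variable {F : Type u} [Field F] {n c r m a : ℕ} [NeZero a]

/-- The index set. -/
abbrev GG (c m a : ℕ) := Blk c m → ZMod a

/-- The shifts of the grading. -/
def shv (β : GG c m a) : Lam c m a × ℤ := ((0, ∑ k, Pi.single (k, β k) 1), 0)

/-- The rotation of one block. -/
def rho (k : Blk c m) : Blk c m × ZMod a ≃ Blk c m × ZMod a :=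
  Equiv.prodCongrRight fun l => Equiv.addRight ((Pi.single k 1 : GG c m a) l)

/-- The rotation of weights. -/
noncomputable def gL (k : Blk c m) : Lam c m a ≃+ Lam c m a :=
  (AddEquiv.refl ℤ).prodCongr (LinearEquiv.funCongrLeft ℤ ℤ (rho k).symm).toAddEquiv

omit [NeZero a] in
lemma gL_apply (k : Blk c m) (χ : Lam c m a) :
    gL k χ = (χ.1, fun x => χ.2 (x.1, x.2 - (Pi.single k 1 : GG c m a) x.1)) := by
  ext x
  · rfl
  · simp only [sub_eq_add_neg]
    rfl

omit [NeZero a] in
lemma gL_single (k l : Blk c m) (b : ZMod a) (z : ℤ) : gL k (z, Pi.single (l, b) 1) =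
    (z, Pi.single (l, b + (Pi.single k 1 : GG c m a) l) 1) := by
  rw [gL_apply]
  ext ⟨l', b'⟩
  · rfl
  · by_cases h : l' = l
    · subst h; simp [Pi.single_apply, sub_eq_iff_eq_add]
    · simp [Pi.single_apply, h]

/-- The rotation of variables. -/
def pV (n r : ℕ) (k : Blk c m) : Var n c r m a ≃ Var n c r m a :=
  Equiv.sumCongr (Equiv.prodCongrRight fun l =>
    (Equiv.addRight ((Pi.single k 1 : GG c m a) l)).prodCongr (Equiv.refl _)) (Equiv.refl _)

omit [NeZero a] in
lemma rename_xv (k l : Blk c m) (t : ZMod a) (j : Fin n) : rename (pV n r k) (xv F n r l t j) =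
    xv F n r l (t + (Pi.single k 1 : GG c m a) l) j := by
  rw [xv, rename_X]; rfl

omit [NeZero a] in
lemma map_rename_lin (k l : Blk c m) (t : ZMod a) :
    map (rename (pV n r k)).toRingHom (lin (xv F n r l t)) =
      lin (xv F n r l (t + (Pi.single k 1 : GG c m a) l)) := by
  rw [map_lin]
  congr 1
  funext j
  exact rename_xv k l t j

omit [NeZero a] in
lemma wtv_pV (k : Blk c m) (v : Var n c r m a) :
    wtv n r (pV n r k v) = (gL k (wtv n r v).1, (wtv n r v).2) := by
  rcases v with ⟨l, t, j⟩ | v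
  · have e : ∀ x y : Blk c m × ZMod a → ℤ, ((1 : ℤ), x - y) = (1, x) - (0, y) := by simp
    simp only [wtv, Sum.elim_inl, e, map_sub, gL_single]
    simp [pV, Equiv.prodCongrRight, sub_add_eq_add_sub]
  · simp only [wtv, pV, Sum.elim_inr, gL_apply, Equiv.sumCongr_apply, Sum.map_inr]
    rfl

omit [NeZero a] in
lemma gL_shv (k : Blk c m) (β : GG c m a) : gL k (shv (β - Pi.single k 1)).1 = (shv β).1 := by
  have e : ∀ β : GG c m a, (shv β).1 = ∑ l, (0, Pi.single (l, β l) 1) := fun β => by
    simp [shv, Prod.ext_iff, Prod.fst_sum, Prod.snd_sum]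
  simp [e, map_sum, gL_single]

omit [NeZero a] in
lemma shv_sub (k : Blk c m) (β : GG c m a) (j : Fin n) :
    wtv n r (Sum.inl (k, β k, j)) = ((1, 0), 0) + shv (β - Pi.single k 1) - shv β := by
  have : ∑ l, (Pi.single (l, (β - Pi.single k 1 : GG c m a) l) 1 : Blk c m × ZMod a → ℤ) -
      ∑ l, Pi.single (l, β l) 1 = Pi.single (k, β k - 1) 1 - Pi.single (k, β k) 1 := by
    rw [← sum_sub_distrib, sum_eq_single k (fun l _ hl => by simp [Pi.single_eq_of_ne hl])
      (by simp)]
    simp
  simp only [wtv, shv, Sum.elim_inl, ← this]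
  simp

/-- Vectors of polynomials over the universal ring. -/
abbrev TT (F : Type u) [Field F] (n c r m a : ℕ) :=
  GG c m a → MvPolynomial (Fin n) (MvPolynomial (Var n c r m a) F)

/-- The descent operators. -/
noncomputable def EE (ω : F) (k : Blk c m) : TT F n c r m a →+ TT F n c r m a where
  toFun f β := C (C (twf ω (univ.filter (k < ·)) β)) *
    map (rename (pV n r k)).toRingHom (f (β - Pi.single k 1))
  map_zero' := by funext β; simp
  map_add' f g := by funext β; simp [mul_add]

omit [NeZero a] in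
lemma EE_apply (ω : F) (k : Blk c m) (f : TT F n c r m a) (β : GG c m a) :
    EE ω k f β = C (C (twf ω (univ.filter (k < ·)) β)) *
      map (rename (pV n r k)).toRingHom (f (β - Pi.single k 1)) := rfl

/-- The cyclic blocks. -/
noncomputable def zb (n r a : ℕ) (ω : F) (l : Blk c m) :
    Matrix (GG c m a) (GG c m a) (MvPolynomial (Fin n) (MvPolynomial (Var n c r m a) F)) :=
  tsh (C (C ω)) l fun t => lin (xv F n r l t)

lemma EE_zb {ω : F} (hω : ω ^ a = 1) (k l : Blk c m) (f : TT F n c r m a) :
    EE ω k ((zb n r a ω l).mulVec f) = (zb n r a ω l).mulVec (EE ω k f) := by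
  funext β
  simp only [EE_apply, zb, tsh, wsh_mulVec, map_mul, map_rename_lin, ← twf_map, map_C,
    sub_right_comm β (Pi.single k 1), Pi.sub_apply, sub_add_cancel]
  generalize map (rename (R := F) (pV n r k)).toRingHom
    (f (β - Pi.single l 1 - Pi.single k 1)) = z
  simp only [AlgHom.toRingHom_eq_coe, RingHom.coe_coe, rename_C]
  have key : twf ω (univ.filter (k < ·)) β * twf ω (univ.filter (· < l)) (β - Pi.single k 1) =
      twf ω (univ.filter (· < l)) β * twf ω (univ.filter (k < ·)) (β - Pi.single l 1) := by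
    by_cases h : k < l
    · rw [← twf_sub_of_mem hω (k := l) (s := univ.filter (k < ·)) (by simpa using h) β,
        ← twf_sub_of_mem hω (k := k) (s := univ.filter (· < l)) (by simpa using h) β]
      ring
    · rw [twf_sub_of_notMem (by simpa using h), twf_sub_of_notMem (by simpa using h), mul_comm]
  have key2 := congrArg (fun z => (C (C z) :
    MvPolynomial (Fin n) (MvPolynomial (Var n c r m a) F))) key
  simp only [map_mul] at key2
  linear_combination (lin (xv F n r l (β l)) * z) * key2

/-- Homogeneous vectors. -/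
def HomT (l : Lam c m a) (f : TT F n c r m a) : Prop :=
  ∀ β, CH (wtv n r) ((l, 0) - shv β) (f β)

lemma HomT.zb {l : Lam c m a} {f : TT F n c r m a} (h : HomT l f) (ω : F) (k : Blk c m) :
    HomT (l + (1, 0)) ((zb n r a ω k).mulVec f) := by
  intro β
  rw [P200.zb, tsh, wsh_mulVec, ← twf_map, ← twf_map]
  have h1 : CH (wtv n r) (((1, 0), 0) + shv (β - Pi.single k 1) - shv β)
      (lin (xv F n r k (β k))) := CH_lin fun j => by
    rw [← shv_sub (r := r) k β j]
    exact isWeightedHomogeneous_X F (wtv n r) _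
  have h2 : CH (n := n) (wtv (c := c) (m := m) (a := a) n r) 0
      (C (C (twf ω (univ.filter (· < k)) β))) := CH_C (isWeightedHomogeneous_C _ _)
  have h3 := (h2.mul h1).mul (h (β - Pi.single k 1))
  have e : ((l + (1, 0), 0) : Lam c m a × ℤ) - shv β =
      0 + (((1, 0), 0) + shv (β - Pi.single k 1) - shv β) +
        ((l, 0) - shv (β - Pi.single k 1)) := by
    rw [show ((l + (1, 0), 0) : Lam c m a × ℤ) = (l, 0) + ((1, 0), 0) by simp]
    abel
  rw [e]
  exact h3

variable {E : Type*} [Field E]

theorem core (ψ : Fin r → (Fin n →₀ ℕ) → F) (ha : 2 ≤ a)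
    (hs : ∀ v : Fin r → F, ∃ g, ∀ s, fn a (ψ s) g = v s) {N : ℕ}
    (hN : ∀ j, (X j : MvPolynomial (Fin n) F) ^ N ∈
      Ideal.span {u | u.IsHomogeneous a ∧ ∀ s, fn a (ψ s) u = 0}) (hm : c * r + r + 1 ≤ m)
    {e : Fin c → Fin r → Fin m × Fin n} {P : Ideal (MvPolynomial (Var n c r m a) F)}
    (hP : (sys c m a ψ).GenPt e P) (φ : MvPolynomial (Var n c r m a) F →+* E)
    (hφ : ∀ p, φ p = 0 ↔ p ∈ P) (hfr : ∀ z, ∃ p q, q ∉ P ∧ z * φ q = φ p) {ω : F} (hω : ω ≠ 0)
    (Y : Set (TT F n c r m a)) (hY : ∀ y ∈ Y, ∃ l, HomT l y) (hE : ∀ k, ∀ y ∈ Y, EE ω k y ∈ Y)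
    (d : ℕ) (hd : Submodule.span E ((fun y β => map φ (y β)) '' Y) ≤ Td (GG c m a) n E d) :
    Fintype.card (GG c m a) ∣ finrank E (Submodule.span E ((fun y β => map φ (y β)) '' Y)) := by
  let dg : Lam c m a × ℤ →+ ℤ := (AddMonoidHom.fst _ _).comp (AddMonoidHom.fst _ _) +
    (a : ℤ) • AddMonoidHom.snd _ _
  let G := grPoly F (wtv (c := c) (m := m) (a := a) n r) dg (by
    rintro (v | v) <;> simp [dg, wtv]
    omega)
  have h1 : G.π 0 1 = 1 := (isWeightedHomogeneous_one _ _).weightedHomogeneousComponent_same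
  let cf : ∀ (R : Type _) [CommRing R], (GG c m a → MvPolynomial (Fin n) R) →ₗ[R]
      (GG c m a × Mon n d → R) := fun R _ =>
    LinearMap.pi fun x => (lcoeff R x.2.1).comp (LinearMap.proj x.1)
  let cfE : (GG c m a → MvPolynomial (Fin n) E) →ₗ[E] (GG c m a × Mon n d → E) :=
    LinearMap.pi fun x => (lcoeff E x.2.1).comp (LinearMap.proj x.1)
  have htw : ∀ s (β : GG c m a), twf ω s β ≠ 0 := fun s β =>
    prod_ne_zero_iff.mpr fun _ _ => pow_ne_zero _ hω
  let U : Blk c m → (GG c m a × Mon n d → MvPolynomial (Var n c r m a) F) →ₗ[F]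
      (GG c m a × Mon n d → MvPolynomial (Var n c r m a) F) := fun k =>
    LinearMap.pi fun x => twf ω (univ.filter (k < ·)) x.1 •
      (rename (pV n r k)).toLinearMap.comp (LinearMap.proj (x.1 - Pi.single k 1, x.2))
  have hU : ∀ k t x, U k t x = twf ω (univ.filter (k < ·)) x.1 •
      rename (pV n r k) (t (x.1 - Pi.single k 1, x.2)) := fun _ _ _ => rfl
  have key := core_abs (sys_wt (c := c) (m := m) (a := a) ψ) (m := m)
    (sys_C1 ψ ha hs hN (by simp only [Fintype.card_fin]; omega)) hP h1 φ hφ hfr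
    (fun x : GG c m a × Mon n d => shv x.1) (cf _ '' Y)
    (by
      rintro _ ⟨y, hy, rfl⟩
      obtain ⟨l, hl⟩ := hY y hy
      exact ⟨l, funext fun x => π_eq_of_hom h1 (hl x.1 x.2)⟩)
    (NeZero.ne a) (AddMonoidHom.fst _ _) (by simpa using NeZero.ne a)
    (fun k => (Pi.evalAddMonoidHom _ (k, -1)).comp (AddMonoidHom.snd _ _))
    (fun k => ∑ b, (Pi.evalAddMonoidHom _ (k, b)).comp (AddMonoidHom.snd _ _))
    (fun k => ∑ b : ZMod a, (b.val : ℤ) •
      (Pi.evalAddMonoidHom _ (k, b)).comp (AddMonoidHom.snd _ _))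
    (fun _ => rfl) gL
    (fun k χ => by
      have : ∀ j : ℕ, (gL k)^[j] χ =
          (χ.1, fun x => χ.2 (x.1, x.2 - j * (Pi.single k 1 : GG c m a) x.1)) := by
        intro j
        induction j with
        | zero => simp
        | succ j ih =>
          rw [Function.iterate_succ_apply', ih, gL_apply]
          simp only [Nat.cast_succ, add_mul, one_mul, sub_sub, add_comm]
      simp [this])
    (fun _ _ => rfl)
    (fun k l χ h => by simp [gL_apply, Pi.single_eq_of_ne h])
    (fun k χ => by
      simp only [gL_apply, AddMonoidHom.finsetSum_apply, AddMonoidHom.smul_apply,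
        AddMonoidHom.comp_apply, AddMonoidHom.coe_snd, Pi.evalAddMonoidHom_apply,
        Pi.single_eq_same, smul_eq_mul]
      rw [← Equiv.sum_comp (Equiv.addRight (1 : ZMod a))]
      simp only [Equiv.coe_addRight, add_sub_cancel_right, val_add_one ha, sub_mul, add_mul,
        sum_sub_distrib, sum_add_distrib, ite_mul, zero_mul, sum_ite_eq', mem_univ, if_true,
        one_mul]
      ring)
    (fun k v => by
      rcases v with ⟨l, t, j⟩ | v
      · by_cases h : k = l
        · subst h; simp [wtv, Pi.single_apply]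
        · simp [wtv, h]
      · simp [wtv])
    (fun k x => by
      simp only [shv, AddMonoidHom.finsetSum_apply, AddMonoidHom.comp_apply, AddMonoidHom.coe_snd,
        Pi.evalAddMonoidHom_apply, Finset.sum_apply, Pi.single_apply, Prod.mk.injEq]
      rw [sum_comm, sum_eq_single k (fun l _ hl => by simp [Ne.symm hl]) (by simp)]
      simp)
    (fun i => univ.filter fun k => (ofLex k).1 = i)
    (fun i => by
      refine (card_le_card_of_injOn (t := univ) (fun k => (ofLex k).2) (fun _ _ => by simp)
        fun k hk l hl h => ?_).trans (by simp)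
      exact ofLex.injective (Prod.ext ((mem_filter.mp hk).2.trans (mem_filter.mp hl).2.symm) h))
    (fun i k hk v hv => by
      obtain ⟨k', t, j, -, rfl⟩ := (mem_filter.mp hv).2
      have : k ≠ toLex (i, k') := by rintro rfl; simp at hk
      simp [wtv, this])
    (pV n r) wtv_pV
    (fun k s => by
      have : rename (pV n r k) ((sys c m a ψ).w s) = (sys c m a ψ).w s := by
        rw [sys_w]
        refine (map_fn (R := MvPolynomial (Var n c r m a) F)
          (rename (R := F) (pV n r k)).toRingHom _ _ _).trans ?_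
        simp only [gg, map_sum, map_prod, map_rename_lin]
        simp only [AlgHom.toRingHom_eq_coe, RingHom.coe_coe, rename_C]
        exact sum_congr rfl fun k' _ => congrArg _
          (Equiv.prod_comp (Equiv.addRight _) fun t => lin (xv F n r (toLex (s.1, k')) t))
      rw [this]
      exact Ideal.subset_span ⟨s, rfl⟩) U
    (fun k t t' h => funext fun x => by
      have := congrFun h (x.1 + Pi.single k 1, x.2)
      rw [hU, hU, add_sub_cancel_right] at this
      exact rename_injective _ (pV n r k).injective (smul_right_injective _ (htw _ _) this))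
    (fun k χ t => funext fun x => by
      rw [Gr.pi_π, hU, hU, Gr.pi_π, map_smul,
        ← π_rename h1 ((gL k).prodCongr (AddEquiv.refl ℤ)).toAddMonoidHom
          ((gL k).prodCongr (AddEquiv.refl ℤ)).injective _ (wtv_pV k), map_sub]
      congr 3
      exact congrArg _ (Prod.ext (gL_shv k x.1).symm rfl))
    (fun k q t => funext fun x => by simp [hU])
    (by
      rintro k _ ⟨y, hy, rfl⟩
      refine ⟨_, hE k y hy, funext fun x => ?_⟩
      simp [hU, cf, EE_apply, coeff_map, smul_eq_C_mul])
  rw [Fintype.card_fun, ZMod.card]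
  convert key using 1
  have := Submodule.finiteDimensional_of_le hd
  have h2 := finrank_map_add_inf_ker cfE (Submodule.span E ((fun y β => map φ (y β)) '' Y))
  have h3 : Submodule.span E ((fun y β => map φ (y β)) '' Y) ⊓ LinearMap.ker cfE = ⊥ := by
    rw [eq_bot_iff]
    rintro z ⟨hz, hz'⟩
    refine funext fun β => MvPolynomial.ext _ _ fun μ => ?_
    by_cases hμ : μ ∈ Mon n d
    · exact congrFun (LinearMap.mem_ker.mp hz') (β, ⟨μ, hμ⟩)
    · exact ((mem_piSub.mp (hd hz) β : (z β).IsHomogeneous d).coeff_eq_zero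
        (by rwa [mem_Mon] at hμ))
  rw [h3, finrank_bot, add_zero, Submodule.map_span, Set.image_image] at h2
  rw [← h2, Set.image_image]
  rfl

end Vale.Agent.P200
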