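import Vale.Agent.P200.Lead

/-! The abstract divisibility theorem. -/

namespace Vale.Agent.P200

open MvPolynomial Module Finset

universe u v

variable {F : Type u} {σ : Type v} {I C0 : Type*} [Field F] {r : ℕ} [Fintype C0] [Fintype I]
  [Fintype σ] [DecidableEq σ]

section sym

variable {Λ : Type*} [AddCommGroup Λ] {wt : σ → Λ}

omit [Fintype σ] [DecidableEq σ] in
lemma π_eq_zero {G : Gr F wt (MvPolynomial σ F)} (h1 : G.π 0 1 = 1) (s : Λ →+ ℤ)
    (hs : ∀ v, s (wt v) = 0) {χ : Λ} (hχ : s χ ≠ 0) (p : MvPolynomial σ F) : G.π χ p = 0 := by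
  rw [p.as_sum, map_sum]
  refine sum_eq_zero fun d _ => Gr.π_of_hom
    (π_eq_of_hom h1 (isWeightedHomogeneous_monomial wt d _ rfl)) ?_
  rintro rfl
  refine hχ ?_
  rw [Finsupp.weight_apply, Finsupp.sum, map_sum]
  exact sum_eq_zero fun v _ => by rw [map_nsmul, hs, smul_zero]

omit [Fintype σ] in
lemma act_Den_supp (s : Λ →+ ℤ) (hs : ∀ v, s (wt v) = 0) (T : Finset σ) :
    ∀ h : Λ → ℤ, (∀ χ, s χ ≠ 1 → h χ = 0) → ∀ χ, s χ ≠ 1 → act (Den wt T) h χ = 0 := by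
  induction T using Finset.induction_on with
  | empty => intro h hh χ hχ; simpa [Den] using hh χ hχ
  | insert v T hv ih =>
    intro h hh
    rw [Den, prod_insert hv, mul_comm, act_mul_apply]
    refine ih _ fun χ hχ => ?_
    simp only [map_sub, map_one, LinearMap.sub_apply, Module.End.one_apply, Pi.sub_apply, act_ch]
    rw [hh χ hχ, hh _ (by rwa [map_sub, hs, sub_zero]), sub_zero]

omit [DecidableEq σ] in
lemma act_Den_inv (g : Λ →+ Λ) (p : σ ≃ σ) (hp : ∀ v, wt (p v) = g (wt v)) {h : Λ → ℤ}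
    (hh : ∀ χ, h (g χ) = h χ) (χ : Λ) : act (Den wt univ) h (g χ) = act (Den wt univ) h χ := by
  have e : tw g 0 (Den wt univ) = Den wt univ := by
    rw [Den, map_prod]
    exact Fintype.prod_equiv p _ _ fun v => by simp [tw_ch, hp]
  conv_lhs => rw [← e, act_tw]
  simp only [hh]

omit [Fintype σ] [DecidableEq σ] in
lemma hd_inv {M : Type*} [AddCommGroup M] [Module F M] [Module (MvPolynomial σ F) M]
    [IsScalarTower F (MvPolynomial σ F) M] (G : Gr F wt M) (g : Λ → Λ) {a : ℕ} (ha : a ≠ 0)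
    (hg : ∀ χ, g^[a] χ = χ) (e : M →ₗ[F] M) (he : Function.Injective e)
    (hπ : ∀ χ m, G.π (g χ) (e m) = e (G.π χ m)) {N : Submodule (MvPolynomial σ F) M}
    (hN : ∀ m ∈ N, e m ∈ N) (χ : Λ) : G.hd N (g χ) = G.hd N χ := by
  have h1 : ∀ χ, G.hd N χ ≤ G.hd N (g χ) := fun χ => Gr.hd_le_of_inj e he (hπ χ) hN
  have h2 : ∀ k χ, G.hd N χ ≤ G.hd N (g^[k] χ) := by
    intro k
    induction k with
    | zero => intro χ; rfl
    | succ k ih => intro χ; exact (h1 χ).trans (ih _)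
  refine le_antisymm ?_ (h1 χ)
  obtain ⟨b, rfl⟩ := Nat.exists_eq_succ_of_ne_zero ha
  have := h2 b (g χ)
  rwa [← Function.iterate_succ_apply, hg] at this

end sym

variable {Λ : Type*} [AddCommGroup Λ]

theorem core_abs [UniqueSums Λ] {L : LinSys F σ I C0 r} {wt : σ → Λ × ℤ} {Q : Λ} (hW : L.Wt wt Q)
    {m : ℕ} (h : L.C1 (Fintype.card I * r + m + 1)) {e : I → Fin r → C0}
    {P : Ideal (MvPolynomial σ F)} (hP : L.GenPt e P)
    {G : Gr F wt (MvPolynomial σ F)} (h1 : G.π 0 1 = 1) {E : Type*} [Field E]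
    (φ : MvPolynomial σ F →+* E) (hφ : ∀ p, φ p = 0 ↔ p ∈ P)
    (hfr : ∀ z, ∃ p q, q ∉ P ∧ z * φ q = φ p) {κ : Type*} [Fintype κ] (sh : κ → Λ × ℤ)
    (T : Set (κ → MvPolynomial σ F)) (hT : ∀ t ∈ T, ∃ l : Λ, (G.pi sh).π (l, 0) t = t)
    {B : Type*} [Fintype B] [DecidableEq B] {a : ℕ} (ha : a ≠ 0) (ν : Λ →+ ℤ) (hQ : ν Q ≠ 0)
    (c s ph : B → Λ →+ ℤ) (hc : ∀ k, c k Q = 0) (g : B → Λ ≃+ Λ) (hga : ∀ k χ, (g k)^[a] χ = χ)
    (hν : ∀ k χ, ν (g k χ) = ν χ) (hcg : ∀ k l χ, l ≠ k → c l (g k χ) = c l χ)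
    (hph : ∀ k χ, ph k (g k χ) - ph k χ = s k χ - a * c k χ)
    (hs0 : ∀ k v, s k (wt v).1 = 0) (hs1 : ∀ k j, s k (sh j).1 = 1)
    (grp : I → Finset B) (hgrp : ∀ i, (grp i).card ≤ m)
    (hD : ∀ i k, k ∉ grp i → ∀ v ∈ L.base i, c k (wt v).1 = 0)
    (p : B → σ ≃ σ) (hp : ∀ k v, wt (p k v) = (g k (wt v).1, (wt v).2))
    (hw : ∀ k s, rename (p k) (L.w s) ∈ L.ww)
    (U : B → (κ → MvPolynomial σ F) →ₗ[F] (κ → MvPolynomial σ F))
    (hU : ∀ k, Function.Injective (U k))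
    (hUπ : ∀ k χ t, (G.pi sh).π (g k χ.1, χ.2) (U k t) = U k ((G.pi sh).π χ t))
    (hUs : ∀ k (q : MvPolynomial σ F) t, U k (q • t) = (rename (p k) q : MvPolynomial σ F) • U k t)
    (hUT : ∀ k, ∀ t ∈ T, U k t ∈ T) :
    a ^ Fintype.card B ∣ finrank E (Submodule.span E ((fun t => φ ∘ t) '' T)) := by
  have hwQ : ∀ s, (L.w s).IsWeightedHomogeneous wt (Q, 0) := fun s =>
    IsWeightedHomogeneous.sum _ _ _ fun j _ => by
      have := (hW.M s.1 s.2 j).mul (isWeightedHomogeneous_X F wt (L.y (s.1, j)))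
      rwa [sub_add_cancel] at this
  obtain ⟨l, hl, κ1, hκ1, hK⟩ := LinSys.lead h (by omega) hP h1 hwQ φ hφ hfr sh T {l | l.2 = 0}
    fun t ht => by obtain ⟨l, hl⟩ := hT t ht; exact ⟨_, rfl, hl⟩
  set K := (1 - ch (Q, 0)) ^ (Fintype.card I * r) * (∑ i, ch (l i)) + κ1 with hKdef
  have hN : (G.pi sh).Graded (Gr.piS κ L.ww) :=
    (graded_ideal h1 (by rintro _ ⟨s, rfl⟩; exact ⟨_, hwQ s⟩)).piS sh
  have hT' : (G.pi sh).Graded (Submodule.span _ T) :=
    Gr.graded_span fun m hm => by obtain ⟨l, h⟩ := hT m hm; exact ⟨_, h⟩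
  obtain ⟨κ', κ2, hκ2, hpure⟩ := L.purity hW (G.pi sh) (hN.sup hT') hN le_sup_left
    (fun s m _ => LinSys.w_smul_mem s m) _ h.kill hK
  have hUN : ∀ k, ∀ t ∈ Gr.piS κ L.ww, U k t ∈ Gr.piS κ L.ww := by
    intro k t ht
    classical
    rw [← univ_sum_single t, map_sum]
    refine Submodule.sum_mem _ fun j _ => ?_
    rw [show Pi.single j (t j) = t j • (Pi.single j 1 : κ → MvPolynomial σ F) by
      rw [← Pi.single_smul, smul_eq_mul, mul_one], hUs]
    refine Gr.mem_piS.mpr fun j' => Ideal.mul_mem_right _ _ ?_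
    have : L.ww ≤ L.ww.comap (rename (p k)) := Ideal.span_le.mpr (by
      rintro _ ⟨s, rfl⟩; exact hw k s)
    exact this (Gr.mem_piS.mp ht j)
  have hUS : ∀ k, ∀ t ∈ Submodule.span (MvPolynomial σ F) T,
      U k t ∈ Submodule.span (MvPolynomial σ F) T := by
    intro k t ht
    induction ht using Submodule.span_induction with
    | mem x hx => exact Submodule.subset_span (hUT k x hx)
    | zero => simp
    | add x y _ _ hx hy => rw [map_add]; exact add_mem hx hy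
    | smul q x _ hx => rw [hUs]; exact Submodule.smul_mem _ _ hx
  have hstep : ∀ k (Ψ : Λ → ℤ), (∀ χ, Ψ (g k χ) = Ψ χ) →
      pair Ψ (sp Λ K) = a * pair (fun χ => Ψ χ * c k χ) (sp Λ K) := by
    intro k Ψ hΨ
    let g' : Λ × ℤ ≃+ Λ × ℤ := (g k).prodCongr (AddEquiv.refl ℤ)
    have hg' : ∀ χ, g'^[a] χ = χ := fun χ => by
      have : (g' : Λ × ℤ → Λ × ℤ) = Prod.map (g k) id := rfl
      rw [this, Prod.map_iterate]
      ext <;> simp [hga]
    have hinv : ∀ χ, toF K (g' χ) = toF K χ := fun χ => by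
      rw [← hK]
      refine act_Den_inv g'.toAddMonoidHom (p k) (hp k) (fun χ => ?_) χ
      have i1 := hd_inv (G.pi sh) g' ha hg' (U k) (hU k) (hUπ k) (hUN k) χ
      have i2 := hd_inv (G.pi sh) g' ha hg' (U k) (hU k) (hUπ k)
        (N := Gr.piS κ L.ww ⊔ Submodule.span _ T) (fun t ht => by
          obtain ⟨x, hx, y, hy, rfl⟩ := Submodule.mem_sup.mp ht
          rw [map_add]
          exact Submodule.add_mem_sup (hUN k x hx) (hUS k y hy)) χ
      rw [Pi.sub_apply, Pi.sub_apply, ← i1, ← i2]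
      rfl
    have hsupp : ∀ χ, toF K χ ≠ 0 → s k χ.1 = 1 := fun χ hχ => by
      by_contra h0
      refine hχ ?_
      rw [← hK]
      refine act_Den_supp ((s k).comp (AddMonoidHom.fst Λ ℤ)) (hs0 k) _ _ (fun χ hχ => ?_) χ h0
      have : ∀ t, (G.pi sh).π χ t = 0 := fun t => funext fun j =>
        π_eq_zero h1 ((s k).comp (AddMonoidHom.fst Λ ℤ)) (hs0 k) (by
          rw [map_sub]
          exact sub_ne_zero.mpr fun h => hχ (h.trans (hs1 k j))) _
      rw [Pi.sub_apply, Gr.hd_eq_zero this, Gr.hd_eq_zero this, sub_self]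
    rw [sp, pair_tw, pair_tw, pair_step g' hinv a (fun χ => ph k χ.1) (fun χ => c k χ.1)
      (fun χ hχ => by rw [← hsupp χ hχ]; exact hph k χ.1) _ (fun χ => by
        change _ * Ψ (g k χ.1) = _
        rw [hΨ]; rfl)]
    simp only [mul_assoc]
    rfl
  have key := dvd_final (a : ℤ) (Fintype.card I * r) m ν Q hQ c hc (sp Λ K) (fun k => g k) hν hcg
    hstep (∑ i, ch (l i).1) (sp Λ κ1)
    (Ideal.pow_right_mono (Ideal.span_mono (Set.image_mono (Set.subset_univ _))) _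
      (sp_mem_JD hW.even hκ1)) (by
      simp only [hKdef, map_add, map_mul, map_pow, map_sub, map_one, map_sum, sp_ch,
        show ∀ i, (l i).2 = 0 from hl, Int.negOnePow_zero, Units.val_one, one_smul])
    (fun i => Prod.fst '' (wt '' L.base i)) grp hgrp (by
      rintro i k hk _ ⟨_, ⟨v, hv, rfl⟩, rfl⟩
      exact hD i k hk v hv) κ' κ2 hκ2 hpure
  simp only [map_sum, pair_ch, sum_const, card_univ, Fintype.card_fin, nsmul_eq_mul,
    mul_one] at key
  exact_mod_cast key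

end Vale.Agent.P200
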