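import Mathlib

/-! Linear algebra of extended subspaces. -/

namespace Vale.Agent.P200

open MvPolynomial Module

section ext

variable {K L : Type*} [Field K] [Field L] [Algebra K L] {σ : Type*}

/-- Extension of scalars of a subspace of a polynomial ring. -/
noncomputable def ext1 (L : Type*) [Field L] [Algebra K L] (A : Submodule K (MvPolynomial σ K)) :
    Submodule L (MvPolynomial σ L) :=
  Submodule.span L (MvPolynomial.map (algebraMap K L) '' A)

lemma linearIndependent_map {κ : Type*} (v : κ → MvPolynomial σ K) (hv : LinearIndependent K v) :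
    LinearIndependent L (fun i => MvPolynomial.map (algebraMap K L) (v i)) := by
  have h1 : LinearIndependent L (fun i => (1 : L) ⊗ₜ[K] v i) :=
    Module.Flat.linearIndependent_one_tmul hv
  have h2 := h1.map' (algebraTensorAlgEquiv K L).toLinearEquiv.toLinearMap
    (LinearEquiv.ker _)
  have h3 : (fun i => MvPolynomial.map (algebraMap K L) (v i)) =
      (algebraTensorAlgEquiv K L).toLinearEquiv.toLinearMap ∘ fun i => (1 : L) ⊗ₜ[K] v i := by
    funext i
    simp
  rw [h3]
  exact h2

lemma finrank_ext1 (A : Submodule K (MvPolynomial σ K)) [FiniteDimensional K A] :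
    finrank L (ext1 L A) = finrank K A := by
  classical
  let b := Module.finBasis K A
  have hv : LinearIndependent K (fun i => (b i : MvPolynomial σ K)) :=
    b.linearIndependent.map' A.subtype (Submodule.ker_subtype _)
  have h := linearIndependent_map (L := L) _ hv
  have hspan : ext1 L A = Submodule.span L
      (Set.range fun i => MvPolynomial.map (algebraMap K L) (b i : MvPolynomial σ K)) := by
    apply le_antisymm
    · rw [ext1, Submodule.span_le]
      rintro _ ⟨x, hx, rfl⟩
      have hx' : x = ∑ i, b.repr ⟨x, hx⟩ i • (b i : MvPolynomial σ K) := by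
        have := congrArg Subtype.val (b.sum_repr ⟨x, hx⟩)
        rw [Submodule.coe_sum] at this
        exact this.symm
      rw [hx', map_sum]
      refine Submodule.sum_mem _ fun i _ => ?_
      rw [smul_eq_C_mul, map_mul, map_C, ← smul_eq_C_mul]
      exact Submodule.smul_mem _ _ (Submodule.subset_span ⟨i, rfl⟩)
    · rw [Submodule.span_le]
      rintro _ ⟨i, rfl⟩
      exact Submodule.subset_span ⟨_, (b i).2, rfl⟩
  rw [hspan, finrank_span_eq_card h]
  simp

lemma ext1_le_homog {A : Submodule K (MvPolynomial σ K)} {d : ℕ}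
    (hA : A ≤ homogeneousSubmodule σ K d) : ext1 L A ≤ homogeneousSubmodule σ L d := by
  rw [ext1, Submodule.span_le]
  rintro _ ⟨x, hx, rfl⟩
  exact (hA hx).map _

lemma ext1_mono {A B : Submodule K (MvPolynomial σ K)} (h : A ≤ B) : ext1 L A ≤ ext1 L B :=
  Submodule.span_mono (Set.image_mono h)

lemma ext1_homog (d : ℕ) : ext1 L (homogeneousSubmodule σ K d) = homogeneousSubmodule σ L d := by
  classical
  refine le_antisymm (ext1_le_homog le_rfl) fun p hp => ?_
  rw [p.as_sum]
  refine Submodule.sum_mem _ fun m hm => ?_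
  have : monomial m (coeff m p) = coeff m p • MvPolynomial.map (algebraMap K L) (monomial m 1) := by
    simp [smul_monomial]
  rw [this]
  refine Submodule.smul_mem _ _ (Submodule.subset_span ⟨_, ?_, rfl⟩)
  exact isHomogeneous_monomial _ (by
    have := hp (mem_support_iff.mp hm)
    rwa [Finsupp.degree_eq_weight_one])

/-- Products of extended subspaces. -/
lemma mul_mem_ext1 {A B D : Submodule K (MvPolynomial σ K)}
    (h : ∀ a ∈ A, ∀ b ∈ B, a * b ∈ D) {p q : MvPolynomial σ L} (hp : p ∈ ext1 L A)
    (hq : q ∈ ext1 L B) : p * q ∈ ext1 L D := by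
  induction hp using Submodule.span_induction with
  | mem x hx =>
    obtain ⟨a, ha, rfl⟩ := hx
    induction hq using Submodule.span_induction with
    | mem y hy =>
      obtain ⟨b, hb, rfl⟩ := hy
      rw [← map_mul]
      exact Submodule.subset_span ⟨_, h a ha b hb, rfl⟩
    | zero => simp
    | add y z _ _ hy hz => rw [mul_add]; exact add_mem hy hz
    | smul c y _ hy => rw [mul_smul_comm]; exact Submodule.smul_mem _ _ hy
  | zero => simp
  | add y z _ _ hy hz => rw [add_mul]; exact add_mem hy hz
  | smul c y _ hy => rw [smul_mul_assoc]; exact Submodule.smul_mem _ _ hy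

end ext

section count

variable {n : ℕ}

/-- Exponent vectors of degree `d`. -/
def Mon (n d : ℕ) : Finset (Fin n →₀ ℕ) := Finset.finsuppAntidiag Finset.univ d

lemma mem_Mon {d : ℕ} {m : Fin n →₀ ℕ} : m ∈ Mon n d ↔ m.degree = d := by
  simp [Mon, Finsupp.degree_eq_sum]

lemma card_Mon (d : ℕ) : (Mon n d).card = n.multichoose d := by
  simp [Mon, Finset.card_finsuppAntidiag_nat_eq_multichoose]

lemma finrank_restrictSupport (R : Type*) [Field R] (s : Finset (Fin n →₀ ℕ)) :
    finrank R (restrictSupport R (s : Set (Fin n →₀ ℕ))) = s.card := by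
  rw [finrank_eq_card_basis (basisRestrictSupport R (s : Set (Fin n →₀ ℕ)))]
  simp

lemma homog_eq_restrictSupport (R : Type*) [Field R] (d : ℕ) :
    homogeneousSubmodule (Fin n) R d = restrictSupport R (Mon n d : Set (Fin n →₀ ℕ)) := by
  rw [homogeneousSubmodule_eq_finsupp_supported, restrictSupport]
  congr 1
  ext m
  simp [mem_Mon]

lemma finrank_homog (R : Type*) [Field R] (d : ℕ) :
    finrank R (homogeneousSubmodule (Fin n) R d) = (Mon n d).card := by
  rw [homog_eq_restrictSupport, finrank_restrictSupport]

instance fd_homog (R : Type*) [Field R] (d : ℕ) :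
    FiniteDimensional R (homogeneousSubmodule (Fin n) R d) :=
  Module.Finite.iff_fg.mpr (homogeneousSubmodule_fg _ _ _)

/-- Hilbert function of a monomial ideal. -/
lemma finrank_monomial_ideal (K : Type*) [Field K] (s : Set (Fin n →₀ ℕ)) (hs : IsUpperSet s)
    [DecidablePred (· ∈ s)] (d : ℕ) :
    finrank K ↥(homogeneousSubmodule (Fin n) K d ⊓
      (Ideal.span ((fun m => monomial m (1 : K)) '' s)).restrictScalars K) =
      ((Mon n d).filter (· ∈ s)).card := by
  rw [← finrank_restrictSupport K]
  suffices h : homogeneousSubmodule (Fin n) K d ⊓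
      (Ideal.span ((fun m => monomial m (1 : K)) '' s)).restrictScalars K =
      restrictSupport K ((Mon n d).filter (· ∈ s) : Finset (Fin n →₀ ℕ)) by rw [h]
  ext p
  rw [homog_eq_restrictSupport]
  simp only [Submodule.mem_inf, mem_restrictSupport_iff, Submodule.restrictScalars_mem,
    mem_ideal_span_monomial_image, Finset.coe_filter]
  constructor
  · rintro ⟨h1, h2⟩ m hm
    obtain ⟨si, hsi, hle⟩ := h2 m hm
    exact ⟨h1 hm, hs hle hsi⟩
  · intro h
    exact ⟨fun m hm => (h hm).1, fun m hm => ⟨m, (h hm).2, le_rfl⟩⟩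

lemma multichoose_growth (m C : ℕ) : ∃ k, C * m.multichoose k < (m + 1).multichoose k := by
  rcases Nat.eq_zero_or_pos m with rfl | hm
  · exact ⟨1, by simp⟩
  refine ⟨C * m + 1, ?_⟩
  set k := C * m + 1 with hk
  have h1 : m * (m + 1).multichoose k = (k + m) * m.multichoose k := by
    rw [Nat.multichoose_eq, Nat.multichoose_eq]
    obtain ⟨m', rfl⟩ : ∃ m', m = m' + 1 := ⟨m - 1, by omega⟩
    have e1 : m' + 1 + 1 + k - 1 = m' + k + 1 := by omega
    have e2 : m' + 1 + k - 1 = m' + k := by omega
    rw [e1, e2]
    have := Nat.choose_mul_succ_eq (m' + k) k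
    have e3 : m' + k + 1 - k = m' + 1 := by omega
    rw [e3] at this
    nlinarith
  have h2 : 0 < m.multichoose k := by
    rw [Nat.multichoose_eq]
    exact Nat.choose_pos (by omega)
  have h3 : m * (C * m.multichoose k) < m * (m + 1).multichoose k := by
    rw [h1]
    have : C * m < k + m := by omega
    nlinarith
  exact lt_of_mul_lt_mul_left h3 (Nat.zero_le _)

end count

section jumps

variable {L T : Type*} [Field L] [AddCommGroup T] [Module L T]

open Classical in
/-- Counting jumps along a chain of subspaces. -/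
lemma count_jumps {α γ : Type*} [LinearOrder γ] (key : α → γ) (hkey : Function.Injective key)
    (Good : Submodule L T → Prop) (hsup : ∀ A B, Good A → Good B → Good (A ⊔ B))
    (top : Submodule L T) [FiniteDimensional L top] (u : ℕ)
    (hdvd : ∀ A, Good A → A ≤ top → u ∣ finrank L A)
    (B : Submodule L T) (hB : Good B) (hBt : B ≤ top) (O : α → Submodule L T) (s : Finset α)
    (hO : ∀ a ∈ s, Good (O a) ∧ O a ≤ top ∧ finrank L (O a) ≤ u) :
    Good (B ⊔ s.sup O) ∧ finrank L ↥(B ⊔ s.sup O) = finrank L B + u *
      (s.filter fun a => ¬ O a ≤ B ⊔ (s.filter fun b => key b < key a).sup O).card := by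
  induction s using Finset.induction_on_max_value key with
  | empty =>
    have h0 : B ⊔ (∅ : Finset α).sup O = B := by simp
    rw [h0]; simpa using hB
  | insert a s ha hmax ih =>
    have ih' := ih fun b hb => hO b (Finset.mem_insert_of_mem hb)
    obtain ⟨hGa, hta, hua⟩ := hO a (Finset.mem_insert_self _ _)
    have hlt : ∀ b ∈ s, key b < key a := fun b hb =>
      lt_of_le_of_ne (hmax b hb) fun h => ha (hkey h ▸ hb)
    have hsup' : B ⊔ (insert a s).sup O = (B ⊔ s.sup O) ⊔ O a := by
      rw [Finset.sup_insert]; ac_rfl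
    have hG : Good ((B ⊔ s.sup O) ⊔ O a) := hsup _ _ ih'.1 hGa
    refine ⟨hsup' ▸ hG, ?_⟩
    have hfa : (insert a s).filter (fun b => key b < key a) = s := by
      ext b
      simp only [Finset.mem_filter, Finset.mem_insert]
      constructor
      · rintro ⟨rfl | h, h2⟩
        · exact absurd h2 (lt_irrefl _)
        · exact h
      · exact fun h => ⟨Or.inr h, hlt b h⟩
    have hfb : ∀ c ∈ s, (insert a s).filter (fun b => key b < key c) =
        s.filter (fun b => key b < key c) := by
      intro c hc
      rw [Finset.filter_insert, if_neg (not_lt.mpr (hlt c hc).le)]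
    have hfilt : s.filter (fun c => ¬ O c ≤ B ⊔ ((insert a s).filter fun b => key b < key c).sup O)
        = s.filter (fun c => ¬ O c ≤ B ⊔ (s.filter fun b => key b < key c).sup O) :=
      Finset.filter_congr fun c hc => by rw [hfb c hc]
    have hst : B ⊔ s.sup O ≤ top :=
      sup_le hBt (Finset.sup_le fun b hb => (hO b (Finset.mem_insert_of_mem hb)).2.1)
    have hst' : (B ⊔ s.sup O) ⊔ O a ≤ top := sup_le hst hta
    rw [hsup', Finset.filter_insert, hfa, hfilt]
    split_ifs with h
    · rw [sup_eq_left.mpr h, ih'.2]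
    · rw [Finset.card_insert_of_notMem (by simp [ha]), mul_add, mul_one, ← add_assoc, ← ih'.2]
      have : FiniteDimensional L ↥(B ⊔ s.sup O) := Submodule.finiteDimensional_of_le hst
      have : FiniteDimensional L ↥(O a) := Submodule.finiteDimensional_of_le hta
      have h1 := Submodule.finrank_add_le_finrank_add_finrank (B ⊔ s.sup O) (O a)
      have h2 : finrank L ↥(B ⊔ s.sup O) < finrank L ↥((B ⊔ s.sup O) ⊔ O a) :=
        Submodule.finrank_lt_finrank_of_lt
          (lt_of_le_of_ne le_sup_left fun h' => h (by rw [h']; exact le_sup_right))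
      obtain ⟨x, hx⟩ := hdvd _ ih'.1 hst
      obtain ⟨y, hy⟩ := hdvd _ hG hst'
      rw [hx, hy] at h2 ⊢
      rw [hx, hy] at h1
      have hxy : x < y := lt_of_mul_lt_mul_left h2 (Nat.zero_le _)
      have : u * (x + 1) ≤ u * y := Nat.mul_le_mul_left _ hxy
      nlinarith

end jumps

end Vale.Agent.P200
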