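import Vale.Agent.P200.End1

/-! Quasi-commuting linear operators give monomial bases. -/

namespace Vale.Agent.P200

open MvPolynomial Module

variable {K L : Type*} [Field K] [Field L] [Algebra K L] {n : ℕ} {ι : Type*} [Fintype ι]
  [DecidableEq ι]

/-- Vectors of polynomials with all entries in a subspace. -/
noncomputable def piSub (ι : Type*) (A : Submodule L (MvPolynomial (Fin n) L)) :
    Submodule L (ι → MvPolynomial (Fin n) L) := Submodule.pi Set.univ fun _ => A

omit [Fintype ι] [DecidableEq ι] in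
lemma mem_piSub {A : Submodule L (MvPolynomial (Fin n) L)} {t : ι → MvPolynomial (Fin n) L} :
    t ∈ piSub ι A ↔ ∀ j, t j ∈ A := by simp [piSub, Submodule.mem_pi]

/-- The entries as a function to the subspace. -/
noncomputable def piSubEquiv (ι : Type*) (A : Submodule L (MvPolynomial (Fin n) L)) :
    piSub ι A ≃ₗ[L] (ι → A) where
  toFun t j := ⟨t.1 j, mem_piSub.mp t.2 j⟩
  invFun g := ⟨fun j => g j, mem_piSub.mpr fun j => (g j).2⟩
  map_add' _ _ := rfl
  map_smul' _ _ := rfl
  left_inv _ := rfl
  right_inv _ := rfl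

omit [DecidableEq ι] in
lemma finrank_piSub (A : Submodule L (MvPolynomial (Fin n) L)) [FiniteDimensional L A] :
    finrank L (piSub ι A) = Fintype.card ι * finrank L A := by
  rw [(piSubEquiv ι A).finrank_eq, Module.finrank_pi_fintype]
  simp

instance (A : Submodule L (MvPolynomial (Fin n) L)) [FiniteDimensional L A] :
    FiniteDimensional L (piSub ι A) := (piSubEquiv ι A).symm.finiteDimensional

/-- The degree `d` part. -/
noncomputable abbrev Td (ι : Type*) (n : ℕ) (L : Type*) [Field L] (d : ℕ) :
    Submodule L (ι → MvPolynomial (Fin n) L) := piSub ι (homogeneousSubmodule (Fin n) L d)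

/-- Extension of a subspace of the polynomial ring over the small field. -/
noncomputable abbrev BB (ι : Type*) (L : Type*) [Field L] [Algebra K L]
    (A : Submodule K (MvPolynomial (Fin n) K)) : Submodule L (ι → MvPolynomial (Fin n) L) :=
  piSub ι (ext1 L A)

omit [DecidableEq ι] in
lemma finrank_Td (d : ℕ) : finrank L (Td ι n L d) = Fintype.card ι * (Mon n d).card := by
  rw [finrank_piSub, finrank_homog]

omit [Fintype ι] [DecidableEq ι] in
lemma piSub_mono {A B : Submodule L (MvPolynomial (Fin n) L)} (h : A ≤ B) :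
    piSub ι A ≤ piSub ι B := fun _ ht => mem_piSub.mpr fun j => h (mem_piSub.mp ht j)

omit [Fintype ι] [DecidableEq ι] in
lemma smul_mem_Td {d e : ℕ} {p : MvPolynomial (Fin n) L} (hp : p.IsHomogeneous d)
    {t : ι → MvPolynomial (Fin n) L} (ht : t ∈ Td ι n L e) : p • t ∈ Td ι n L (d + e) :=
  mem_piSub.mpr fun j => hp.mul (mem_piSub.mp ht j)

lemma Td_le_of_smul {d e : ℕ} {N : Submodule L (ι → MvPolynomial (Fin n) L)}
    (h : ∀ p : MvPolynomial (Fin n) L, p.IsHomogeneous d → ∀ t ∈ Td ι n L e, p • t ∈ N) :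
    Td ι n L (d + e) ≤ N := by
  intro t ht
  have h1 : t = ∑ j, Pi.single j (t j) := (Finset.univ_sum_single t).symm
  rw [h1]
  refine Submodule.sum_mem _ fun j _ => ?_
  have h2 : t j ∈ homogeneousSubmodule (Fin n) L d * homogeneousSubmodule (Fin n) L e := by
    rw [← homogeneousSubmodule_one_pow, ← homogeneousSubmodule_one_pow _ e, ← pow_add,
      homogeneousSubmodule_one_pow]
    exact mem_piSub.mp ht j
  refine Submodule.mul_induction_on h2 (fun p hp q hq => ?_) (fun x y hx hy => ?_)
  · have : (Pi.single j (p * q) : ι → MvPolynomial (Fin n) L) =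
        p • (Pi.single j q : ι → MvPolynomial (Fin n) L) := by
      rw [← Pi.single_smul, smul_eq_mul]
    rw [this]
    refine h p hp _ (mem_piSub.mpr fun k => ?_)
    by_cases hk : k = j
    · subst hk; simpa using hq
    · simp [Pi.single_eq_of_ne hk]
  · rw [Pi.single_add]; exact add_mem hx hy

/-- The data of quasi-commuting linear operators with an integrality property. -/
structure Setup (K L : Type*) [Field K] [Field L] [Algebra K L] (n : ℕ) (ι : Type*) [Fintype ι]
    [DecidableEq ι] where
  Z : Fin n → Matrix ι ι (MvPolynomial (Fin n) L)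
  hom : ∀ i j k, (Z i j k).IsHomogeneous 1
  comm : ∀ i j, ∃ c : L, c ≠ 0 ∧ Z i * Z j = c • (Z j * Z i)
  Good : Submodule L (ι → MvPolynomial (Fin n) L) → Prop
  good_sup : ∀ A B, Good A → Good B → Good (A ⊔ B)
  good_map : ∀ i A, Good A → Good (A.map ((Z i).mulVecLin.restrictScalars L))
  good_BB : ∀ d (A : Submodule K (MvPolynomial (Fin n) K)),
    A ≤ homogeneousSubmodule (Fin n) K d → Good (BB ι L A)
  dvd : ∀ d A, Good A → A ≤ Td ι n L d → Fintype.card ι ∣ finrank L A
  prim : ∃ D, Td ι n L (D + 1) ≤ ⨆ j, (Td ι n L D).map ((Z j).mulVecLin.restrictScalars L)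
  nonempty : Nonempty ι

namespace Setup

variable (S : Setup K L n ι)

/-- The operators as linear maps over the big field. -/
noncomputable abbrev op (i : Fin n) :
    (ι → MvPolynomial (Fin n) L) →ₗ[L] (ι → MvPolynomial (Fin n) L) :=
  (S.Z i).mulVecLin.restrictScalars L

lemma op_apply (i : Fin n) (t : ι → MvPolynomial (Fin n) L) : S.op i t = (S.Z i).mulVec t := rfl

lemma op_smul (i : Fin n) (p : MvPolynomial (Fin n) L) (t : ι → MvPolynomial (Fin n) L) :
    S.op i (p • t) = p • S.op i t := by
  rw [op_apply, op_apply, Matrix.mulVec_smul]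

lemma map_comm (i j : Fin n) (N : Submodule L (ι → MvPolynomial (Fin n) L)) :
    (N.map (S.op j)).map (S.op i) = (N.map (S.op i)).map (S.op j) := by
  have key : ∀ i j, (N.map (S.op j)).map (S.op i) ≤ (N.map (S.op i)).map (S.op j) := by
    intro i j
    rintro _ ⟨_, ⟨t, ht, rfl⟩, rfl⟩
    obtain ⟨c, -, h⟩ := S.comm i j
    have : S.op i (S.op j t) = c • S.op j (S.op i t) := by
      simp only [op_apply, Matrix.mulVec_mulVec, h, Matrix.smul_mulVec]
    rw [this]
    exact Submodule.smul_mem _ _ ⟨_, ⟨t, ht, rfl⟩, rfl⟩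
  exact le_antisymm (key i j) (key j i)

instance : LeftCommutative (fun (i : Fin n) (N : Submodule L (ι → MvPolynomial (Fin n) L)) =>
    N.map (S.op i)) := ⟨fun i j N => S.map_comm i j N⟩

/-- Image of a subspace under a monomial in the operators. -/
noncomputable def act (β : Fin n →₀ ℕ) (N : Submodule L (ι → MvPolynomial (Fin n) L)) :
    Submodule L (ι → MvPolynomial (Fin n) L) :=
  Multiset.foldr (fun i N => N.map (S.op i)) N (Finsupp.toMultiset β)

@[simp] lemma act_zero (N : Submodule L (ι → MvPolynomial (Fin n) L)) : S.act 0 N = N := by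
  simp [act]

lemma act_add_single (β : Fin n →₀ ℕ) (i : Fin n)
    (N : Submodule L (ι → MvPolynomial (Fin n) L)) :
    S.act (β + Finsupp.single i 1) N = (S.act β N).map (S.op i) := by
  simp only [act, map_add, Finsupp.toMultiset_single, one_nsmul]
  rw [add_comm, Multiset.singleton_add, Multiset.foldr_cons]

end Setup

lemma exists_eq_add_single {β : Fin n →₀ ℕ} {i : Fin n} (h : β i ≠ 0) :
    ∃ γ : Fin n →₀ ℕ, β = γ + Finsupp.single i 1 := by
  refine ⟨β - Finsupp.single i 1, ?_⟩
  ext j
  by_cases hj : j = i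
  · subst hj; simp; omega
  · simp [Finsupp.single_eq_of_ne hj]

lemma finsupp_ind {P : (Fin n →₀ ℕ) → Prop} (h0 : P 0)
    (h1 : ∀ β i, P β → P (β + Finsupp.single i 1)) (β : Fin n →₀ ℕ) : P β := by
  suffices h : ∀ d, ∀ β : Fin n →₀ ℕ, β.degree = d → P β from h _ β rfl
  intro d
  induction d with
  | zero => intro β hβ; rw [(Finsupp.degree_eq_zero_iff β).mp hβ]; exact h0
  | succ d ih =>
    intro β hβ
    have hne : β ≠ 0 := by rintro rfl; simp at hβ
    obtain ⟨i, hi⟩ := Finsupp.ne_iff.mp hne
    obtain ⟨γ, rfl⟩ := exists_eq_add_single (β := β) (i := i) (by simpa using hi)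
    refine h1 γ i (ih γ ?_)
    simpa using hβ

namespace Setup

variable (S : Setup K L n ι)

lemma op_mem_Td (i : Fin n) {d : ℕ} {t : ι → MvPolynomial (Fin n) L} (ht : t ∈ Td ι n L d) :
    S.op i t ∈ Td ι n L (d + 1) := by
  refine mem_piSub.mpr fun j => ?_
  rw [op_apply, Matrix.mulVec, dotProduct]
  refine Submodule.sum_mem _ fun k _ => ?_
  rw [add_comm]
  exact (S.hom i j k).mul (mem_piSub.mp ht k)

lemma map_le_Td (i : Fin n) {d : ℕ} {N : Submodule L (ι → MvPolynomial (Fin n) L)}
    (hN : N ≤ Td ι n L d) : N.map (S.op i) ≤ Td ι n L (d + 1) := by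
  rintro _ ⟨t, ht, rfl⟩
  exact S.op_mem_Td i (hN ht)

lemma act_le_Td (β : Fin n →₀ ℕ) {d : ℕ} {N : Submodule L (ι → MvPolynomial (Fin n) L)}
    (hN : N ≤ Td ι n L d) : S.act β N ≤ Td ι n L (d + β.degree) := by
  induction β using finsupp_ind with
  | h0 => simpa using hN
  | h1 β i ih =>
    rw [act_add_single, map_add, Finsupp.degree_single, ← add_assoc]
    exact S.map_le_Td i ih

lemma good_act (β : Fin n →₀ ℕ) {N : Submodule L (ι → MvPolynomial (Fin n) L)}
    (hN : S.Good N) : S.Good (S.act β N) := by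
  induction β using finsupp_ind with
  | h0 => simpa using hN
  | h1 β i ih => rw [act_add_single]; exact S.good_map i _ ih

lemma finrank_act (β : Fin n →₀ ℕ) {d : ℕ} {N : Submodule L (ι → MvPolynomial (Fin n) L)}
    (hN : N ≤ Td ι n L d) : finrank L (S.act β N) ≤ finrank L N := by
  induction β using finsupp_ind with
  | h0 => rw [act_zero]
  | h1 β i ih =>
    rw [act_add_single]
    have : FiniteDimensional L (S.act β N) :=
      Submodule.finiteDimensional_of_le (S.act_le_Td β hN)
    exact (Submodule.finrank_map_le _ _).trans ih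

lemma good_Td (d : ℕ) : S.Good (Td ι n L d) := by
  have := S.good_BB d _ le_rfl
  rwa [BB, ext1_homog] at this

lemma good_bot : S.Good ⊥ := by
  have := S.good_BB 0 ⊥ bot_le
  have h : BB ι L (⊥ : Submodule K (MvPolynomial (Fin n) K)) = ⊥ := by
    rw [eq_bot_iff]
    intro t ht
    funext j
    have := mem_piSub.mp ht j
    simpa [ext1] using this
  rwa [h] at this

/-- Sum of the images of a homogeneous part under some of the operators. -/
noncomputable def W (J : Finset (Fin n)) (m : ℕ) : Submodule L (ι → MvPolynomial (Fin n) L) :=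
  J.sup fun j => (Td ι n L m).map (S.op j)

lemma smul_mem_W (J : Finset (Fin n)) {d m : ℕ} {p : MvPolynomial (Fin n) L}
    (hp : p.IsHomogeneous d) {t : ι → MvPolynomial (Fin n) L} (ht : t ∈ S.W J m) :
    p • t ∈ S.W J (d + m) := by
  have : S.W J m ≤ (S.W J (d + m)).comap
      ((LinearMap.lsmul (MvPolynomial (Fin n) L) (ι → MvPolynomial (Fin n) L) p).restrictScalars L) := by
    refine Finset.sup_le fun j hj => ?_
    rintro _ ⟨u, hu, rfl⟩
    change p • S.op j u ∈ S.W J (d + m)
    rw [← op_smul]
    exact (Finset.le_sup (f := fun j => (Td ι n L (d + m)).map (S.op j)) hj)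
      ⟨_, smul_mem_Td hp hu, rfl⟩
  exact this ht

lemma Td_le_W {J : Finset (Fin n)} {D : ℕ} (h : Td ι n L (D + 1) ≤ S.W J D) (k : ℕ) :
    Td ι n L (k + D + 1) ≤ S.W J (k + D) := by
  rw [add_assoc]
  exact Td_le_of_smul fun p hp t ht => S.smul_mem_W J hp (h ht)

/-- Iterating a spanning statement. -/
lemma Td_le_sup_act {J : Finset (Fin n)} {D : ℕ} (h : Td ι n L (D + 1) ≤ S.W J D) (k : ℕ) :
    Td ι n L (k + D) ≤ (J.finsuppAntidiag k).sup fun β => S.act β (Td ι n L D) := by
  induction k with
  | zero => simp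
  | succ k ih =>
    have e : k + 1 + D = k + D + 1 := by omega
    rw [e]
    refine (S.Td_le_W h k).trans (Finset.sup_le fun j hj => ?_)
    refine (Submodule.map_mono ih).trans ?_
    rw [Finset.sup_eq_iSup, Finset.sup_eq_iSup]
    simp only [Submodule.map_iSup]
    refine iSup₂_le fun β hβ => ?_
    rw [← act_add_single]
    refine le_iSup₂_of_le (f := fun β (_ : β ∈ J.finsuppAntidiag (k + 1)) => S.act β (Td ι n L D))
      (β + Finsupp.single j 1) ?_ le_rfl
    rw [Finset.mem_finsuppAntidiag] at hβ ⊢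
    refine ⟨?_, ?_⟩
    · simp only [Finsupp.coe_add, Pi.add_apply, Finset.sum_add_distrib]
      have h1 : ∑ x ∈ J, β x = k := hβ.1
      rw [h1]
      simp [Finsupp.single_apply, hj]
    · refine Finsupp.support_add.trans (Finset.union_subset hβ.2 ?_)
      exact Finsupp.support_single_subset.trans (by simpa using hj)

omit [DecidableEq ι] in
lemma finrank_sup_le {α : Type*} (s : Finset α) (O : α → Submodule L (ι → MvPolynomial (Fin n) L))
    {d u : ℕ} (hO : ∀ a ∈ s, O a ≤ Td ι n L d ∧ finrank L (O a) ≤ u) :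
    finrank L ↥(s.sup O) ≤ s.card * u := by
  classical
  induction s using Finset.induction_on with
  | empty => rw [Finset.sup_empty]; simp
  | insert a s ha ih =>
    rw [Finset.sup_insert, Finset.card_insert_of_notMem ha]
    have h1 := hO a (Finset.mem_insert_self _ _)
    have h2 : s.sup O ≤ Td ι n L d :=
      Finset.sup_le fun b hb => (hO b (Finset.mem_insert_of_mem hb)).1
    have : FiniteDimensional L ↥(s.sup O) := Submodule.finiteDimensional_of_le h2
    have : FiniteDimensional L ↥(O a) := Submodule.finiteDimensional_of_le h1.1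
    have h3 := Submodule.finrank_add_le_finrank_add_finrank (O a) (s.sup O)
    have h4 := ih fun b hb => hO b (Finset.mem_insert_of_mem hb)
    have h5 := h1.2
    nlinarith

/-- No operator is redundant. -/
lemma not_le_W (j : Fin n) :
    ¬ (Td ι n L 0).map (S.op j) ≤ S.W (Finset.univ.erase j) 0 := by
  intro h
  obtain ⟨D, hD⟩ := S.prim
  have h1 : (Td ι n L D).map (S.op j) ≤ S.W (Finset.univ.erase j) D := by
    rw [Submodule.map_le_iff_le_comap]
    refine Td_le_of_smul (d := D) (e := 0) fun p hp t ht => ?_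
    change S.op j (p • t) ∈ S.W (Finset.univ.erase j) D
    rw [op_smul]
    have h0 : S.op j t ∈ S.W (Finset.univ.erase j) 0 := h (Submodule.mem_map_of_mem ht)
    have h00 := S.smul_mem_W (Finset.univ.erase j) hp h0
    rwa [add_zero] at h00
  have h2 : Td ι n L (D + 1) ≤ S.W (Finset.univ.erase j) D := by
    refine hD.trans (iSup_le fun i => ?_)
    by_cases hi : i = j
    · subst hi; exact h1
    · exact Finset.le_sup (f := fun j => (Td ι n L D).map (S.op j)) (by simp [hi])
  obtain ⟨m, hm⟩ : ∃ m, n = m + 1 := ⟨n - 1, by have := j.2; omega⟩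
  obtain ⟨k, hk⟩ := multichoose_growth m (finrank L (Td ι n L D))
  have h3 := S.Td_le_sup_act h2 k
  have h4 := finrank_sup_le ((Finset.univ.erase j).finsuppAntidiag k)
    (fun β => S.act β (Td ι n L D)) (d := k + D) (u := finrank L (Td ι n L D)) (fun β hβ => by
      refine ⟨?_, S.finrank_act β le_rfl⟩
      have := S.act_le_Td β (N := Td ι n L D) le_rfl
      rw [Finset.mem_finsuppAntidiag'] at hβ
      have hdeg : β.degree = k := hβ.1
      rwa [hdeg, add_comm] at this)
  have hfd : FiniteDimensional L ↥(((Finset.univ.erase j).finsuppAntidiag k).sup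
      fun β => S.act β (Td ι n L D)) := by
    refine Submodule.finiteDimensional_of_le (S₂ := Td ι n L (k + D)) (Finset.sup_le fun β hβ => ?_)
    have := S.act_le_Td β (N := Td ι n L D) le_rfl
    rw [Finset.mem_finsuppAntidiag'] at hβ
    have hdeg : β.degree = k := hβ.1
    rwa [hdeg, add_comm] at this
  have h5 := (Submodule.finrank_mono h3).trans h4
  rw [Finset.card_finsuppAntidiag_nat_eq_multichoose, Finset.card_erase_of_mem (Finset.mem_univ _),
    finrank_Td, card_Mon, Finset.card_univ, Fintype.card_fin] at h5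
  have e : n - 1 = m := by omega
  rw [e] at h5
  have hι : 1 ≤ Fintype.card ι := by have := S.nonempty; exact Fintype.card_pos
  have h6 : (m + 1).multichoose k ≤ n.multichoose (k + D) := by
    rw [hm, Nat.multichoose_eq, Nat.multichoose_eq]
    have e1 : m + 1 + k - 1 = m + k := by omega
    have e2 : m + 1 + (k + D) - 1 = m + (k + D) := by omega
    rw [e1, e2, Nat.choose_symm_add.symm, (Nat.choose_symm_add (a := m) (b := k + D)).symm]
    exact Nat.choose_le_choose _ (by omega)
  nlinarith

lemma Td_one_le : Td ι n L 1 ≤ S.W Finset.univ 0 := by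
  classical
  have hO : ∀ j ∈ (Finset.univ : Finset (Fin n)), S.Good ((Td ι n L 0).map (S.op j)) ∧
      (Td ι n L 0).map (S.op j) ≤ Td ι n L 1 ∧
      finrank L ((Td ι n L 0).map (S.op j)) ≤ Fintype.card ι := by
    intro j _
    refine ⟨S.good_map j _ (S.good_Td 0), S.map_le_Td j le_rfl, ?_⟩
    refine (Submodule.finrank_map_le _ _).trans ?_
    rw [finrank_Td, card_Mon]; simp
  have h := (count_jumps (fun j : Fin n => j) (fun _ _ h => h) S.Good S.good_sup (Td ι n L 1)
    (Fintype.card ι) (S.dvd 1) ⊥ S.good_bot bot_le (fun j => (Td ι n L 0).map (S.op j))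
    Finset.univ hO).2
  rw [Finset.filter_true_of_mem] at h
  · have hle : S.W Finset.univ 0 ≤ Td ι n L 1 := Finset.sup_le fun j hj => (hO j hj).2.1
    refine (Submodule.eq_of_le_of_finrank_eq hle ?_).ge
    rw [bot_sup_eq] at h
    rw [W, h, finrank_Td, card_Mon]
    simp
  · intro j _ hj
    refine S.not_le_W j (hj.trans ?_)
    rw [bot_sup_eq]
    refine Finset.sup_mono fun i hi => ?_
    simp only [Finset.mem_filter, Finset.mem_univ, true_and] at hi
    simp [hi.ne]

/-- The monomials in the operators span. -/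
lemma Td_le_mon (d : ℕ) : Td ι n L d ≤ (Mon n d).sup fun β => S.act β (Td ι n L 0) :=
  S.Td_le_sup_act (D := 0) S.Td_one_le d

end Setup

end Vale.Agent.P200
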