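import Vale.Agent.P200.Set

/-! Existence of the quasi-commuting operators. -/

namespace Vale.Agent.P200

open MvPolynomial Module Finset

universe u

variable {F : Type u} [Field F] {n c : ℕ}

lemma exists_psi {a : ℕ} (U : Submodule F (MvPolynomial (Fin n) F)) :
    ∃ (r : ℕ) (ψ : Fin r → (Fin n →₀ ℕ) → F) (g : Fin r → MvPolynomial (Fin n) F),
      (∀ s t, fn a (ψ s) (g t) = if s = t then 1 else 0) ∧ (∀ u ∈ U, u.IsHomogeneous a →
        ∀ s, fn a (ψ s) u = 0) ∧ ∀ μ ∈ Mon n a, monomial μ 1 - ∑ s, ψ s μ • g s ∈ U := by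
  let Q := (homogeneousSubmodule (Fin n) F a).map U.mkQ
  let b := Module.finBasis F Q
  let q : MvPolynomial (Fin n) F →ₗ[F] Q := (U.mkQ.comp (homogeneousComponent a)).codRestrict Q
    fun p => Submodule.mem_map_of_mem (homogeneousComponent_mem a p)
  have hq : ∀ p, p.IsHomogeneous a → (q p : _ ⧸ U) = U.mkQ p := fun p hp =>
    congrArg U.mkQ (homogeneousComponent_eq_self hp)
  have hfn : ∀ s p, p.IsHomogeneous a →
      fn a (fun μ => b.repr (q (monomial μ 1)) s) p = b.repr (q p) s := by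
    intro s p hp
    conv_rhs => rw [hom_eq_sum hp]
    rw [fn_apply, ← sum_coe_sort]
    simp [← smul_eq_C_mul, mul_comm]
  choose g hg hg' using fun s => (b s).2
  have hqg : ∀ s, q (g s) = b s := fun s => Subtype.ext ((hq _ (hg s)).trans (hg' s))
  refine ⟨_, fun s μ => b.repr (q (monomial μ 1)) s, g, fun s t => ?_, fun u hu hu' s => ?_,
    fun μ hμ => ?_⟩
  · rw [hfn s _ (hg t), hqg]
    simp [Finsupp.single_apply, eq_comm]
  · rw [hfn s _ hu', show q u = 0 from Subtype.ext ((hq _ hu').trans (by simpa using hu))]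
    simp
  · rw [← Submodule.Quotient.mk_eq_zero, ← Submodule.mkQ_apply, map_sub, map_sum, sub_eq_zero,
      ← hq _ (isHomogeneous_monomial _ (mem_Mon.mp hμ))]
    conv_lhs => rw [← b.sum_repr (q _)]
    simp only [map_smul, hg', Submodule.coe_sum, Submodule.coe_smul]

lemma mem_ext1_of_fn {E : Type*} [Field E] [Algebra F E] {a r : ℕ}
    {U : Submodule F (MvPolynomial (Fin n) F)} {ψ : Fin r → (Fin n →₀ ℕ) → F}
    {g : Fin r → MvPolynomial (Fin n) F} (h : ∀ μ ∈ Mon n a, monomial μ 1 - ∑ s, ψ s μ • g s ∈ U)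
    {p : MvPolynomial (Fin n) E} (hp : p.IsHomogeneous a)
    (h0 : ∀ s, fn a (fun μ => algebraMap F E (ψ s μ)) p = 0) : p ∈ ext1 E U := by
  have h1 : p = ∑ μ : Mon n a, coeff μ.1 p •
      map (algebraMap F E) (monomial μ.1 1 - ∑ s, ψ s μ • g s) := by
    simp only [map_sub, map_sum, smul_eq_C_mul, map_mul, map_C, map_monomial, map_one, mul_sub,
      sum_sub_distrib, mul_sum, ← mul_assoc]
    simp only [← C_mul]
    rw [sum_comm, ← hom_eq_sum hp, sum_eq_zero (s := univ) fun s _ => ?_, sub_zero]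
    have := h0 s
    rw [fn_apply, ← sum_coe_sort] at this
    rw [← sum_mul, ← map_sum, sum_congr rfl fun μ _ => mul_comm _ _, this, map_zero, zero_mul]
  rw [h1]
  exact Submodule.sum_mem _ fun μ _ =>
    Submodule.smul_mem _ _ (Submodule.subset_span ⟨_, h _ μ.2, rfl⟩)

lemma exists_point {r m a : ℕ} [NeZero a] (ha : 2 ≤ a) (hn : 0 < n)
    (hm : Fintype.card ({t : ZMod a // t ≠ 0} → Fin n) ≤ m) (ψ : Fin r → (Fin n →₀ ℕ) → F)
    (hs : ∀ v : Fin r → F, ∃ g, ∀ s, fn a (ψ s) g = v s) (f : Fin c → MvPolynomial (Fin n) F)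
    (hf : ∀ i, (f i).IsHomogeneous a) :
    ∃ (pt : Var n c r m a → F) (e : Fin c → Fin r → Fin m × Fin n),
      (∀ i, map (aeval pt : _ →ₐ[F] F).toRingHom (gg F n r m a i) = f i) ∧
        aeval pt ((sys c m a ψ).Δ e) ≠ 0 := by
  let T := {t : ZMod a // t ≠ 0}
  have hcard : Fintype.card T + 1 = a := by
    simp only [T, ne_eq, Fintype.card_subtype_compl, ZMod.card, Fintype.card_unique]
    omega
  have : Nonempty (T → Fin n) := ⟨fun _ => ⟨0, hn⟩⟩
  obtain ⟨inj⟩ := Function.Embedding.nonempty_of_card_le (α := T → Fin n) (β := Fin m)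
    (by rwa [Fintype.card_fin m])
  let en := Function.invFun inj
  have hen : ∀ μ ∈ Mon n a, ∃ k j, (X j * ∏ t, X (en k t) : MvPolynomial (Fin n) F) =
      monomial μ 1 := by
    intro μ hμ
    rw [mem_Mon] at hμ
    obtain ⟨j, hj⟩ : ∃ j, μ j ≠ 0 := by
      by_contra h
      push Not at h
      rw [show μ = 0 from Finsupp.ext h] at hμ
      simp at hμ
      omega
    obtain ⟨d, rfl⟩ := exists_eq_add_single hj
    obtain ⟨η, hη⟩ := exists_prod_X F (T := T) d (by simp at hμ; omega)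
    obtain ⟨k, rfl⟩ := Function.invFun_surjective inj.injective η
    exact ⟨k, j, by rw [hη, mul_comm, X, monomial_mul, mul_one]⟩
  have hy : ∀ p : MvPolynomial (Fin n) F, p.IsHomogeneous a →
      ∃ y : Fin m → Fin n → F, ∑ k, lin (y k) * ∏ t, X (en k t) = p := by
    intro p hp
    choose k j hkj using fun μ : Mon n a => hen μ.1 μ.2
    refine ⟨∑ μ, Pi.single (k μ) (Pi.single (j μ) (coeff μ.1 p)), ?_⟩
    conv_rhs => rw [hom_eq_sum hp]
    simp only [lin, Finset.sum_apply, map_sum, sum_mul, ← hkj]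
    rw [sum_congr rfl fun _ _ => sum_comm, sum_comm]
    refine sum_congr rfl fun μ _ => ?_
    rw [sum_eq_single (k μ) (fun k' _ h => by simp [Pi.single_eq_of_ne h]) (by simp),
      sum_eq_single (j μ) (fun k' _ h => by simp [Pi.single_eq_of_ne h]) (by simp)]
    simp [mul_assoc]
  choose y hy using fun i => hy (f i) (hf i)
  let pt : Var n c r m a → F := Sum.elim (fun v => if h : v.2.1 = 0 then
    y (ofLex v.1).1 (ofLex v.1).2 v.2.2 else
      (Pi.single (en (ofLex v.1).2 ⟨v.2.1, h⟩) 1 : Fin n → F) v.2.2) 0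
  have hpt : ∀ i k (t : T), (fun j => (aeval pt : _ →ₐ[F] F).toRingHom
      (xv F n r (toLex (i, k)) t j)) = Pi.single (en k t) 1 := fun i k t =>
    funext fun j => by simp [xv, pt, t.2]
  have hM : ∀ i, ∃ e : Fin r → Fin m × Fin n, aeval pt ((sys c m a ψ).δ i e) ≠ 0 := by
    intro i
    by_contra h
    push Not at h
    obtain ⟨l, hl0, hl⟩ := exists_left_kernel (((sys c m a ψ).M i).map (aeval pt)) fun e => by
      have := h e
      rw [LinSys.δ, AlgHom.map_det] at this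
      exact this
    have h1 : ∀ μ ∈ Mon n a, ∑ s, l s * ψ s μ = 0 := by
      intro μ hμ
      obtain ⟨k, j, hkj⟩ := hen μ hμ
      rw [← hl (k, j)]
      refine sum_congr rfl fun s _ => congrArg _ ?_
      refine Eq.symm ((map_pv (aeval pt : _ →ₐ[F] F).toRingHom _ _ _).trans ?_)
      simp only [hpt, pv, lin_single]
      refine (congrArg _ hkj).trans ?_
      rw [fn_monomial _ (mem_Mon.mp hμ)]
      simp
    refine hl0 (funext fun s => ?_)
    obtain ⟨g, hg⟩ := hs (Pi.single s 1)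
    have : ∑ t, l t * fn a (ψ t) g = 0 := by
      simp only [fn_apply, mul_sum, ← mul_assoc]
      rw [sum_comm]
      exact sum_eq_zero fun μ hμ => by rw [← sum_mul, h1 μ hμ, zero_mul]
    simpa [hg, Pi.single_apply] using this
  choose e he using hM
  refine ⟨pt, e, fun i => ?_, ?_⟩
  · rw [← hy i, gg, map_sum]
    refine sum_congr rfl fun k _ => ?_
    rw [Fintype.prod_eq_mul_prod_subtype_ne _ 0, map_mul, map_prod]
    simp only [map_lin]
    congr 1
    · congr 1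
      funext j
      simp [xv, pt]
    · exact prod_congr rfl fun t _ => by rw [hpt i k t, lin_single]
  · rw [LinSys.Δ, map_prod]
    exact prod_ne_zero_iff.mpr fun i _ => he i

lemma exists_frac (F : Type*) {R : Type u} [Field F] [CommRing R] [Algebra F R] (P : Ideal R)
    [P.IsPrime] : ∃ (E : Type u) (_ : Field E) (_ : Algebra F E) (φ : R →ₐ[F] E),
      (∀ p, φ p = 0 ↔ p ∈ P) ∧ ∀ z, ∃ p q, q ∉ P ∧ z * φ q = φ p := by
  refine ⟨FractionRing (R ⧸ P), inferInstance, inferInstance,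
    (IsScalarTower.toAlgHom F _ _).comp (Ideal.Quotient.mkₐ F P), fun p =>
    (FaithfulSMul.algebraMap_eq_zero_iff (R ⧸ P) _).trans Ideal.Quotient.eq_zero_iff_mem,
    fun z => ?_⟩
  obtain ⟨⟨p, q, hq⟩, h⟩ := IsLocalization.surj (nonZeroDivisors (R ⧸ P)) z
  obtain ⟨p, rfl⟩ := Ideal.Quotient.mk_surjective p
  obtain ⟨q, rfl⟩ := Ideal.Quotient.mk_surjective q
  exact ⟨p, q, fun h => nonZeroDivisors.ne_zero hq (Ideal.Quotient.eq_zero_iff_mem.mpr h), h⟩

theorem exists_setup [IsAlgClosed F] {a : ℕ} (ha : 2 ≤ a) (hn : 0 < n) {emb : Fin c → Fin n}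
    (hinj : Function.Injective emb) {l : Fin n → MvPolynomial (Fin n) F} (hl : ∀ i, l (emb i) = 0)
    (hl1 : ∀ j, (l j).IsHomogeneous 1) (U : Submodule F (MvPolynomial (Fin n) F))
    (hU : U ≤ homogeneousSubmodule (Fin n) F a) {D0 : ℕ}
    (hD0 : Prim (Ideal.span (U : Set (MvPolynomial (Fin n) F))) D0)
    (f : Fin c → MvPolynomial (Fin n) F) (hf : ∀ i, f i ∈ U) {D1 : ℕ}
    (hD1 : Prim (Ideal.span (Set.range f ∪ Set.range l)) D1) :
    ∃ (E : Type u) (_ : Field E) (_ : Algebra F E) (ι : Type) (_ : Fintype ι) (_ : DecidableEq ι)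
      (S : Setup F E n ι) (g : Fin c → MvPolynomial (Fin n) E), (∀ i, g i ∈ ext1 E U) ∧
      (∀ i, S.Z (emb i) ^ a = g i • 1) ∧
      (∀ j ∉ Set.range emb, S.Z j = map (algebraMap F E) (l j) • 1) ∧
      ∀ H : Set (MvPolynomial (Fin n) F), (∀ h ∈ H, ∃ e, h.IsHomogeneous e) → ∀ D,
        Prim (Ideal.span (Set.range f ∪ H)) D →
          Prim (Ideal.span (Set.range g ∪ map (algebraMap F E) '' H)) D := by
  have : NeZero a := ⟨by omega⟩
  obtain ⟨r, ψ, g0, h1, h2, h3⟩ := exists_psi (a := a) U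
  have hs : ∀ v : Fin r → F, ∃ g, ∀ s, fn a (ψ s) g = v s := fun v =>
    ⟨∑ t, v t • g0 t, fun s => by simp [h1]⟩
  obtain ⟨m, hm, hm'⟩ : ∃ m, c * r + r + 1 ≤ m ∧
      Fintype.card ({t : ZMod a // t ≠ 0} → Fin n) ≤ m := ⟨_, le_max_left _ _, le_max_right _ _⟩
  obtain ⟨pt, e, hpt, hΔ⟩ := exists_point ha hn hm' ψ hs f fun i => hU (hf i)
  obtain ⟨P, hP⟩ := (sys c m a ψ).exists_genPt (e := e) fun h => hΔ (by rw [h, map_zero])
  have := hP.prime
  obtain ⟨ω, hω⟩ := exists_qRoot F (NeZero.ne a)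
  obtain ⟨E, _, _, φ, hφ, hfr⟩ := exists_frac F P
  have hww : (sys c m a ψ).ww ≤ RingHom.ker (aeval pt : _ →ₐ[F] F).toRingHom := by
    refine Ideal.span_le.mpr ?_
    rintro _ ⟨s, rfl⟩
    rw [SetLike.mem_coe, RingHom.mem_ker, sys_w, map_fn, hpt]
    simpa using h2 _ (hf s.1) (hU (hf s.1)) s.2
  have htr : ∀ H : Set (MvPolynomial (Fin n) F), (∀ h ∈ H, ∃ e, h.IsHomogeneous e) → ∀ D,
      Prim (Ideal.span (Set.range f ∪ H)) D →
        Prim (Ideal.span (map (φ : MvPolynomial (Var n c r m a) F →+* E) ''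
          (Set.range (gg F n r m a) ∪ map C '' H))) D := by
    intro H hH D hD
    refine prim_transfer (aeval pt : _ →ₐ[F] F).toRingHom (fun x => ⟨C x, by simp⟩) _
      (fun p hp => ?_) ?_ (hD.mono (Ideal.span_mono ?_) le_rfl)
    · obtain ⟨N, hN⟩ := hP.tors p ((hφ p).mp hp)
      have := hww hN
      rw [RingHom.mem_ker, map_mul, map_pow] at this
      exact (mul_eq_zero.mp this).resolve_left (pow_ne_zero _ hΔ)
    · rintro _ (⟨i, rfl⟩ | ⟨h, hh, rfl⟩)
      · exact ⟨_, gg_hom i⟩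
      · obtain ⟨e, he⟩ := hH h hh
        exact ⟨e, he.map _⟩
    · rintro _ (⟨i, rfl⟩ | hh)
      · exact ⟨_, Or.inl ⟨i, rfl⟩, hpt i⟩
      · exact ⟨_, Or.inr ⟨_, hh, rfl⟩, (map_map_C (aeval pt) _).trans (map_id _)⟩
  have hN : ∀ j, (X j : MvPolynomial (Fin n) F) ^ D0 ∈
      Ideal.span {u | u.IsHomogeneous a ∧ ∀ s, fn a (ψ s) u = 0} := fun j => by
    refine Ideal.span_mono (fun u hu => ?_) (hD0 _ (isHomogeneous_X_pow j D0))
    have hu' : u.IsHomogeneous a := hU hu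
    exact ⟨hu', h2 u hu hu'⟩
  have hD := (htr _ (by rintro _ ⟨j, rfl⟩; exact ⟨1, hl1 j⟩) D1 hD1).mono le_rfl (Nat.le_succ _)
  obtain ⟨S, hS⟩ : ∃ S : Setup F E n (GG c m a), ∀ j, S.Z j =
      (map (φ : MvPolynomial (Var n c r m a) F →+* E)).mapMatrix (zz r m a emb l ω j) :=
    ⟨mkSetup ψ ha hs hN hm hP φ hφ hfr hω hinj hl hl1 hD, fun _ => rfl⟩
  refine ⟨E, inferInstance, inferInstance, GG c m a, inferInstance, inferInstance, S,
    fun i => map (φ : MvPolynomial (Var n c r m a) F →+* E) (gg F n r m a i), fun i => ?_,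
    fun i => ?_, fun j hj => ?_, fun H hH D hD => (htr H hH D hD).mono (Ideal.span_mono ?_) le_rfl⟩
  · refine mem_ext1_of_fn h3 ((gg_hom i).map _) fun s => ?_
    have := (hφ _).mpr (hP.le (Ideal.subset_span ⟨(i, s), rfl⟩))
    rw [sys_w, ← RingHom.coe_coe, map_fn] at this
    simpa using this
  · rw [hS, ← map_pow, zz_pow hinj hl hω]
    exact map_smul_one _ _
  · rw [hS, zz_out hj, ← map_map_C φ]
    exact map_smul_one _ _
  · rintro _ ⟨_, ⟨i, rfl⟩ | ⟨h, hh, rfl⟩, rfl⟩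
    · exact Or.inl ⟨i, rfl⟩
    · exact Or.inr ⟨h, hh, (map_map_C φ h).symm⟩

end Vale.Agent.P200
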