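import Vale.Agent.P200.Pure

/-! The generic point of a system of linear equations, and dimension counts. -/

namespace Vale.Agent.P200

open MvPolynomial Module Finset

universe u v

section count

variable {F : Type u} {σ : Type v} [Field F]

lemma X_mul_mem_span {T : Set σ} {x : σ} (hx : x ∉ T) {q : MvPolynomial σ F}
    (h : X x * q ∈ Ideal.span ((X : σ → MvPolynomial σ F) '' T)) :
    q ∈ Ideal.span ((X : σ → MvPolynomial σ F) '' T) := by
  rw [mem_ideal_span_X_image] at h ⊢
  intro m hm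
  obtain ⟨i, hi, h2⟩ := h (Finsupp.single x 1 + m) (by
    rw [MvPolynomial.mem_support_iff, coeff_X_mul]; exact MvPolynomial.mem_support_iff.mp hm)
  refine ⟨i, hi, ?_⟩
  rwa [Finsupp.add_apply, Finsupp.single_eq_of_ne (by rintro rfl; exact hx hi), zero_add] at h2

lemma exists_kill (J : Ideal (MvPolynomial σ F)) (Y : Set σ)
    (h : ∀ (E : Type (max u v)) [Field E] [Algebra F E] (x : σ → E),
      (∀ p ∈ J, aeval x p = 0) → ¬ AlgebraicIndepOn F x Y) :
    ∃ p ∈ supported F Y, p ≠ 0 ∧ p ∈ J := by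
  by_contra hc
  let S : Submonoid (MvPolynomial σ F) := (supported F Y).toSubmonoid ⊓ nonZeroDivisors _
  obtain ⟨P, hP, hJ, hd⟩ := J.exists_le_prime_disjoint S (Set.disjoint_left.mpr fun p hp hS =>
    hc ⟨p, hS.1, nonZeroDivisors.ne_zero hS.2, hp⟩)
  let f : MvPolynomial σ F →ₐ[F] FractionRing (MvPolynomial σ F ⧸ P) :=
    (IsScalarTower.toAlgHom F _ _).comp (Ideal.Quotient.mkₐ F P)
  have hf : ∀ p, f p = 0 ↔ p ∈ P := fun p => by
    simp only [f, AlgHom.comp_apply, IsScalarTower.coe_toAlgHom', Ideal.Quotient.mkₐ_eq_mk,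
      FaithfulSMul.algebraMap_eq_zero_iff, Ideal.Quotient.eq_zero_iff_mem]
  have e : aeval (fun v => f (X v)) = f := by ext v; simp
  refine h _ (fun v => f (X v)) (fun p hp => by rw [e, hf]; exact hJ hp) ?_
  rw [AlgebraicIndepOn, algebraicIndependent_iff]
  intro q hq
  have h1 : f (rename (↑) q) = 0 := by rw [← e, aeval_rename]; exact hq
  by_contra hq0
  refine Set.disjoint_left.mp hd ((hf _).mp h1) ⟨?_, mem_nonZeroDivisors_of_ne_zero ?_⟩
  · rw [supported_eq_range_rename]; exact ⟨q, rfl⟩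
  · exact fun h => hq0 (rename_injective _ Subtype.val_injective (by rw [h, map_zero]))

variable {E : Type*} [Field E] [Algebra F E] {x : σ → E}

lemma not_indep {R : Type*} [CommRing R] [Algebra R E] {Y : Set σ} {p : MvPolynomial σ R}
    (hp : p ∈ supported R Y) (hp0 : p ≠ 0) (h : aeval x p = 0) : ¬ AlgebraicIndepOn R x Y := by
  intro hY
  rw [supported_eq_range_rename] at hp
  obtain ⟨q, rfl⟩ := hp
  refine hp0 ?_
  have : q = 0 := hY.eq_zero_of_aeval_eq_zero q (by
    have h' : aeval x (rename (↑) q) = 0 := h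
    rwa [aeval_rename] at h')
  simp [this]

lemma card_le_eRk {Y : Finset σ} (hY : AlgebraicIndepOn F x Y) {T : Set E}
    (hT : ∀ v ∈ Y, IsAlgebraic (Algebra.adjoin F T) (x v)) :
    (Y.card : ℕ∞) ≤ (AlgebraicIndependent.matroid F E).eRk T := by
  have hinj : Set.InjOn x Y := Set.injOn_iff_injective.mpr hY.injective
  rw [← Matroid.eRk_closure_eq, ← Set.encard_coe_eq_coe_finsetCard, ← hinj.encard_image]
  refine Matroid.Indep.encard_le_eRk_of_subset (AlgebraicIndependent.image hY) ?_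
  rintro _ ⟨v, hv, rfl⟩
  rw [AlgebraicIndependent.matroid_closure_eq]
  exact hT v hv

lemma card_lt_of_dep {Y V : Finset σ} (hY : AlgebraicIndepOn F x Y)
    (hT : ∀ v ∈ Y, IsAlgebraic (Algebra.adjoin F (x '' V)) (x v))
    (hV : ¬ AlgebraicIndepOn F x V) : Y.card < V.card := by
  by_contra hc
  have h1 := card_le_eRk hY hT
  have h2 := (AlgebraicIndependent.matroid F E).eRk_le_encard (x '' V)
  have h3 := Set.encard_image_le x (V : Set σ)
  have h4 : (V : Set σ).encard ≤ Y.card := by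
    rw [Set.encard_coe_eq_coe_finsetCard]; exact_mod_cast not_lt.mp hc
  have hinj : Set.InjOn x V := by
    refine V.finite_toSet.injOn_of_encard_image_eq ?_
    exact h3.antisymm (h4.trans (h1.trans h2))
  refine hV ((algebraicIndependent_image hinj).mpr ?_)
  exact (Matroid.indep_iff_eRk_eq_encard_of_finite (V.finite_toSet.image x)).mpr
    (h2.antisymm (h3.trans (h4.trans h1)))

lemma exists_indep_over [DecidableEq σ] {Y : Finset σ} (hY : AlgebraicIndepOn F x Y) {r : ℕ}
    (l : Fin r → E) : ∃ Y' ⊆ Y, Y.card ≤ Y'.card + r ∧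
      AlgebraicIndepOn (Algebra.adjoin F (Set.range l)) x Y' := by
  classical
  have hinj : Set.InjOn x Y := Set.injOn_iff_injective.mpr hY.injective
  obtain ⟨B, hB⟩ := (AlgebraicIndependent.matroid (Algebra.adjoin F (Set.range l)) E).exists_isBasis
    (x '' Y)
  rw [AlgebraicIndependent.matroid_isBasis_iff] at hB
  have e : x '' (Y.filter (x · ∈ B) : Finset σ) = B := by
    ext b
    constructor
    · rintro ⟨v, hv, rfl⟩; exact (mem_filter.mp hv).2
    · intro hb
      obtain ⟨v, hv, rfl⟩ := hB.2.1 hb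
      exact ⟨v, mem_filter.mpr ⟨hv, hb⟩, rfl⟩
  refine ⟨Y.filter (x · ∈ B), filter_subset _ _, ?_, ?_⟩
  · have h1 := card_le_eRk hY (T := Set.range l ∪ B) fun v hv => by
      rw [Algebra.adjoin_union_eq_adjoin_adjoin]
      exact hB.2.2 _ ⟨v, hv, rfl⟩
    have h2 := h1.trans (((AlgebraicIndependent.matroid F E).eRk_le_encard _).trans
      (Set.encard_union_le _ _))
    have h3 : (Set.range l).encard ≤ r := by
      rw [← Set.image_univ]
      exact (Set.encard_image_le _ _).trans (by simp)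
    have h4 : B.encard ≤ (Y.filter (x · ∈ B)).card := by
      conv_lhs => rw [← e]
      exact (Set.encard_image_le _ _).trans (Set.encard_coe_eq_coe_finsetCard _).le
    have h5 := h2.trans (add_le_add h3 h4)
    rw [add_comm]
    exact_mod_cast h5
  · refine (algebraicIndependent_image (hinj.mono (by simp [Set.subset_def]; tauto))).mpr ?_
    rw [e]
    exact hB.1

end count

variable {F : Type u} {σ : Type v} {I C0 : Type*} [Field F] {r : ℕ} [Fintype C0] [Fintype I]

namespace LinSys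

variable (L : LinSys F σ I C0 r) (e : I → Fin r → C0)

/-- The ideal of the equations. -/
noncomputable def ww : Ideal (MvPolynomial σ F) := Ideal.span (Set.range L.w)

/-- The product of the chosen minors. -/
noncomputable def Δ : MvPolynomial σ F := ∏ i, L.δ i (e i)

/-- The pivot variables. -/
def piv (s : I × Fin r) : σ := L.y (s.1, e s.1 s.2)

open Classical in
/-- The part of the equations without pivot variables. -/
noncomputable def rest (s : I × Fin r) : MvPolynomial σ F :=
  ∑ c ∈ univ \ univ.image (e s.1), L.M s.1 s.2 c * X (L.y (s.1, c))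

/-- Substitution of the pivot variables. -/
noncomputable def subst {A : Type*} [CommRing A] [Algebra F A] (g : MvPolynomial σ F →ₐ[F] A)
    (v : I × Fin r → A) : MvPolynomial σ F →ₐ[F] A :=
  aeval (Function.extend (L.piv e) v fun x => g (X x))

variable {e}

omit [Fintype C0] in
lemma inj_of_ne (h : L.Δ e ≠ 0) (i : I) : Function.Injective (e i) := by
  intro j j' hj
  by_contra hne
  refine h (prod_eq_zero (mem_univ i) (Matrix.det_zero_of_column_eq hne fun k => ?_))
  simp [hj]

omit [Fintype C0] [Fintype I] in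
lemma piv_inj (he : ∀ i, Function.Injective (e i)) : Function.Injective (L.piv e) := by
  rintro ⟨i, j⟩ ⟨i', j'⟩ h
  obtain ⟨rfl, h2⟩ := Prod.mk.inj (L.y_inj h)
  exact Prod.ext rfl (he i h2)

omit [Fintype I] in
lemma w_eq (he : ∀ i, Function.Injective (e i)) (i : I) (s : Fin r) : L.w (i, s) =
    ∑ j, (L.M i).submatrix id (e i) s j * X (L.piv e (i, j)) + L.rest e (i, s) := by
  classical
  rw [w, rest, ← sum_sdiff (subset_univ (univ.image (e i))), add_comm,
    sum_image fun _ _ _ _ h => he i h]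
  congr!

omit [Fintype I] in
lemma δ_mul_piv (he : ∀ i, Function.Injective (e i)) (i : I) (j : Fin r) :
    L.δ i (e i) * X (L.piv e (i, j)) = ∑ s, ((L.M i).submatrix id (e i)).adjugate j s *
      (L.w (i, s) - L.rest e (i, s)) := by
  simp only [L.w_eq he, add_sub_cancel_right, mul_sum, ← mul_assoc]
  rw [sum_comm]
  simp only [← sum_mul, ← Matrix.mul_apply, Matrix.adjugate_mul, δ]
  simp [Matrix.one_apply]

variable {A : Type*} [CommRing A] [Algebra F A] (g : MvPolynomial σ F →ₐ[F] A) (v : I × Fin r → A)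

omit [Fintype C0] [Fintype I] in
lemma subst_piv (he : ∀ i, Function.Injective (e i)) (s : I × Fin r) :
    L.subst e g v (X (L.piv e s)) = v s := by
  rw [subst, aeval_X, (L.piv_inj he).extend_apply]

omit [Fintype C0] [Fintype I] in
lemma subst_supp {p : MvPolynomial σ F} (hp : p ∈ supported F (Set.range (L.piv e))ᶜ) :
    L.subst e g v p = g p := by
  rw [supported_eq_adjoin_X] at hp
  refine AlgHom.eqOn_adjoin_iff.mpr ?_ hp
  rintro _ ⟨x, hx, rfl⟩
  rw [subst, aeval_X, Function.extend_apply' _ _ _ hx]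

omit [Fintype C0] [Fintype I] in
lemma M_mem (i : I) (s : Fin r) (c : C0) : L.M i s c ∈ supported F (Set.range (L.piv e))ᶜ :=
  supported_mono (by rintro _ hx ⟨s, rfl⟩; exact L.y_base _ i hx) (L.M_supp i s c)

omit [Fintype I] in
lemma rest_mem (s : I × Fin r) : L.rest e s ∈ supported F (Set.range (L.piv e))ᶜ := by
  classical
  refine Subalgebra.sum_mem _ fun c hc => mul_mem (L.M_mem _ _ _) (X_mem_supported.mpr ?_)
  rintro ⟨⟨i, j⟩, h⟩
  obtain ⟨rfl, h2⟩ := Prod.mk.inj (L.y_inj h)
  simp only [mem_sdiff, mem_univ, mem_image, true_and, not_exists] at hc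
  exact hc j h2

omit [Fintype C0] [Fintype I] in
lemma det_mem {S : Subalgebra F (MvPolynomial σ F)} (P : Matrix (Fin r) (Fin r) (MvPolynomial σ F))
    (h : ∀ i j, P i j ∈ S) : P.det ∈ S := by
  rw [Matrix.det_apply']
  exact S.sum_mem fun _ _ => mul_mem (intCast_mem _ _) (S.prod_mem fun _ _ => h _ _)

omit [Fintype C0] [Fintype I] in
lemma δ_mem (i : I) (e' : Fin r → C0) : L.δ i e' ∈ supported F (Set.range (L.piv e))ᶜ :=
  det_mem _ fun _ _ => L.M_mem _ _ _

omit [Fintype C0] in
lemma Δ_mem (e' : I → Fin r → C0) : L.Δ e' ∈ supported F (Set.range (L.piv e))ᶜ :=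
  Subalgebra.prod_mem _ fun _ _ => L.δ_mem _ _

omit [Fintype C0] [Fintype I] in
lemma adj_mem (i : I) (j s : Fin r) : ((L.M i).submatrix id (e i)).adjugate j s ∈
    supported F (Set.range (L.piv e))ᶜ := by
  rw [Matrix.adjugate_apply]
  refine det_mem _ fun k l => ?_
  rw [Matrix.updateRow_apply]
  split_ifs
  · rw [Pi.single_apply]; split_ifs
    exacts [one_mem _, zero_mem _]
  · exact L.M_mem _ _ _

lemma exists_sol (he : ∀ i, Function.Injective (e i)) (hu : IsUnit (g (L.Δ e)))
    (θ : I × Fin r → A) : ∃ v, ∀ s, L.subst e g v (L.w s) = θ s := by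
  have h1 : ∀ i, ∃ η, g (L.δ i (e i)) * η = 1 := fun i => by
    rw [Δ, map_prod] at hu
    exact (isUnit_of_dvd_unit (dvd_prod_of_mem _ (mem_univ i)) hu).exists_right_inv
  choose η hη using h1
  refine ⟨fun s => η s.1 * ∑ s', g (((L.M s.1).submatrix id (e s.1)).adjugate s.2 s') *
    (θ (s.1, s') - g (L.rest e (s.1, s'))), ?_⟩
  rintro ⟨i, s⟩
  rw [L.w_eq he, map_add, map_sum, L.subst_supp _ _ (L.rest_mem _), ← eq_sub_iff_add_eq]
  simp only [map_mul, L.subst_piv _ _ he, Matrix.submatrix_apply, L.subst_supp _ _ (L.M_mem _ _ _),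
    mul_left_comm _ (η i), ← mul_sum]
  simp only [mul_sum, ← mul_assoc _ (g _)]
  rw [sum_comm]
  simp only [← mul_sum, ← sum_mul, ← map_mul, ← map_sum]
  have : ∀ s', ∑ j, L.M i (id s) (e i j) * ((L.M i).submatrix id (e i)).adjugate j s' =
      if s = s' then L.δ i (e i) else 0 := by
    intro s'
    have h1 := congrFun (congrFun ((L.M i).submatrix id (e i)).mul_adjugate s) s'
    rw [Matrix.mul_apply, Matrix.smul_apply, Matrix.one_apply, smul_eq_mul, mul_ite, mul_one,
      mul_zero] at h1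
    exact h1
  simp only [this, apply_ite g, map_zero, ite_mul, zero_mul, sum_ite_eq, mem_univ, if_true]
  rw [← mul_assoc, mul_comm (η i), hη, one_mul]

lemma exists_pre (he : ∀ i, Function.Injective (e i)) (p : MvPolynomial σ F) :
    ∃ (N : ℕ) (q : MvPolynomial σ F), L.Δ e ^ N * p = L.subst e (AlgHom.id F _) L.w q := by
  classical
  have hΔ : L.subst e (AlgHom.id F _) L.w (L.Δ e) = L.Δ e := L.subst_supp _ _ (L.Δ_mem e)
  induction p using MvPolynomial.induction_on with
  | C a => exact ⟨0, C a, by simp [algHom_C]⟩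
  | add p p' hp hp' =>
    obtain ⟨N, q, h⟩ := hp
    obtain ⟨N', q', h'⟩ := hp'
    refine ⟨N + N', L.Δ e ^ N' * q + L.Δ e ^ N * q', ?_⟩
    simp only [map_add, map_mul, map_pow, hΔ, ← h, ← h']
    ring
  | mul_X p x hp =>
    obtain ⟨N, q, h⟩ := hp
    by_cases hx : x ∈ Set.range (L.piv e)
    · obtain ⟨⟨i, j⟩, rfl⟩ := hx
      refine ⟨N + 1, q * ((∏ i' ∈ univ.erase i, L.δ i' (e i')) *
        ∑ s, ((L.M i).submatrix id (e i)).adjugate j s *
          (X (L.piv e (i, s)) - L.rest e (i, s))), ?_⟩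
      simp only [map_mul, map_prod, map_sum, map_sub, L.subst_piv _ _ he, ← h,
        L.subst_supp _ _ (L.δ_mem _ _), L.subst_supp _ _ (L.adj_mem _ _ _),
        L.subst_supp _ _ (L.rest_mem _), AlgHom.id_apply, ← L.δ_mul_piv he]
      have h5 : (∏ i' ∈ univ.erase i, L.δ i' (e i')) * L.δ i (e i) = L.Δ e :=
        prod_erase_mul _ _ (mem_univ i)
      linear_combination (-L.Δ e ^ N * p * X (L.piv e (i, j))) * h5
    · refine ⟨N, q * X x, ?_⟩
      rw [map_mul, ← h, L.subst_supp _ _ (X_mem_supported.mpr hx), mul_assoc]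
      rfl

lemma reflect (he : ∀ i, Function.Injective (e i)) (S : Set (I × Fin r)) {q : MvPolynomial σ F}
    (h : L.subst e (AlgHom.id F _) L.w q ∈ Ideal.span (L.w '' S)) :
    ∃ N : ℕ, L.Δ e ^ N * q ∈ Ideal.span ((X : σ → MvPolynomial σ F) '' (L.piv e '' S)) := by
  let g := IsScalarTower.toAlgHom F (MvPolynomial σ F) (Localization.Away (L.Δ e))
  obtain ⟨v, hv⟩ := L.exists_sol g he (IsLocalization.Away.algebraMap_isUnit (L.Δ e))
    fun s => g (X (L.piv e s))
  have h1 : (L.subst e g v).comp (L.subst e (AlgHom.id F _) L.w) = g := by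
    ext1 x
    by_cases hx : x ∈ Set.range (L.piv e)
    · obtain ⟨s, rfl⟩ := hx
      rw [AlgHom.comp_apply, L.subst_piv _ _ he, hv]
    · rw [AlgHom.comp_apply, L.subst_supp _ _ (X_mem_supported.mpr hx), AlgHom.id_apply,
        L.subst_supp _ _ (X_mem_supported.mpr hx)]
  have h2 := Ideal.mem_map_of_mem (L.subst e g v) h
  rw [← AlgHom.comp_apply, h1, Ideal.map_span] at h2
  have h3 : algebraMap _ (Localization.Away (L.Δ e)) q ∈ Ideal.map (algebraMap _ _)
      (Ideal.span ((X : σ → MvPolynomial σ F) '' (L.piv e '' S))) := by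
    refine Ideal.span_le.mpr ?_ h2
    rintro _ ⟨_, ⟨s, hs, rfl⟩, rfl⟩
    rw [hv]
    exact Ideal.mem_map_of_mem _ (Ideal.subset_span ⟨_, ⟨s, hs, rfl⟩, rfl⟩)
  obtain ⟨_, ⟨N, rfl⟩, h4⟩ := (IsLocalization.algebraMap_mem_map_algebraMap_iff
    (Submonoid.powers (L.Δ e)) _ _ _).mp h3
  exact ⟨N, h4⟩

/-- The equations form a regular sequence away from the degeneracy locus. -/
lemma reg (e : I → Fin r → C0) (S : Set (I × Fin r)) {s : I × Fin r} (hs : s ∉ S)
    {p : MvPolynomial σ F} (h : L.w s * p ∈ Ideal.span (L.w '' S)) :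
    ∃ N : ℕ, L.Δ e ^ N * p ∈ Ideal.span (L.w '' S) := by
  by_cases hΔ : L.Δ e = 0
  · exact ⟨1, by simp [hΔ]⟩
  have he := L.inj_of_ne hΔ
  obtain ⟨N, q, hq⟩ := L.exists_pre he p
  obtain ⟨N', h1⟩ := L.reflect he S (q := X (L.piv e s) * q) (by
    rw [map_mul, L.subst_piv _ _ he, ← hq, mul_left_comm]
    exact Ideal.mul_mem_left _ _ h)
  rw [mul_left_comm] at h1
  have h2 := Ideal.mem_map_of_mem (L.subst e (AlgHom.id F _) L.w) (X_mul_mem_span (by
    rintro ⟨s', hs', h⟩
    exact hs (L.piv_inj he h ▸ hs')) h1)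
  rw [map_mul, map_pow, L.subst_supp _ _ (L.Δ_mem e), AlgHom.id_apply, ← hq, ← mul_assoc,
    ← pow_add, Ideal.map_span] at h2
  refine ⟨_, Ideal.span_mono ?_ h2⟩
  rintro _ ⟨_, ⟨_, ⟨s', hs', rfl⟩, rfl⟩, rfl⟩
  exact ⟨s', hs', (L.subst_piv _ _ he s').symm⟩

lemma exists_red (he : ∀ i, Function.Injective (e i)) (p : MvPolynomial σ F) :
    ∃ (N : ℕ), ∃ q ∈ supported F (Set.range (L.piv e))ᶜ, L.Δ e ^ N * p - q ∈ L.ww := by
  obtain ⟨N, q, hq⟩ := L.exists_pre he p
  refine ⟨N, L.subst e (AlgHom.id F _) 0 q, ?_, ?_⟩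
  · have : (L.subst e (AlgHom.id F _) 0).range ≤ supported F (Set.range (L.piv e))ᶜ := by
      rw [subst, ← Algebra.adjoin_range_eq_range_aeval, Algebra.adjoin_le_iff]
      rintro _ ⟨x, rfl⟩
      by_cases hx : x ∈ Set.range (L.piv e)
      · obtain ⟨s, rfl⟩ := hx
        rw [(L.piv_inj he).extend_apply]
        exact zero_mem _
      · rw [Function.extend_apply' _ _ _ hx]
        exact X_mem_supported.mpr hx
    exact this ⟨q, rfl⟩
  · rw [hq, ← Ideal.Quotient.eq]
    have : (Ideal.Quotient.mkₐ F L.ww).comp (L.subst e (AlgHom.id F _) L.w) =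
        (Ideal.Quotient.mkₐ F L.ww).comp (L.subst e (AlgHom.id F _) 0) := by
      ext1 x
      by_cases hx : x ∈ Set.range (L.piv e)
      · obtain ⟨s, rfl⟩ := hx
        rw [AlgHom.comp_apply, AlgHom.comp_apply, L.subst_piv _ _ he, L.subst_piv _ _ he,
          Pi.zero_apply, map_zero]
        exact Ideal.Quotient.eq_zero_iff_mem.mpr (Ideal.subset_span ⟨s, rfl⟩)
      · rw [AlgHom.comp_apply, AlgHom.comp_apply, L.subst_supp _ _ (X_mem_supported.mpr hx),
          L.subst_supp _ _ (X_mem_supported.mpr hx)]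
    exact AlgHom.congr_fun this q

/-- The main component. -/
structure GenPt (e : I → Fin r → C0) (P : Ideal (MvPolynomial σ F)) : Prop where
  prime : P.IsPrime
  le : L.ww ≤ P
  notMem : L.Δ e ∉ P
  tors : ∀ p ∈ P, ∃ N : ℕ, L.Δ e ^ N * p ∈ L.ww

lemma exists_genPt (hΔ : L.Δ e ≠ 0) : ∃ P, L.GenPt e P := by
  have he := L.inj_of_ne hΔ
  let g := IsScalarTower.toAlgHom F (MvPolynomial σ F) (FractionRing (MvPolynomial σ F))
  have hg : ∀ p, g p = 0 → p = 0 := fun p => (FaithfulSMul.algebraMap_eq_zero_iff _ _).mp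
  obtain ⟨v, hv⟩ := L.exists_sol g he (isUnit_iff_ne_zero.mpr fun h => hΔ (hg _ h)) 0
  have hle : L.ww ≤ RingHom.ker (L.subst e g v) := by
    rw [ww, Ideal.span_le]
    rintro _ ⟨s, rfl⟩
    exact hv s
  refine ⟨RingHom.ker (L.subst e g v), RingHom.ker_isPrime _, hle, fun h => hΔ (hg _ ?_),
    fun p hp => ?_⟩
  · rw [← L.subst_supp g v (L.Δ_mem e)]; exact h
  · obtain ⟨N, q, hq, h⟩ := L.exists_red he p
    have h1 : L.subst e g v q = 0 := by
      have := (RingHom.ker (L.subst e g v)).sub_mem (Ideal.mul_mem_left _ (L.Δ e ^ N) hp) (hle h)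
      rwa [sub_sub_cancel] at this
    rw [L.subst_supp g v hq] at h1
    exact ⟨N, by rwa [hg _ h1, sub_zero] at h⟩

variable {E : Type*} [Field E] [Algebra F E] {x : σ → E}

lemma count_lt [Fintype σ] (hw : ∀ s, aeval x (L.w s) = 0) (hΔ : aeval x (L.Δ e) ≠ 0)
    {q : MvPolynomial σ F} (hq : q ∈ supported F (Set.range (L.piv e))ᶜ) (hq0 : q ≠ 0)
    (hx : aeval x q = 0) {Y : Finset σ} (hY : AlgebraicIndepOn F x Y) :
    Y.card + Fintype.card I * r < Fintype.card σ := by
  classical
  have he := L.inj_of_ne (e := e) (fun h => hΔ (by rw [h, map_zero]))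
  have hV : ((univ \ univ.image (L.piv e) : Finset σ) : Set σ) = (Set.range (L.piv e))ᶜ := by
    ext; simp
  have hmem : ∀ p ∈ supported F (Set.range (L.piv e))ᶜ,
      aeval x p ∈ Algebra.adjoin F (x '' (Set.range (L.piv e))ᶜ) := by
    intro p hp
    rw [supported_eq_adjoin_X] at hp
    have := Subalgebra.mem_map.mpr ⟨p, hp, rfl (a := aeval x p)⟩
    rw [AlgHom.map_adjoin, Set.image_image] at this
    simpa using this
  have h1 := card_lt_of_dep (V := univ \ univ.image (L.piv e)) hY (fun y _ => by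
    rw [hV]
    obtain ⟨N, p, hp, h⟩ := L.exists_red he (X y)
    have h2 : aeval x (L.Δ e ^ N * X y - p) = 0 := by
      refine (show L.ww ≤ RingHom.ker (aeval x) from Ideal.span_le.mpr ?_) h
      rintro _ ⟨s, rfl⟩
      exact hw s
    rw [map_sub, map_mul, aeval_X, sub_eq_zero] at h2
    refine IsAlgebraic.of_smul (R := Algebra.adjoin F (x '' (Set.range (L.piv e))ᶜ))
      (y := ⟨_, hmem _ (pow_mem (L.Δ_mem e) N)⟩) (mem_nonZeroDivisors_of_ne_zero ?_) ?_
    · intro h0
      have := congrArg Subtype.val h0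
      simp only [map_pow, ZeroMemClass.coe_zero] at this
      exact pow_ne_zero _ hΔ this
    · have := isAlgebraic_algebraMap (A := E)
        (⟨_, hmem p hp⟩ : Algebra.adjoin F (x '' (Set.range (L.piv e))ᶜ))
      convert this using 1
      exact h2) (by rw [hV]; exact not_indep hq hq0 hx)
  rw [card_sdiff_of_subset (subset_univ _), card_image_of_injective _ (L.piv_inj he)] at h1
  simp only [card_univ, Fintype.card_prod, Fintype.card_fin] at h1
  omega

end LinSys

end Vale.Agent.P200
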