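import Mathlib

/-! Multigraded modules over a polynomial ring and their Hilbert functions. -/

namespace Vale.Agent.P200

open MvPolynomial Module

section lin

variable {F V W : Type*} [Field F] [AddCommGroup V] [Module F V] [AddCommGroup W] [Module F W]

lemma finrank_map_add_inf_ker (f : V →ₗ[F] W) (A : Submodule F V) [FiniteDimensional F A] :
    finrank F (A.map f) + finrank F ↥(A ⊓ LinearMap.ker f) = finrank F A := by
  have h := (f.domRestrict A).finrank_range_add_finrank_ker
  rw [LinearMap.range_domRestrict, LinearMap.ker_domRestrict] at h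
  rw [← h]
  congr 1
  have : (Submodule.comap A.subtype (LinearMap.ker f)) =
      Submodule.comap A.subtype (A ⊓ LinearMap.ker f) := by
    ext x; simp
  rw [this]
  exact (Submodule.comapSubtypeEquivOfLe inf_le_left).finrank_eq.symm

lemma finrank_four (f : V →ₗ[F] W) (A : Submodule F V) (B : Submodule F W)
    [FiniteDimensional F A] [FiniteDimensional F B] :
    finrank F ↥(B ⊔ A.map f) + finrank F ↥(A ⊓ B.comap f) = finrank F B + finrank F A := by
  have : FiniteDimensional F ↥(A ⊓ B.comap f) :=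
    Submodule.finiteDimensional_of_le (S₂ := A) inf_le_left
  have h1 := Submodule.finrank_sup_add_finrank_inf_eq B (A.map f)
  have h2 := finrank_map_add_inf_ker f A
  have h3 := finrank_map_add_inf_ker f (A ⊓ B.comap f)
  have e1 : (A ⊓ B.comap f).map f = B ⊓ A.map f := by
    ext y
    constructor
    · rintro ⟨x, ⟨hx, hx'⟩, rfl⟩; exact ⟨hx', x, hx, rfl⟩
    · rintro ⟨hy, x, hx, rfl⟩; exact ⟨x, ⟨hx, hy⟩, rfl⟩
  have e2 : A ⊓ B.comap f ⊓ LinearMap.ker f = A ⊓ LinearMap.ker f := by
    ext x
    simp only [Submodule.mem_inf, Submodule.mem_comap, LinearMap.mem_ker]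
    constructor
    · rintro ⟨⟨h1, -⟩, h2⟩; exact ⟨h1, h2⟩
    · rintro ⟨h1, h2⟩; exact ⟨⟨h1, by rw [h2]; exact B.zero_mem⟩, h2⟩
  rw [e1, e2] at h3
  omega

end lin

/-- A grading of a module over a polynomial ring, with finite dimensional pieces. -/
structure Gr (F : Type*) [Field F] {σ Λ : Type*} [AddCommGroup Λ] (wt : σ → Λ) (M : Type*)
    [AddCommGroup M] [Module F M] [Module (MvPolynomial σ F) M] where
  π : Λ → M →ₗ[F] M
  idem : ∀ χ m, π χ (π χ m) = π χ m
  orth : ∀ χ χ' m, χ ≠ χ' → π χ (π χ' m) = 0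
  fin : ∀ m, ∃ s : Finset Λ, ∑ χ ∈ s, π χ m = m
  fd : ∀ χ, FiniteDimensional F (LinearMap.range (π χ))
  smulX : ∀ v χ m, π (χ + wt v) ((X v : MvPolynomial σ F) • m) = (X v : MvPolynomial σ F) • π χ m

namespace Gr

variable {F : Type*} [Field F] {σ Λ : Type*} [AddCommGroup Λ] {wt : σ → Λ} {M M' : Type*}
  [AddCommGroup M] [Module F M] [Module (MvPolynomial σ F) M]
  [IsScalarTower F (MvPolynomial σ F) M]
  [AddCommGroup M'] [Module F M'] [Module (MvPolynomial σ F) M']
  [IsScalarTower F (MvPolynomial σ F) M'] (G : Gr F wt M) (G' : Gr F wt M')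

omit [IsScalarTower F (MvPolynomial σ F) M] in
lemma smul_monomial_one (d : σ →₀ ℕ) : ∀ (χ : Λ) (m : M),
    G.π (χ + Finsupp.weight wt d) ((monomial d (1 : F)) • m) = (monomial d (1 : F)) • G.π χ m := by
  induction d using Finsupp.induction_linear with
  | zero => intro χ m; simp
  | add f g hf hg =>
    intro χ m
    have : monomial (f + g) (1 : F) = monomial f 1 * monomial g 1 := by simp [monomial_mul]
    rw [this, mul_smul, mul_smul, map_add, add_comm (Finsupp.weight wt f), ← add_assoc, hf, hg]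
  | single a b =>
    rw [← X_pow_eq_monomial, Finsupp.weight_single]
    induction b with
    | zero => intro χ m; simp
    | succ b ih =>
      intro χ m
      rw [pow_succ', mul_smul, mul_smul, succ_nsmul, ← add_assoc, G.smulX, ih]

lemma smul_hom {p : MvPolynomial σ F} {l : Λ} (hp : p.IsWeightedHomogeneous wt l) (χ : Λ) (m : M) :
    G.π (χ + l) (p • m) = p • G.π χ m := by
  rw [p.as_sum, Finset.sum_smul, Finset.sum_smul, map_sum]
  refine Finset.sum_congr rfl fun d hd => ?_
  have h1 : monomial d (coeff d p) = coeff d p • monomial d (1 : F) := by simp [smul_monomial]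
  rw [h1, smul_assoc, smul_assoc, map_smul, ← hp (mem_support_iff.mp hd), smul_monomial_one]

/-- Graded submodules. -/
def Graded (N : Submodule (MvPolynomial σ F) M) : Prop := ∀ χ, ∀ m ∈ N, G.π χ m ∈ N

/-- The homogeneous part of a submodule. -/
noncomputable def part (N : Submodule (MvPolynomial σ F) M) (χ : Λ) : Submodule F M :=
  (N.restrictScalars F).map (G.π χ)

/-- The Hilbert function of a submodule. -/
noncomputable def hd (N : Submodule (MvPolynomial σ F) M) (χ : Λ) : ℤ := finrank F (G.part N χ)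

instance (N : Submodule (MvPolynomial σ F) M) (χ : Λ) : FiniteDimensional F (G.part N χ) :=
  have := G.fd χ
  Submodule.finiteDimensional_of_le (LinearMap.map_le_range)

variable {G}

lemma mem_part {N : Submodule (MvPolynomial σ F) M} (hN : G.Graded N) {χ : Λ} {m : M} :
    m ∈ G.part N χ ↔ m ∈ N ∧ G.π χ m = m := by
  constructor
  · rintro ⟨x, hx, rfl⟩; exact ⟨hN χ x hx, G.idem _ _⟩
  · rintro ⟨h1, h2⟩; exact ⟨m, h1, h2⟩

omit [IsScalarTower F (MvPolynomial σ F) M] in
lemma graded_top : G.Graded ⊤ := fun _ _ _ => trivial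

omit [IsScalarTower F (MvPolynomial σ F) M] in
lemma graded_bot : G.Graded ⊥ := fun _ m hm => by
  rw [Submodule.mem_bot] at hm; simp [hm]

omit [IsScalarTower F (MvPolynomial σ F) M] in
lemma Graded.sup {A B : Submodule (MvPolynomial σ F) M} (hA : G.Graded A) (hB : G.Graded B) :
    G.Graded (A ⊔ B) := by
  intro χ m hm
  obtain ⟨a, ha, b, hb, rfl⟩ := Submodule.mem_sup.mp hm
  rw [map_add]
  exact Submodule.add_mem_sup (hA χ a ha) (hB χ b hb)

omit [IsScalarTower F (MvPolynomial σ F) M] in
lemma Graded.inf {A B : Submodule (MvPolynomial σ F) M} (hA : G.Graded A) (hB : G.Graded B) :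
    G.Graded (A ⊓ B) := fun χ m hm => ⟨hA χ m hm.1, hB χ m hm.2⟩

omit [IsScalarTower F (MvPolynomial σ F) M] in
lemma Graded.finsetSup {α : Type*} (s : Finset α) (A : α → Submodule (MvPolynomial σ F) M)
    (hA : ∀ a ∈ s, G.Graded (A a)) : G.Graded (s.sup A) :=
  Finset.sup_induction graded_bot (fun _ h _ h' => h.sup h') hA

/-- Homogeneous linear maps. -/
def HomMap (G : Gr F wt M) (G' : Gr F wt M') (f : M →ₗ[MvPolynomial σ F] M') (l : Λ) : Prop :=
  ∀ χ m, G'.π (χ + l) (f m) = f (G.π χ m)

variable {G'}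

omit [IsScalarTower F (MvPolynomial σ F) M] [IsScalarTower F (MvPolynomial σ F) M'] in
lemma Graded.map {f : M →ₗ[MvPolynomial σ F] M'} {l : Λ} (hf : HomMap G G' f l)
    {A : Submodule (MvPolynomial σ F) M} (hA : G.Graded A) : G'.Graded (A.map f) := by
  rintro χ _ ⟨m, hm, rfl⟩
  have := hf (χ - l) m
  rw [sub_add_cancel] at this
  exact ⟨_, hA _ m hm, this.symm⟩

omit [IsScalarTower F (MvPolynomial σ F) M] [IsScalarTower F (MvPolynomial σ F) M'] in
lemma Graded.comap {f : M →ₗ[MvPolynomial σ F] M'} {l : Λ} (hf : HomMap G G' f l)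
    {B : Submodule (MvPolynomial σ F) M'} (hB : G'.Graded B) : G.Graded (B.comap f) := by
  intro χ m hm
  rw [Submodule.mem_comap, ← hf]
  exact hB _ _ hm

lemma homMap_smul {p : MvPolynomial σ F} {l : Λ} (hp : p.IsWeightedHomogeneous wt l) :
    HomMap G G (LinearMap.lsmul _ M p) l := fun χ m => G.smul_hom hp χ m

/-- The four term identity for Hilbert functions. -/
lemma hd_four {f : M →ₗ[MvPolynomial σ F] M'} {l : Λ} (hf : HomMap G G' f l)
    {A : Submodule (MvPolynomial σ F) M} (hA : G.Graded A)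
    {B : Submodule (MvPolynomial σ F) M'} (hB : G'.Graded B) (χ : Λ) :
    G'.hd (B ⊔ A.map f) (χ + l) - G'.hd B (χ + l) = G.hd A χ - G.hd (A ⊓ B.comap f) χ := by
  have h := finrank_four (f.restrictScalars F) (G.part A χ) (G'.part B (χ + l))
  have e1 : G'.part (B ⊔ A.map f) (χ + l) =
      G'.part B (χ + l) ⊔ (G.part A χ).map (f.restrictScalars F) := by
    rw [part, part, part, Submodule.restrictScalars_sup, Submodule.map_sup]
    congr 1
    ext y
    constructor
    · rintro ⟨_, ⟨x, hx, rfl⟩, rfl⟩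
      exact ⟨_, ⟨x, hx, rfl⟩, (hf χ x).symm⟩
    · rintro ⟨_, ⟨x, hx, rfl⟩, rfl⟩
      exact ⟨_, ⟨x, hx, rfl⟩, hf χ x⟩
  have e2 : G.part (A ⊓ B.comap f) χ =
      G.part A χ ⊓ (G'.part B (χ + l)).comap (f.restrictScalars F) := by
    ext x
    rw [mem_part (hA.inf (hB.comap hf)), Submodule.mem_inf, Submodule.mem_inf, mem_part hA,
      Submodule.mem_comap, Submodule.mem_comap, mem_part hB]
    constructor
    · rintro ⟨⟨h1, h2⟩, h3⟩
      refine ⟨⟨h1, h3⟩, h2, ?_⟩
      change G'.π (χ + l) (f x) = f x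
      rw [hf, h3]
    · rintro ⟨⟨h1, h3⟩, h2, -⟩
      exact ⟨⟨h1, h2⟩, h3⟩
  rw [hd, hd, hd, hd, e1, e2]
  omega

omit [IsScalarTower F (MvPolynomial σ F) M] in
lemma π_of_hom {χ χ' : Λ} {m : M} (hm : G.π χ m = m) (h : χ' ≠ χ) : G.π χ' m = 0 := by
  rw [← hm, G.orth _ _ _ h]

lemma graded_span {s : Set M} (hs : ∀ m ∈ s, ∃ χ, G.π χ m = m) :
    G.Graded (Submodule.span (MvPolynomial σ F) s) := by
  intro χ m hm
  rw [Submodule.mem_span_set'] at hm
  obtain ⟨k, p, x, rfl⟩ := hm
  rw [map_sum]
  refine Submodule.sum_mem _ fun i _ => ?_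
  rw [(p i).as_sum, Finset.sum_smul, map_sum]
  refine Submodule.sum_mem _ fun d _ => ?_
  obtain ⟨χ', h⟩ := hs _ (x i).2
  have h2 := G.smul_hom (isWeightedHomogeneous_monomial wt d (coeff d (p i)) rfl) χ' (x i)
  rw [h] at h2
  by_cases hχ : χ = χ' + Finsupp.weight wt d
  · rw [hχ, h2]
    exact Submodule.smul_mem _ _ (Submodule.subset_span (x i).2)
  · rw [π_of_hom h2 hχ]
    exact Submodule.zero_mem _

lemma hd_le_of_inj (e : M →ₗ[F] M) (he : Function.Injective e) {χ χ' : Λ}
    (hπ : ∀ m, G.π χ' (e m) = e (G.π χ m)) {N : Submodule (MvPolynomial σ F) M}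
    (hN : ∀ m ∈ N, e m ∈ N) : G.hd N χ ≤ G.hd N χ' := by
  have h1 : (G.part N χ).map e ≤ G.part N χ' := by
    rintro _ ⟨_, ⟨x, hx, rfl⟩, rfl⟩
    exact ⟨e x, hN x hx, hπ x⟩
  have h2 := Submodule.finrank_mono h1
  rw [← (Submodule.equivMapOfInjective e he _).finrank_eq] at h2
  rw [hd, hd]
  exact_mod_cast h2

lemma hd_eq_zero {χ : Λ} (h : ∀ m, G.π χ m = 0) (N : Submodule (MvPolynomial σ F) M) :
    G.hd N χ = 0 := by
  have : G.part N χ = ⊥ := by
    rw [eq_bot_iff]
    rintro _ ⟨x, -, rfl⟩
    exact h x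
  rw [hd, this]; simp

/-- The grading on a finite product, with shifts. -/
noncomputable def pi (G : Gr F wt M) {κ : Type*} [Fintype κ] (sh : κ → Λ) : Gr F wt (κ → M) where
  π χ := LinearMap.pi fun j => (G.π (χ - sh j)).comp (LinearMap.proj j)
  idem χ m := by funext j; simp [G.idem]
  orth χ χ' m h := by funext j; simp [G.orth _ _ _ (show χ - sh j ≠ χ' - sh j by simpa using h)]
  fin m := by
    classical
    choose s hs using fun j => G.fin (m j)
    refine ⟨Finset.univ.biUnion fun j => (s j).image (· + sh j), ?_⟩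
    funext j
    rw [Finset.sum_apply]
    simp only [LinearMap.pi_apply, LinearMap.coe_comp, Function.comp_apply, LinearMap.coe_proj,
      Function.eval]
    rw [← Finset.sum_subset (s₁ := (s j).image (· + sh j))
      (Finset.subset_biUnion_of_mem (fun j => (s j).image (· + sh j)) (Finset.mem_univ j)),
      Finset.sum_image (by intro a _ b _ h; simpa using h)]
    · simpa using hs j
    · intro χ _ hχ
      rw [← hs j, map_sum]
      refine Finset.sum_eq_zero fun χ' hχ' => G.orth _ _ _ ?_
      rintro rfl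
      exact hχ (Finset.mem_image.mpr ⟨_, hχ', by simp⟩)
  fd χ := by
    have := fun j => G.fd (χ - sh j)
    let e : LinearMap.range (LinearMap.pi fun j => (G.π (χ - sh j)).comp
        (LinearMap.proj (R := F) (φ := fun _ : κ => M) j)) →ₗ[F]
        (∀ j, LinearMap.range (G.π (χ - sh j))) :=
      { toFun := fun x j => ⟨x.1 j, by obtain ⟨_, y, rfl⟩ := x; exact ⟨y j, rfl⟩⟩
        map_add' := fun _ _ => rfl
        map_smul' := fun _ _ => rfl }
    refine FiniteDimensional.of_injective e fun x y h => ?_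
    ext j
    exact congrArg Subtype.val (congrFun h j)
  smulX v χ m := by
    funext j
    simp only [LinearMap.pi_apply, LinearMap.coe_comp, Function.comp_apply, LinearMap.coe_proj,
      Function.eval, Pi.smul_apply]
    rw [← G.smulX, add_sub_right_comm]

omit [IsScalarTower F (MvPolynomial σ F) M] in
lemma pi_π {κ : Type*} [Fintype κ] (sh : κ → Λ) (χ : Λ) (m : κ → M) (j : κ) :
    (G.pi sh).π χ m j = G.π (χ - sh j) (m j) := rfl

/-- The submodule of vectors with all entries in a submodule. -/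
noncomputable def piS (κ : Type*) (N : Submodule (MvPolynomial σ F) M) :
    Submodule (MvPolynomial σ F) (κ → M) := Submodule.pi Set.univ fun _ => N

omit [Module F M] [IsScalarTower F (MvPolynomial σ F) M] in
lemma mem_piS {κ : Type*} {N : Submodule (MvPolynomial σ F) M} {m : κ → M} :
    m ∈ piS κ N ↔ ∀ j, m j ∈ N := by simp [piS, Submodule.mem_pi]

omit [IsScalarTower F (MvPolynomial σ F) M] in
lemma Graded.piS {κ : Type*} [Fintype κ] (sh : κ → Λ) {N : Submodule (MvPolynomial σ F) M}
    (hN : G.Graded N) : (G.pi sh).Graded (piS κ N) :=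
  fun _ _ hm => mem_piS.mpr fun j => hN _ _ (mem_piS.mp hm j)

lemma hd_piS {κ : Type*} [Fintype κ] (sh : κ → Λ) {N : Submodule (MvPolynomial σ F) M}
    (hN : G.Graded N) (χ : Λ) : (G.pi sh).hd (piS κ N) χ = ∑ j, G.hd N (χ - sh j) := by
  let e : (G.pi sh).part (piS κ N) χ ≃ₗ[F] (∀ j, G.part N (χ - sh j)) :=
    { toFun := fun x j => ⟨x.1 j, by
        have := (mem_part (hN.piS sh)).mp x.2
        exact (mem_part hN).mpr ⟨mem_piS.mp this.1 j, congrFun this.2 j⟩⟩
      invFun := fun y => ⟨fun j => y j, (mem_part (hN.piS sh)).mpr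
        ⟨mem_piS.mpr fun j => ((mem_part hN).mp (y j).2).1,
          funext fun j => ((mem_part hN).mp (y j).2).2⟩⟩
      map_add' := fun _ _ => rfl
      map_smul' := fun _ _ => rfl
      left_inv := fun _ => rfl
      right_inv := fun _ => rfl }
  rw [hd, e.finrank_eq, Module.finrank_pi_fintype]
  simp [hd]

end Gr

/-- The grading on the polynomial ring. -/
noncomputable def grPoly (F : Type*) [Field F] {σ Λ : Type*} [Finite σ] [AddCommGroup Λ]
    (wt : σ → Λ) (dg : Λ →+ ℤ) (hdg : ∀ v, 0 < dg (wt v)) : Gr F wt (MvPolynomial σ F) where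
  π χ := weightedHomogeneousComponent wt χ
  idem χ m := (weightedHomogeneousComponent_isWeightedHomogeneous χ m).weightedHomogeneousComponent_same
  orth χ χ' m h :=
    (weightedHomogeneousComponent_isWeightedHomogeneous χ' m).weightedHomogeneousComponent_ne χ h
  fin m := ⟨(weightedHomogeneousComponent_finsupp (w := wt) m).toFinset, by
    rw [← finsum_eq_sum _ (weightedHomogeneousComponent_finsupp m)]
    exact sum_weightedHomogeneousComponent wt m⟩
  fd χ := by
    have h := weightedHomogeneousSubmodule_fg F (fun v => (dg (wt v)).toNat)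
      (fun v => by have := hdg v; omega) (dg χ).toNat
    have : FiniteDimensional F (weightedHomogeneousSubmodule F (fun v => (dg (wt v)).toNat)
      (dg χ).toNat) := Module.Finite.iff_fg.mpr h
    refine Submodule.finiteDimensional_of_le (S₂ := weightedHomogeneousSubmodule F
      (fun v => (dg (wt v)).toNat) (dg χ).toNat) ?_
    rintro _ ⟨p, rfl⟩ d hd
    have h1 := weightedHomogeneousComponent_isWeightedHomogeneous (w := wt) χ p hd
    have h2 : ((Finsupp.weight (fun v => (dg (wt v)).toNat) d : ℕ) : ℤ) = dg χ := by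
      rw [← h1, Finsupp.weight_apply, Finsupp.weight_apply, Finsupp.sum, Finsupp.sum, map_sum]
      push_cast
      refine Finset.sum_congr rfl fun v _ => ?_
      rw [map_nsmul, smul_eq_mul, nsmul_eq_mul]
      push_cast
      rw [Int.toNat_of_nonneg (hdg v).le]
    omega
  smulX v χ m := by
    classical
    ext d
    rw [smul_eq_mul, smul_eq_mul, coeff_weightedHomogeneousComponent, coeff_X_mul', coeff_X_mul']
    split_ifs with h1 h2 h2
    · rw [coeff_weightedHomogeneousComponent, if_pos]
      have := Finsupp.weight_sub_single_add (w := wt) (Finsupp.mem_support_iff.mp h2)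
      rw [h1] at this
      exact add_right_cancel this
    · rfl
    · rw [coeff_weightedHomogeneousComponent, if_neg]
      intro h
      have := Finsupp.weight_sub_single_add (w := wt) (Finsupp.mem_support_iff.mp h2)
      rw [h] at this
      exact h1 this.symm
    · rfl

end Vale.Agent.P200
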