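import Vale.Agent.P200.Gr

/-! Numerators of multigraded Hilbert series. -/

namespace Vale.Agent.P200

open MvPolynomial Module

section ga

variable {Λ : Type*} [AddCommGroup Λ]

/-- The group algebra of the weights. -/
abbrev GA (Λ : Type*) := AddMonoidAlgebra ℤ Λ

/-- Characters. -/
noncomputable def ch (l : Λ) : GA Λ := AddMonoidAlgebra.single l 1

lemma ch_add (l l' : Λ) : ch (l + l') = ch l * ch l' := by
  simp [ch, AddMonoidAlgebra.single_mul_single]

@[simp] lemma ch_zero : ch (0 : Λ) = 1 := rfl

lemma single_eq_smul_ch (l : Λ) (r : ℤ) : AddMonoidAlgebra.single l r = r • ch l := by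
  simp [ch]

lemma GA_induction {P : GA Λ → Prop} (x : GA Λ) (h0 : P 0) (hadd : ∀ x y, P x → P y → P (x + y))
    (hs : ∀ (r : ℤ) l, P (r • ch l)) : P x := by
  induction x using AddMonoidAlgebra.induction_linear with
  | zero => exact h0
  | add x y hx hy => exact hadd x y hx hy
  | single m r => rw [single_eq_smul_ch]; exact hs r m

/-- The action of the group algebra on functions. -/
noncomputable def act : GA Λ →ₐ[ℤ] Module.End ℤ (Λ → ℤ) :=
  AddMonoidAlgebra.lift ℤ _ Λ
    { toFun := fun l => LinearMap.funLeft ℤ ℤ (· - l.toAdd)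
      map_one' := by ext h χ; simp
      map_mul' := fun a b => by
        ext h χ
        simp only [toAdd_mul, LinearMap.funLeft_apply, Module.End.mul_apply]
        congr 1
        abel }

lemma act_ch (l : Λ) (h : Λ → ℤ) (χ : Λ) : act (ch l) h χ = h (χ - l) := by
  simp [act, ch]

/-- Coefficient function. -/
def toF (κ : GA Λ) : Λ → ℤ := κ.coeff

omit [AddCommGroup Λ] in
lemma toF_injective : Function.Injective (toF (Λ := Λ)) := fun a b h => by
  ext χ; exact congrFun h χ

lemma toF_add (a b : GA Λ) : toF (a + b) = toF a + toF b := by funext χ; simp [toF]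

lemma toF_sub (a b : GA Λ) : toF (a - b) = toF a - toF b := by funext χ; simp [toF]

lemma toF_zero : toF (0 : GA Λ) = 0 := by funext χ; simp [toF]

lemma toF_smul (r : ℤ) (a : GA Λ) : toF (r • a) = r • toF a := by
  funext χ; simp only [toF, AddMonoidAlgebra.coeff_smul, Finsupp.smul_apply, Pi.smul_apply]

lemma toF_sum {α : Type*} (s : Finset α) (f : α → GA Λ) :
    toF (∑ a ∈ s, f a) = ∑ a ∈ s, toF (f a) := by
  classical
  induction s using Finset.induction_on with
  | empty => simp [toF_zero]
  | insert a s ha ih => rw [Finset.sum_insert ha, Finset.sum_insert ha, toF_add, ih]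

omit [AddCommGroup Λ] in
open Classical in
lemma toF_ch (l χ : Λ) : toF (ch l) χ = if l = χ then 1 else 0 := by
  simp [toF, ch, Finsupp.single_apply]

lemma act_toF (a κ : GA Λ) : act a (toF κ) = toF (a * κ) := by
  induction a using GA_induction with
  | h0 => simp [toF_zero]
  | hadd x y hx hy => rw [map_add, LinearMap.add_apply, hx, hy, add_mul, toF_add]
  | hs r l =>
    rw [map_smul, LinearMap.smul_apply, smul_mul_assoc, toF_smul]
    congr 1
    induction κ using GA_induction with
    | h0 => simp [toF_zero]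
    | hadd x y hx hy => rw [toF_add, map_add, hx, hy, mul_add, toF_add]
    | hs r' l' =>
      rw [toF_smul, map_smul, mul_smul_comm, toF_smul, ← ch_add]
      congr 1
      funext χ
      rw [act_ch, toF_ch, toF_ch]
      congr 1
      apply propext
      constructor
      · rintro rfl; abel
      · rintro rfl; abel

omit [AddCommGroup Λ] in
lemma exists_toF (h : Λ → ℤ) (s : Finset Λ) (hs : ∀ χ, χ ∉ s → h χ = 0) : ∃ κ, toF κ = h :=
  ⟨AddMonoidAlgebra.ofCoeff (Finsupp.onFinset s h fun χ hχ => by
    by_contra h'; exact hχ (hs χ h')), rfl⟩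

lemma act_mul_apply (a b : GA Λ) (h : Λ → ℤ) : act (a * b) h = act a (act b h) := by
  rw [map_mul]; rfl

end ga

variable {F : Type*} [Field F] {σ Λ : Type*} [AddCommGroup Λ] {wt : σ → Λ} {M : Type*}
  [AddCommGroup M] [Module F M] [Module (MvPolynomial σ F) M]
  [IsScalarTower F (MvPolynomial σ F) M] {G : Gr F wt M}

/-- The denominator attached to a set of variables. -/
noncomputable def Den (wt : σ → Λ) (T : Finset σ) : GA Λ := ∏ v ∈ T, (1 - ch (wt v))

/-- The augmentation type ideal attached to a set of variables. -/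
noncomputable def JI (wt : σ → Λ) (V : Finset σ) : Ideal (GA Λ) :=
  Ideal.span ((fun v => 1 - ch (wt v)) '' V)

lemma step_identity {p : MvPolynomial σ F} {l : Λ} (hp : p.IsWeightedHomogeneous wt l)
    {N' N : Submodule (MvPolynomial σ F) M} (hN' : G.Graded N') (hN : G.Graded N) :
    act (1 - ch l) (G.hd N' - G.hd N) =
      (G.hd N' - G.hd (N ⊔ N'.map (LinearMap.lsmul _ M p))) -
        act (ch l) (G.hd (N' ⊓ N.comap (LinearMap.lsmul _ M p)) - G.hd N) := by
  funext χ
  have h := Gr.hd_four (Gr.homMap_smul (G := G) hp) hN' hN (χ - l)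
  rw [sub_add_cancel] at h
  simp only [map_sub, map_one, LinearMap.sub_apply, Module.End.one_apply, Pi.sub_apply, act_ch]
  omega

lemma exists_split [DecidableEq σ] {v : σ} {Y : Finset σ} {p : MvPolynomial σ F}
    (hp : p ∈ supported F ((insert v Y : Finset σ) : Set σ)) :
    ∃ p0 ∈ supported F (Y : Set σ), ∃ q ∈ supported F ((insert v Y : Finset σ) : Set σ),
      p = p0 + X v * q := by
  have hle : supported F (Y : Set σ) ≤ supported F ((insert v Y : Finset σ) : Set σ) :=
    supported_mono (by simp)
  have hv : (X v : MvPolynomial σ F) ∈ supported F ((insert v Y : Finset σ) : Set σ) :=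
    X_mem_supported.mpr (by simp)
  rw [supported_eq_adjoin_X] at hp
  induction hp using Algebra.adjoin_induction with
  | mem x hx =>
    obtain ⟨w, hw, rfl⟩ := hx
    rcases Finset.mem_insert.mp hw with rfl | hw
    · exact ⟨0, zero_mem _, 1, one_mem _, by simp⟩
    · exact ⟨X w, X_mem_supported.mpr hw, 0, zero_mem _, by simp⟩
  | algebraMap r => exact ⟨_, Subalgebra.algebraMap_mem _ r, 0, zero_mem _, by simp⟩
  | add x y _ _ hx hy =>
    obtain ⟨a, ha, b, hb, rfl⟩ := hx
    obtain ⟨c, hc, d, hd, rfl⟩ := hy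
    exact ⟨a + c, add_mem ha hc, b + d, add_mem hb hd, by ring⟩
  | mul x y _ _ hx hy =>
    obtain ⟨a, ha, b, hb, rfl⟩ := hx
    obtain ⟨c, hc, d, hd, rfl⟩ := hy
    exact ⟨a * c, mul_mem ha hc, a * d + b * c + X v * b * d,
      add_mem (add_mem (mul_mem (hle ha) hd) (mul_mem hb (hle hc))) (mul_mem (mul_mem hv hb) hd),
      by ring⟩

lemma exists_strip [DecidableEq σ] {v : σ} {Y : Finset σ} (k : ℕ) :
    ∀ p : MvPolynomial σ F, p.totalDegree ≤ k → p ≠ 0 →
      p ∈ supported F ((insert v Y : Finset σ) : Set σ) →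
      ∃ j : ℕ, ∃ p0 ∈ supported F (Y : Set σ), ∃ q, p0 ≠ 0 ∧ p = X v ^ j * (p0 + X v * q) := by
  induction k with
  | zero =>
    intro p hk hp0 hp
    obtain ⟨a, ha, q, -, rfl⟩ := exists_split hp
    refine ⟨0, a, ha, q, ?_, by simp⟩
    rintro rfl
    have hq : q ≠ 0 := by rintro rfl; simp at hp0
    rw [zero_add, totalDegree_mul_of_isDomain (X_ne_zero v) hq, totalDegree_X] at hk
    omega
  | succ k ih =>
    intro p hk hp0 hp
    obtain ⟨a, ha, q, hq', rfl⟩ := exists_split hp
    by_cases ha0 : a = 0
    · subst ha0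
      have hq : q ≠ 0 := by rintro rfl; simp at hp0
      rw [zero_add, totalDegree_mul_of_isDomain (X_ne_zero v) hq, totalDegree_X] at hk
      obtain ⟨j, p0, h1, q', h2, h3⟩ := ih q (by omega) hq hq'
      exact ⟨j + 1, p0, h1, q', h2, by rw [h3]; ring⟩
    · exact ⟨0, a, ha, q, ha0, by simp⟩

lemma base_finite [IsNoetherian (MvPolynomial σ F) M]
    {N' N : Submodule (MvPolynomial σ F) M} (hN' : G.Graded N') (hN : G.Graded N) (hle : N ≤ N')
    (hk : ∀ v, ∀ m ∈ N', (X v : MvPolynomial σ F) • m ∈ N) : ∃ κ, toF κ = G.hd N' - G.hd N := by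
  classical
  obtain ⟨S, hS⟩ := IsNoetherian.noetherian N'
  choose s hs using fun m => G.fin m
  refine exists_toF _ (S.biUnion s) fun χ hχ => ?_
  have key : ∀ (p : MvPolynomial σ F), ∀ m ∈ N', p • m - constantCoeff p • m ∈ N := by
    intro p
    induction p using MvPolynomial.induction_on with
    | C a => intro m _; rw [constantCoeff_C, ← algebraMap_eq, algebraMap_smul]; simp
    | add p q hp hq =>
      intro m hm
      have := N.add_mem (hp m hm) (hq m hm)
      convert this using 1
      simp only [add_smul, map_add]; abel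
    | mul_X p v _ =>
      intro m hm
      simp only [map_mul, constantCoeff_X, mul_zero, zero_smul, sub_zero, mul_smul]
      exact N.smul_mem _ (hk v m hm)
  have h1 : ∀ m ∈ N', G.π χ m ∈ N := by
    intro m hm
    rw [← hS, Submodule.mem_span_finset] at hm
    obtain ⟨p, -, rfl⟩ := hm
    rw [map_sum]
    refine N.sum_mem fun x hx => ?_
    have hx' : x ∈ N' := hS ▸ Submodule.subset_span hx
    have h2 := hN χ _ (key (p x) x hx')
    have h3 : G.π χ x = 0 := by
      rw [← hs x, map_sum]
      refine Finset.sum_eq_zero fun χ' hχ' => G.orth _ _ _ ?_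
      rintro rfl
      exact hχ (Finset.mem_biUnion.mpr ⟨x, hx, hχ'⟩)
    rwa [map_sub, (G.π χ).map_smul (constantCoeff (p x)) x, h3, smul_zero, sub_zero] at h2
  have : G.part N' χ = G.part N χ := by
    ext m
    rw [Gr.mem_part hN', Gr.mem_part hN]
    exact ⟨fun h => ⟨h.2 ▸ h1 m h.1, h.2⟩, fun h => ⟨hle h.1, h.2⟩⟩
  rw [Pi.sub_apply, Gr.hd, Gr.hd, this, sub_self]

/-- Numerators of modules with small support. -/
theorem exists_num [DecidableEq σ] [IsNoetherian (MvPolynomial σ F) M] (V : Finset σ)
    (T : Finset σ) : ∀ (s : ℕ) (N' N : Submodule (MvPolynomial σ F) M), G.Graded N' →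
      G.Graded N → N ≤ N' → (∀ v ∉ T, ∀ m ∈ N', (X v : MvPolynomial σ F) • m ∈ N) →
      (∀ Y ⊆ V ∩ T, ((V ∩ T) \ Y).card < s →
        ∃ p ∈ supported F (Y : Set σ), p ≠ 0 ∧ ∀ m ∈ N', p • m ∈ N) →
      ∃ κ ∈ JI wt V ^ s, act (Den wt T) (G.hd N' - G.hd N) = toF κ := by
  induction T using Finset.induction_on with
  | empty =>
    intro s N' N hN' hN hle hk hs
    rcases Nat.eq_zero_or_pos s with rfl | hs0
    · obtain ⟨κ, hκ⟩ := base_finite hN' hN hle fun v => hk v (by simp)
      exact ⟨κ, by simp, by simp [Den, hκ]⟩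
    · obtain ⟨p, hp, hp0, hpk⟩ := hs ∅ (by simp) (by simpa using hs0)
      rw [Finset.coe_empty, supported_empty, Algebra.mem_bot] at hp
      obtain ⟨c, rfl⟩ := hp
      have hc : c ≠ 0 := by rintro rfl; simp at hp0
      have : N' = N := le_antisymm (fun m hm => by
        have h := N.smul_mem (algebraMap F (MvPolynomial σ F) c⁻¹) (hpk m hm)
        rwa [← mul_smul, ← map_mul, inv_mul_cancel₀ hc, map_one, one_smul] at h) hle
      exact ⟨0, zero_mem _, by simp [this, toF_zero]⟩
  | insert v T hv ih =>
    intro s N' N hN' hN hle hk hs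
    have hX := isWeightedHomogeneous_X F wt v
    have hf := Gr.homMap_smul (G := G) hX
    set f := LinearMap.lsmul (MvPolynomial σ F) M (X v) with hfdef
    have hDen : Den wt (insert v T) = Den wt T * (1 - ch (wt v)) := by
      rw [Den, Finset.prod_insert hv, mul_comm, Den]
    have hCle : ∀ N : Submodule (MvPolynomial σ F) M, N ≤ N' → N ⊔ N'.map f ≤ N' := by
      intro N hle
      refine sup_le hle ?_
      rintro _ ⟨m, hm, rfl⟩
      exact N'.smul_mem _ hm
    have hKle : ∀ N : Submodule (MvPolynomial σ F) M, N ≤ N' → N ≤ N' ⊓ N.comap f :=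
      fun N hle => le_inf hle fun m hm => N.smul_mem _ hm
    have hCk : ∀ N : Submodule (MvPolynomial σ F) M,
        (∀ w ∉ insert v T, ∀ m ∈ N', (X w : MvPolynomial σ F) • m ∈ N) →
        ∀ w ∉ T, ∀ m ∈ N', (X w : MvPolynomial σ F) • m ∈ N ⊔ N'.map f := by
      intro N hk w hw m hm
      by_cases hwv : w = v
      · subst hwv; exact Submodule.mem_sup_right ⟨m, hm, rfl⟩
      · exact Submodule.mem_sup_left (hk w (by simp [hw, hwv]) m hm)
    have hKk : ∀ N : Submodule (MvPolynomial σ F) M,
        (∀ w ∉ insert v T, ∀ m ∈ N', (X w : MvPolynomial σ F) • m ∈ N) →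
        ∀ w ∉ T, ∀ m ∈ N' ⊓ N.comap f, (X w : MvPolynomial σ F) • m ∈ N := by
      intro N hk w hw m hm
      by_cases hwv : w = v
      · subst hwv; exact hm.2
      · exact hk w (by simp [hw, hwv]) m hm.1
    by_cases hcase : v ∉ V ∨ s = 0
    · have hs' : ∀ Y ⊆ V ∩ T, ((V ∩ T) \ Y).card < s →
          ∃ p ∈ supported F (Y : Set σ), p ≠ 0 ∧ ∀ m ∈ N', p • m ∈ N := by
        intro Y hY hc
        rcases hcase with h | h
        · have e : V ∩ insert v T = V ∩ T := Finset.inter_insert_of_notMem h
          rw [e] at hs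
          exact hs Y hY hc
        · omega
      obtain ⟨κ1, h1, h1'⟩ := ih s N' (N ⊔ N'.map f) hN' (hN.sup (hN'.map hf)) (hCle N hle)
        (hCk N hk) fun Y hY hc => by
          obtain ⟨p, hp, hp0, hpk⟩ := hs' Y hY hc
          exact ⟨p, hp, hp0, fun m hm => Submodule.mem_sup_left (hpk m hm)⟩
      obtain ⟨κ2, h2, h2'⟩ := ih s (N' ⊓ N.comap f) N (hN'.inf (hN.comap hf)) hN (hKle N hle)
        (hKk N hk) fun Y hY hc => by
          obtain ⟨p, hp, hp0, hpk⟩ := hs' Y hY hc
          exact ⟨p, hp, hp0, fun m hm => hpk m hm.1⟩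
      refine ⟨κ1 - ch (wt v) * κ2, sub_mem h1 (Ideal.mul_mem_left _ _ h2), ?_⟩
      rw [hDen, act_mul_apply, step_identity hX hN' hN, map_sub, h1', ← act_mul_apply, mul_comm,
        act_mul_apply, h2', act_toF, toF_sub]
    · rw [not_or, not_not] at hcase
      obtain ⟨hvV, hs0⟩ := hcase
      obtain ⟨s', rfl⟩ : ∃ s', s = s' + 1 := ⟨s - 1, by omega⟩
      induction N using WellFoundedGT.induction with
      | ind N ihN =>
      by_cases hK : N' ⊓ N.comap f ≤ N
      · have hKN : N' ⊓ N.comap f = N := le_antisymm hK (hKle N hle)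
        obtain ⟨κ1, h1, h1'⟩ := ih (s' + 1) N' (N ⊔ N'.map f) hN' (hN.sup (hN'.map hf))
          (hCle N hle) (hCk N hk) fun Y hY hc => by
            have hvY : v ∉ Y := fun h => hv (Finset.mem_inter.mp (hY h)).2
            obtain ⟨p, hp, hp0, hpk⟩ := hs (insert v Y) (by
              intro x hx
              rcases Finset.mem_insert.mp hx with rfl | hx
              · simp [hvV]
              · have := Finset.mem_inter.mp (hY hx)
                simp [this.1, this.2]) (by
              refine lt_of_le_of_lt (Finset.card_le_card fun x hx => ?_) hc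
              simp only [Finset.mem_sdiff, Finset.mem_inter, Finset.mem_insert, not_or] at hx ⊢
              tauto)
            obtain ⟨j, p0, h0, q, h00, rfl⟩ := exists_strip _ p le_rfl hp0 hp
            refine ⟨p0, h0, h00, fun m hm => ?_⟩
            have hj : ∀ j : ℕ, ∀ m ∈ N', (X v ^ j : MvPolynomial σ F) • m ∈ N → m ∈ N := by
              intro j
              induction j with
              | zero => intro m _ h; simpa using h
              | succ j ihj =>
                intro m hm h
                rw [pow_succ, mul_smul] at h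
                exact hK ⟨hm, ihj _ (N'.smul_mem _ hm) h⟩
            have h3 := hj j _ (N'.smul_mem (p0 + X v * q) hm) (by
              rw [← mul_smul]; exact hpk m hm)
            have : p0 • m = (p0 + X v * q) • m + f ((-q) • m) := by
              simp [hfdef, add_smul, mul_smul]
            rw [this]
            exact Submodule.add_mem_sup h3 ⟨_, N'.smul_mem _ hm, rfl⟩
        refine ⟨κ1, h1, ?_⟩
        rw [hDen, act_mul_apply, step_identity hX hN' hN, hKN, sub_self, map_zero, sub_zero, h1']
      · have hlt : N < N' ⊓ N.comap f := lt_of_le_of_ne (hKle N hle) fun h => hK h.ge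
        obtain ⟨κ1, h1, h1'⟩ := ihN _ hlt (hN'.inf (hN.comap hf)) inf_le_left
          (fun w hw m hm => hlt.le (hk w hw m hm)) fun Y hY hc => by
            obtain ⟨p, hp, hp0, hpk⟩ := hs Y hY hc
            exact ⟨p, hp, hp0, fun m hm => hlt.le (hpk m hm)⟩
        obtain ⟨κ2, h2, h2'⟩ := ih s' (N' ⊓ N.comap f) N (hN'.inf (hN.comap hf)) hN (hKle N hle)
          (hKk N hk) fun Y hY hc => by
            obtain ⟨p, hp, hp0, hpk⟩ := hs Y (hY.trans (Finset.inter_subset_inter_left
              (Finset.subset_insert _ _))) (by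
              have : (V ∩ insert v T) \ Y ⊆ insert v ((V ∩ T) \ Y) := by
                intro x hx
                simp only [Finset.mem_sdiff, Finset.mem_inter, Finset.mem_insert] at hx ⊢
                tauto
              have h4 := Finset.card_le_card this
              have h5 := Finset.card_insert_le v ((V ∩ T) \ Y)
              omega)
            exact ⟨p, hp, hp0, fun m hm => hpk m hm.1⟩
        refine ⟨κ1 + (1 - ch (wt v)) * κ2, add_mem h1 ?_, ?_⟩
        · rw [pow_succ']
          exact Ideal.mul_mem_mul (Ideal.subset_span ⟨v, hvV, rfl⟩) h2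
        · have : G.hd N' - G.hd N = (G.hd N' - G.hd (N' ⊓ N.comap f)) +
              (G.hd (N' ⊓ N.comap f) - G.hd N) := by abel
          rw [this, map_add, h1', hDen, mul_comm, act_mul_apply, h2', act_toF, toF_add]

end Vale.Agent.P200
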