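import Vale.Agent.P200.Gen

/-! The leading term of the numerator is the generic rank. -/

namespace Vale.Agent.P200

open MvPolynomial Module Finset

universe u v

lemma exists_uniform {R M : Type*} [CommRing R] [AddCommGroup M] [Module R M] (S : Submonoid R)
    {N' N : Submodule R M} (hN' : N'.FG) (h : ∀ m ∈ N', ∃ s ∈ S, s • m ∈ N) :
    ∃ s ∈ S, ∀ m ∈ N', s • m ∈ N := by
  classical
  obtain ⟨T, rfl⟩ := hN'
  choose! s hs hs' using h
  refine ⟨∏ t ∈ T, s t, S.prod_mem fun t ht => hs t (Submodule.subset_span ht), ?_⟩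
  have : Submodule.span R (T : Set M) ≤ N.comap (LinearMap.lsmul R M (∏ t ∈ T, s t)) := by
    rw [Submodule.span_le]
    intro t ht
    change (∏ t ∈ T, s t) • t ∈ N
    rw [← prod_erase_mul _ _ ht, mul_smul]
    exact N.smul_mem _ (hs' t (Submodule.subset_span ht))
  exact this

lemma exists_mul_span {R M : Type*} [CommRing R] [AddCommGroup M] [Module R M] (S : Submonoid R)
    {T : Set M} {N : Submodule R M} (h : ∀ m ∈ T, ∃ s ∈ S, s • m ∈ N) :
    ∀ m ∈ Submodule.span R T, ∃ s ∈ S, s • m ∈ N := by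
  intro m hm
  induction hm using Submodule.span_induction with
  | mem x hx => exact h x hx
  | zero => exact ⟨1, one_mem _, by simp⟩
  | add x y _ _ hx hy =>
    obtain ⟨s, hs, h1⟩ := hx
    obtain ⟨t, ht, h2⟩ := hy
    refine ⟨s * t, mul_mem hs ht, ?_⟩
    rw [smul_add, mul_smul s t y, mul_comm, mul_smul]
    exact N.add_mem (N.smul_mem _ h1) (N.smul_mem _ h2)
  | smul a x _ hx =>
    obtain ⟨s, hs, h1⟩ := hx
    exact ⟨s, hs, by rw [smul_comm]; exact N.smul_mem _ h1⟩

lemma span_insert_eq {R : Type*} [CommRing R] (p : R) (s : Set R) :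
    Ideal.span (insert p s) = Ideal.span s ⊔ (⊤ : Submodule R R).map (LinearMap.lsmul R R p) := by
  rw [Ideal.span_insert, sup_comm]
  congr 1
  ext q
  simp [Ideal.mem_span_singleton', mul_comm]

variable {F : Type u} {σ : Type v} {I C0 : Type*} [Field F] {r : ℕ} [Fintype C0] [Fintype I]
  [Fintype σ] [DecidableEq σ]

section free

variable {Λ : Type*} [AddCommGroup Λ] {wt : σ → Λ} {G : Gr F wt (MvPolynomial σ F)}

omit [Fintype σ] [DecidableEq σ] in
lemma π_eq_of_hom (h1 : G.π 0 1 = 1) {p : MvPolynomial σ F} {l : Λ}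
    (hp : p.IsWeightedHomogeneous wt l) : G.π l p = p := by
  have := G.smul_hom hp 0 1
  rwa [h1, zero_add, smul_eq_mul, mul_one] at this

omit [Fintype σ] [DecidableEq σ] in
lemma graded_ideal (h1 : G.π 0 1 = 1) {s : Set (MvPolynomial σ F)}
    (hs : ∀ p ∈ s, ∃ l, p.IsWeightedHomogeneous wt l) : G.Graded (Ideal.span s) :=
  Gr.graded_span fun p hp => by
    obtain ⟨l, hl⟩ := hs p hp
    exact ⟨l, π_eq_of_hom h1 hl⟩

omit [Fintype σ] [DecidableEq σ] in
lemma hd_max (h1 : G.π 0 1 = 1) :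
    G.hd ⊤ - G.hd (Ideal.span (Set.range (X : σ → MvPolynomial σ F))) = toF 1 := by
  classical
  set m := Ideal.span (Set.range (X : σ → MvPolynomial σ F)) with hmdef
  have hm : G.Graded m := graded_ideal h1 (by
    rintro _ ⟨v, rfl⟩; exact ⟨_, isWeightedHomogeneous_X F wt v⟩)
  have hmem : ∀ p, p ∈ m ↔ coeff 0 p = 0 := fun p => by
    rw [hmdef, ← Set.image_univ, mem_ideal_span_X_image]
    constructor
    · intro h
      by_contra h0
      simpa using h 0 (MvPolynomial.mem_support_iff.mpr h0)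
    · intro h d hd
      by_contra h0
      have : d = 0 := by ext i; simpa using fun h' => h0 ⟨i, Set.mem_univ i, h'⟩
      exact MvPolynomial.mem_support_iff.mp hd (this ▸ h)
  have hsub : ∀ p : MvPolynomial σ F, p - coeff 0 p • 1 ∈ m := fun p => by simp [hmem]
  funext χ
  rw [← ch_zero, toF_ch, Pi.sub_apply, Gr.hd, Gr.hd]
  split_ifs with hχ
  · subst hχ
    have e1 : G.part ⊤ 0 = G.part m 0 ⊔ Submodule.span F {1} := by
      refine le_antisymm (fun p hp => ?_) (sup_le (Submodule.map_mono le_top) ?_)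
      · rw [← sub_add_cancel p (coeff 0 p • 1)]
        refine Submodule.add_mem_sup ((Gr.mem_part hm).mpr ⟨hsub p, ?_⟩)
          (Submodule.smul_mem _ _ (Submodule.mem_span_singleton_self _))
        rw [map_sub, map_smul, h1, ((Gr.mem_part Gr.graded_top).mp hp).2]
      · rw [Submodule.span_singleton_le_iff_mem]
        exact (Gr.mem_part Gr.graded_top).mpr ⟨trivial, h1⟩
    have e2 : G.part m 0 ⊓ Submodule.span F {1} = ⊥ := by
      rw [eq_bot_iff]
      rintro p ⟨hp, hp'⟩
      obtain ⟨c, rfl⟩ := Submodule.mem_span_singleton.mp hp'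
      have := (hmem _).mp ((Gr.mem_part hm).mp hp).1
      simp only [coeff_smul, coeff_zero_one, smul_eq_mul, mul_one] at this
      simp [this]
    have := Submodule.finrank_sup_add_finrank_inf_eq (G.part m 0) (Submodule.span F {1})
    rw [← e1, e2, finrank_bot, finrank_span_singleton one_ne_zero] at this
    omega
  · have : G.part ⊤ χ = G.part m χ := by
      refine le_antisymm (fun p hp => ?_) (Submodule.map_mono le_top)
      have hp' := ((Gr.mem_part Gr.graded_top).mp hp).2
      refine (Gr.mem_part hm).mpr ⟨?_, hp'⟩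
      have := hm χ _ (hsub p)
      rwa [map_sub, map_smul, Gr.π_of_hom h1 (Ne.symm hχ), smul_zero, sub_zero, hp'] at this
    rw [this, sub_self]

lemma num_free (h1 : G.π 0 1 = 1) : act (Den wt univ) (G.hd ⊤ - G.hd ⊥) = toF 1 := by
  have key : ∀ T : Finset σ, act (Den wt T)
      (G.hd ⊤ - G.hd (Ideal.span ((X : σ → MvPolynomial σ F) '' (T : Set σ)ᶜ))) = toF 1 := by
    intro T
    induction T using Finset.induction_on with
    | empty => simpa [Den] using hd_max h1
    | insert v T hv ih =>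
      have hg : G.Graded (Ideal.span ((X : σ → MvPolynomial σ F) '' ((insert v T : Finset σ) : Set σ)ᶜ)) :=
        graded_ideal h1 (by rintro _ ⟨v, -, rfl⟩; exact ⟨_, isWeightedHomogeneous_X F wt v⟩)
      rw [Den, prod_insert hv, mul_comm, act_mul_apply,
        step_identity (isWeightedHomogeneous_X F wt v) Gr.graded_top hg, ← span_insert_eq,
        ← Set.image_insert_eq, le_antisymm (a := ⊤ ⊓ _) (fun p hp => X_mul_mem_span (by simp) hp.2)
          (le_inf le_top fun p hp => Ideal.mul_mem_left _ _ hp), sub_self, map_zero, sub_zero]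
      have e : insert v ((insert v T : Finset σ) : Set σ)ᶜ = (T : Set σ)ᶜ := by
        ext x
        by_cases hx : x = v <;> simp [hx, hv]
      rw [e]
      exact ih
  simpa using key univ

end free

namespace LinSys

variable (L : LinSys F σ I C0 r)

/-- The codimension of the degeneracy loci. -/
def C1 (s0 : ℕ) : Prop :=
  ∀ i (E : Type (max u v)) [Field E] [Algebra F E] (x : σ → E), (∀ e, aeval x (L.δ i e) = 0) →
    ∀ Y ⊆ L.base i, AlgebraicIndepOn F x Y → s0 ≤ (L.base i \ Y).card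

variable {L} {s0 : ℕ}

omit [Fintype C0] [Fintype I] [Fintype σ] in
lemma C1.kill (h : L.C1 s0) (i : I) (Y : Finset σ) (hY : Y ⊆ L.base i)
    (hc : (L.base i \ Y).card < s0) :
    ∃ p ∈ supported F (Y : Set σ), p ≠ 0 ∧ p ∈ Ideal.span (Set.range (L.δ i)) :=
  exists_kill _ _ fun E _ _ x hx hind =>
    absurd (h i E x (fun e => hx _ (Ideal.subset_span ⟨e, rfl⟩)) Y hY hind) (not_le.mpr hc)

omit [Fintype C0] in
lemma C1.degen (h : L.C1 s0) {E : Type (max u v)} [Field E] [Algebra F E] {x : σ → E}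
    (hx : ∀ e, aeval x (L.Δ e) = 0) {Y : Finset σ} (hY : AlgebraicIndepOn F x Y) :
    s0 ≤ (univ \ Y).card := by
  obtain ⟨i, hi⟩ : ∃ i, ∀ e, aeval x (L.δ i e) = 0 := by
    by_contra hc
    push Not at hc
    choose e he using hc
    have := hx e
    rw [Δ, map_prod] at this
    exact prod_ne_zero_iff.mpr (fun i _ => he i) this
  refine (h i E x hi (L.base i ∩ Y) inter_subset_left (hY.mono (by simp))).trans
    (card_le_card fun v hv => ?_)
  simp only [mem_sdiff, mem_inter, mem_univ, true_and] at hv ⊢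
  tauto

variable {Λ : Type*} [AddCommGroup Λ] {wt : σ → Λ} {M : Type*}
  [AddCommGroup M] [Module F M] [Module (MvPolynomial σ F) M]
  [IsScalarTower F (MvPolynomial σ F) M] [IsNoetherian (MvPolynomial σ F) M] {G : Gr F wt M}
  {N' N : Submodule (MvPolynomial σ F) M}

omit [Fintype C0] in
lemma negl_tors (h : L.C1 s0) (hN' : G.Graded N') (hN : G.Graded N) (hle : N ≤ N')
    (ht : ∀ e, ∀ m ∈ N', ∃ k : ℕ, L.Δ e ^ k • m ∈ N) :
    ∃ κ ∈ JI wt univ ^ s0, act (Den wt univ) (G.hd N' - G.hd N) = toF κ := by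
  refine exists_num univ univ s0 N' N hN' hN hle (fun v hv => absurd (mem_univ v) hv)
    fun Y _ hc => ?_
  obtain ⟨p, h1, h2, h3⟩ := exists_kill (N.colon N') Y fun E _ _ x hx hind => by
    rw [inter_self] at hc
    refine absurd (h.degen (fun e => ?_) hind) (not_le.mpr hc)
    obtain ⟨_, ⟨k, rfl⟩, hk⟩ := exists_uniform (Submonoid.powers (L.Δ e))
      (IsNoetherian.noetherian N') fun m hm => by
        obtain ⟨k, hk⟩ := ht e m hm
        exact ⟨_, ⟨k, rfl⟩, hk⟩
    have := hx _ (Submodule.mem_colon.mpr hk)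
    rw [map_pow] at this
    exact pow_eq_zero_iff (Nat.succ_ne_zero k) |>.mp (by rw [pow_succ, this, zero_mul])
  exact ⟨p, h1, h2, Submodule.mem_colon.mp h3⟩

lemma negl_gen (h : L.C1 s0) (hs : Fintype.card I * r < s0) {e : I → Fin r → C0}
    {P : Ideal (MvPolynomial σ F)} (hP : L.GenPt e P) (hN' : G.Graded N') (hN : G.Graded N)
    (hle : N ≤ N') (hw : ∀ s, ∀ m ∈ N', L.w s • m ∈ N) (ht : ∀ m ∈ N', ∃ p ∉ P, p • m ∈ N) :
    ∃ κ ∈ JI wt univ ^ (Fintype.card I * r + 1),
      act (Den wt univ) (G.hd N' - G.hd N) = toF κ := by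
  have := hP.prime
  refine exists_num univ univ _ N' N hN' hN hle (fun v hv => absurd (mem_univ v) hv)
    fun Y _ hc => ?_
  have hΔ : L.Δ e ≠ 0 := fun h => hP.notMem (h ▸ P.zero_mem)
  obtain ⟨p, h1, h2, h3⟩ := exists_kill (N.colon N') Y fun E _ _ x hx hind => by
    rw [inter_self] at hc
    have hc' := hc
    rw [card_sdiff_of_subset (subset_univ _), card_univ] at hc'
    have hw' : ∀ s, aeval x (L.w s) = 0 := fun s => hx _ (Submodule.mem_colon.mpr (hw s))
    by_cases h0 : aeval x (L.Δ e) = 0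
    · by_cases h1 : ∀ e, aeval x (L.Δ e) = 0
      · have := h.degen h1 hind
        omega
      · push Not at h1
        obtain ⟨e', he'⟩ := h1
        have := L.count_lt hw' he' (L.Δ_mem e) hΔ h0 hind
        omega
    · obtain ⟨p, hp, hk⟩ := exists_uniform P.primeCompl (IsNoetherian.noetherian N') ht
      obtain ⟨k, q, hq, h2⟩ := L.exists_red (L.inj_of_ne hΔ) p
      have h3 : aeval x (L.Δ e ^ k * p - q) = 0 := by
        refine (show L.ww ≤ RingHom.ker (aeval x) from Ideal.span_le.mpr ?_) h2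
        rintro _ ⟨s, rfl⟩
        exact hw' s
      rw [map_sub, map_mul, hx _ (Submodule.mem_colon.mpr hk), mul_zero, zero_sub,
        neg_eq_zero] at h3
      have := L.count_lt hw' h0 hq (by
        rintro rfl
        rw [sub_zero] at h2
        rcases hP.prime.mem_or_mem (hP.le h2) with h4 | h4
        · exact hP.notMem (hP.prime.mem_of_pow_mem _ h4)
        · exact hp h4) h3 hind
      omega
  exact ⟨p, h1, h2, Submodule.mem_colon.mp h3⟩

lemma num_ww (h : L.C1 s0) {G : Gr F wt (MvPolynomial σ F)} (h1 : G.π 0 1 = 1) {Q : Λ}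
    (hQ : ∀ s, (L.w s).IsWeightedHomogeneous wt Q) : ∃ κ ∈ JI wt univ ^ s0,
      act (Den wt univ) (G.hd ⊤ - G.hd L.ww) = toF ((1 - ch Q) ^ (Fintype.card I * r) + κ) := by
  classical
  have hg : ∀ S : Set (I × Fin r), G.Graded (Ideal.span (L.w '' S)) := fun S =>
    graded_ideal h1 (by rintro _ ⟨s, -, rfl⟩; exact ⟨_, hQ s⟩)
  have key : ∀ S : Finset (I × Fin r), ∃ κ ∈ JI wt univ ^ s0, act (Den wt univ)
      (G.hd ⊤ - G.hd (Ideal.span (L.w '' S))) = toF ((1 - ch Q) ^ S.card + κ) := by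
    intro S
    induction S using Finset.induction_on with
    | empty => exact ⟨0, zero_mem _, by simpa using num_free h1⟩
    | insert s S hs ih =>
      obtain ⟨κ, hκ, h2⟩ := ih
      obtain ⟨κ', hκ', h3⟩ := negl_tors h (Gr.graded_top.inf ((hg S).comap
        (Gr.homMap_smul (hQ s)))) (hg S) (le_inf le_top fun p hp => Ideal.mul_mem_left _ _ hp)
        fun e m hm => L.reg e S hs hm.2
      refine ⟨(1 - ch Q) * κ + ch Q * κ',
        add_mem (Ideal.mul_mem_left _ _ hκ) (Ideal.mul_mem_left _ _ hκ'), ?_⟩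
      have h4 := step_identity (hQ s) Gr.graded_top (hg S)
      rw [eq_sub_iff_add_eq] at h4
      rw [coe_insert, Set.image_insert_eq, span_insert_eq, ← h4, map_add, ← act_mul_apply,
        ← act_mul_apply, mul_comm, mul_comm _ (ch Q), act_mul_apply, act_mul_apply, h2, h3,
        act_toF, act_toF, ← toF_add, card_insert_of_notMem hs]
      congr 1
      ring
  simpa [ww] using key univ

omit [Fintype I] [Fintype σ] [DecidableEq σ] in
lemma w_smul_mem {α : Type*} (s : I × Fin r) (m : α → MvPolynomial σ F) :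
    L.w s • m ∈ Gr.piS α L.ww :=
  Gr.mem_piS.mpr fun _ => Ideal.mul_mem_right _ _ (Ideal.subset_span ⟨s, rfl⟩)

omit [Fintype σ] [DecidableEq σ] in
lemma GenPt.tors_pi {e : I → Fin r → C0} {P : Ideal (MvPolynomial σ F)} (hP : L.GenPt e P)
    {α : Type*} [Fintype α] (m : α → MvPolynomial σ F) (hm : ∀ j, m j ∈ P) :
    ∃ p ∉ P, p • m ∈ Gr.piS α L.ww := by
  classical
  choose k hk using fun j => hP.tors _ (hm j)
  refine ⟨L.Δ e ^ ∑ j, k j, fun h => hP.notMem (hP.prime.mem_of_pow_mem _ h),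
    Gr.mem_piS.mpr fun j => ?_⟩
  rw [← sum_erase_add _ _ (mem_univ j), pow_add, Pi.smul_apply, smul_eq_mul, mul_assoc]
  exact Ideal.mul_mem_left _ _ (hk j)

theorem lead (h : L.C1 s0) (hs : Fintype.card I * r < s0) {e : I → Fin r → C0}
    {P : Ideal (MvPolynomial σ F)} (hP : L.GenPt e P)
    {G : Gr F wt (MvPolynomial σ F)} (h1 : G.π 0 1 = 1) {Q : Λ}
    (hQ : ∀ s, (L.w s).IsWeightedHomogeneous wt Q) {E : Type*} [Field E]
    (φ : MvPolynomial σ F →+* E) (hφ : ∀ p, φ p = 0 ↔ p ∈ P)
    (hfr : ∀ z, ∃ p q, q ∉ P ∧ z * φ q = φ p) {κ : Type*} [Fintype κ] (sh : κ → Λ)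
    (T : Set (κ → MvPolynomial σ F)) (Ω : Set Λ) (hT : ∀ t ∈ T, ∃ l ∈ Ω, (G.pi sh).π l t = t) :
    ∃ (l : Fin (finrank E (Submodule.span E ((fun t => φ ∘ t) '' T))) → Λ), (∀ i, l i ∈ Ω) ∧
      ∃ κ1 ∈ JI wt univ ^ (Fintype.card I * r + 1), act (Den wt univ)
        ((G.pi sh).hd (Gr.piS κ L.ww ⊔ Submodule.span _ T) - (G.pi sh).hd (Gr.piS κ L.ww)) =
          toF ((1 - ch Q) ^ (Fintype.card I * r) * (∑ i, ch (l i)) + κ1) := by
  classical
  obtain ⟨f, hf, hsp, hli⟩ := Submodule.exists_fun_fin_finrank_span_eq E ((fun t => φ ∘ t) '' T)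
  choose t ht htf using hf
  choose l hl hlt using fun i => hT (t i) (ht i)
  refine ⟨l, hl, ?_⟩
  have hww : G.Graded L.ww := graded_ideal h1 (by rintro _ ⟨s, rfl⟩; exact ⟨_, hQ s⟩)
  let g := Fintype.linearCombination (MvPolynomial σ F) t
  have hg : Gr.HomMap (G.pi l) (G.pi sh) g 0 := by
    intro χ c
    simp only [g, Fintype.linearCombination_apply, map_sum, add_zero, Gr.pi_π]
    refine sum_congr rfl fun i _ => ?_
    obtain ⟨s, hs⟩ := G.fin (c i)
    conv_lhs => rw [← hs]
    conv_rhs => rw [← hs]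
    simp only [sum_smul, map_sum]
    refine sum_congr rfl fun χ' _ => ?_
    have key : ∀ p : MvPolynomial σ F, (G.pi sh).π (χ' + l i) (G.π χ' p • t i) = G.π χ' p • t i := by
      intro p
      rw [p.as_sum]
      simp only [map_sum, sum_smul]
      refine sum_congr rfl fun d _ => ?_
      have hm := isWeightedHomogeneous_monomial wt d (coeff d p) rfl
      by_cases hd : χ' = Finsupp.weight wt d
      · rw [hd, π_eq_of_hom h1 hm, add_comm, (G.pi sh).smul_hom hm, hlt]
      · rw [Gr.π_of_hom (π_eq_of_hom h1 hm) hd, zero_smul, map_zero]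
    by_cases hχ : χ' = χ - l i
    · rw [hχ, G.idem, ← hχ]
      have := key (c i)
      rwa [show χ' + l i = χ by rw [hχ, sub_add_cancel]] at this
    · rw [G.orth _ _ _ (Ne.symm hχ), zero_smul]
      exact Gr.π_of_hom (key _) fun h => hχ (by rw [h, add_sub_cancel_right])
  have hN := hww.piS sh
  have hT' : (G.pi sh).Graded (Submodule.span _ T) :=
    Gr.graded_span fun m hm => by obtain ⟨l, -, h⟩ := hT m hm; exact ⟨l, h⟩
  obtain ⟨κ0, hκ0, h0⟩ := num_ww h h1 hQ
  obtain ⟨κa, hκa, ha⟩ := negl_gen h hs hP (Gr.graded_top.inf (hN.comap hg)) (hww.piS l)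
    (le_inf le_top fun c hc => by
      simp only [g, Submodule.mem_comap, Fintype.linearCombination_apply]
      exact Submodule.sum_mem _ fun i _ => Gr.mem_piS.mpr fun j =>
        Ideal.mul_mem_right _ _ (Gr.mem_piS.mp hc i))
    (fun s m _ => w_smul_mem s m) fun c hc => hP.tors_pi c fun i => by
      refine (hφ _).mp (Fintype.linearIndependent_iff.mp hli (fun i => φ (c i)) ?_ i)
      funext j
      have := (hφ _).mpr (hP.le (Gr.mem_piS.mp hc.2 j))
      simpa [g, Fintype.linearCombination_apply, ← htf] using this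
  obtain ⟨κb, hκb, hb⟩ := negl_gen h hs hP (hN.sup hT') (hN.sup (Gr.graded_top.map hg))
    (sup_le_sup_left (by
      rintro _ ⟨c, -, rfl⟩
      simp only [g, Fintype.linearCombination_apply]
      exact Submodule.sum_mem _ fun i _ => Submodule.smul_mem _ _ (Submodule.subset_span (ht i))) _)
    (fun s m _ => Submodule.mem_sup_left (w_smul_mem s m)) (by
      have := hP.prime
      rw [← Submodule.span_eq (Gr.piS κ L.ww), ← Submodule.span_union, Submodule.span_eq]
      refine exists_mul_span P.primeCompl ?_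
      rintro m (hm | hm)
      · exact ⟨1, one_mem _, by rw [one_smul]; exact Submodule.mem_sup_left hm⟩
      · have h2 : φ ∘ m ∈ Submodule.span E (Set.range f) := by
          rw [hsp]; exact Submodule.subset_span ⟨m, hm, rfl⟩
        obtain ⟨z, hz⟩ := (Submodule.mem_span_range_iff_exists_fun E).mp h2
        choose p q hq hpq using fun i => hfr (z i)
        obtain ⟨p', hp', h3⟩ := hP.tors_pi ((∏ i, q i) • m - g fun i => p i * ∏ i' ∈ univ.erase i, q i')
          fun j => by
            rw [← hφ]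
            have := congrFun hz j
            simp only [Finset.sum_apply, Pi.smul_apply, smul_eq_mul, Function.comp_apply,
              ← htf] at this
            simp only [g, Fintype.linearCombination_apply, Pi.sub_apply, Pi.smul_apply,
              Finset.sum_apply, smul_eq_mul, map_sub, map_mul, map_sum, ← this, ← hpq, mul_sum]
            rw [sub_eq_zero]
            refine sum_congr rfl fun i _ => ?_
            rw [← mul_prod_erase _ _ (mem_univ i), map_mul]
            ring
        refine ⟨p' * ∏ i, q i, mul_mem hp' (P.primeCompl.prod_mem fun i _ => hq i), ?_⟩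
        rw [mul_smul, ← sub_add_cancel ((∏ i, q i) • m) (g _), smul_add]
        exact Submodule.add_mem_sup h3 (Submodule.smul_mem _ _ ⟨_, trivial, rfl⟩))
  refine ⟨(∑ i, ch (l i)) * κ0 - κa + κb, add_mem (sub_mem (Ideal.mul_mem_left _ _
    (Ideal.pow_le_pow_right hs hκ0)) hκa) hκb, ?_⟩
  have e1 : (G.pi l).hd ⊤ - (G.pi l).hd (Gr.piS _ L.ww) =
      act (∑ i, ch (l i)) (G.hd ⊤ - G.hd L.ww) := by
    funext χ
    rw [show (⊤ : Submodule (MvPolynomial σ F) (_ → MvPolynomial σ F)) = Gr.piS _ ⊤ from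
      (Submodule.pi_top _).symm]
    simp only [Pi.sub_apply, Gr.hd_piS l Gr.graded_top, Gr.hd_piS l hww, map_sum,
      LinearMap.sum_apply, Finset.sum_apply, act_ch, sum_sub_distrib]
  have e2 : (G.pi sh).hd (Gr.piS κ L.ww ⊔ Submodule.span _ T) - (G.pi sh).hd (Gr.piS κ L.ww) =
      ((G.pi l).hd ⊤ - (G.pi l).hd (Gr.piS _ L.ww)) -
      ((G.pi l).hd (⊤ ⊓ (Gr.piS κ L.ww).comap g) - (G.pi l).hd (Gr.piS _ L.ww)) +
      ((G.pi sh).hd (Gr.piS κ L.ww ⊔ Submodule.span _ T) -
        (G.pi sh).hd (Gr.piS κ L.ww ⊔ (⊤ : Submodule _ _).map g)) := by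
    funext χ
    have := Gr.hd_four hg Gr.graded_top hN χ
    rw [add_zero] at this
    simp only [Pi.sub_apply, Pi.add_apply]
    omega
  rw [e2, map_add, map_sub _ (_ - _), ha, hb, e1, ← act_mul_apply, mul_comm, act_mul_apply, h0,
    act_toF, ← toF_sub, ← toF_add]
  congr 1
  ring

end LinSys

end Vale.Agent.P200
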