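import Vale.Agent.P200.Kpoly

/-! Pairing of the group algebra with functions, and the final divisibility computation. -/

namespace Vale.Agent.P200

variable {Λ Λ' : Type*} [AddCommGroup Λ] [AddCommGroup Λ']

/-- The pairing with a function. -/
noncomputable def pair (Φ : Λ → ℤ) : GA Λ →ₗ[ℤ] ℤ :=
  (Finsupp.linearCombination ℤ Φ).comp (AddMonoidAlgebra.coeffLinearEquiv ℤ).toLinearMap

omit [AddCommGroup Λ] in
lemma pair_apply (Φ : Λ → ℤ) (κ : GA Λ) : pair Φ κ = ∑ χ ∈ κ.coeff.support, toF κ χ * Φ χ := by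
  simp [pair, Finsupp.linearCombination_apply, Finsupp.sum, toF]

omit [AddCommGroup Λ] in
@[simp] lemma pair_ch (Φ : Λ → ℤ) (l : Λ) : pair Φ (ch l) = Φ l := by
  simp [pair, ch]

omit [AddCommGroup Λ] in
lemma pair_congr {Φ Φ' : Λ → ℤ} {κ : GA Λ} (h : ∀ χ, toF κ χ ≠ 0 → Φ χ = Φ' χ) :
    pair Φ κ = pair Φ' κ := by
  rw [pair_apply, pair_apply]
  exact Finset.sum_congr rfl fun χ hχ => by rw [h χ (Finsupp.mem_support_iff.mp hχ)]

omit [AddCommGroup Λ] in
lemma pair_sub_left (Φ Φ' : Λ → ℤ) (κ : GA Λ) :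
    pair (fun χ => Φ χ - Φ' χ) κ = pair Φ κ - pair Φ' κ := by
  simp only [pair_apply, mul_sub, Finset.sum_sub_distrib]

omit [AddCommGroup Λ] in
lemma pair_mul_left (r : ℤ) (Φ : Λ → ℤ) (κ : GA Λ) :
    pair (fun χ => r * Φ χ) κ = r * pair Φ κ := by
  simp only [pair_apply, Finset.mul_sum]
  exact Finset.sum_congr rfl fun _ _ => by ring

lemma pair_ch_mul (Φ : Λ → ℤ) (l : Λ) (κ : GA Λ) :
    pair Φ (ch l * κ) = pair (fun χ => Φ (χ + l)) κ := by
  induction κ using GA_induction with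
  | h0 => simp
  | hadd x y hx hy => rw [mul_add, map_add, map_add, hx, hy]
  | hs r l' => rw [mul_smul_comm, map_smul, map_smul, ← ch_add, pair_ch, pair_ch, add_comm]

/-- The difference operator. -/
def dl (l : Λ) (Φ : Λ → ℤ) : Λ → ℤ := fun χ => Φ χ - Φ (χ + l)

lemma pair_one_sub (Φ : Λ → ℤ) (l : Λ) (κ : GA Λ) :
    pair Φ ((1 - ch l) * κ) = pair (dl l Φ) κ := by
  rw [sub_mul, one_mul, map_sub, pair_ch_mul, ← pair_sub_left]
  rfl

/-- Functions of degree less than `k` along a set of directions. -/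
def Dg (D : Set Λ) : ℕ → (Λ → ℤ) → Prop
  | 0, Φ => Φ = 0
  | k + 1, Φ => ∀ l ∈ D, Dg D k (dl l Φ)

/-- The ideal attached to a set of directions. -/
noncomputable def JD (D : Set Λ) : Ideal (GA Λ) := Ideal.span ((fun l => 1 - ch l) '' D)

lemma pair_eq_zero {D : Set Λ} (k : ℕ) : ∀ Φ, Dg D k Φ → ∀ κ ∈ JD D ^ k, pair Φ κ = 0 := by
  induction k with
  | zero => intro Φ h κ _; rw [show Φ = 0 from h, pair_apply]; simp
  | succ k ih =>
    intro Φ h κ hκ
    rw [pow_succ'] at hκ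
    refine Submodule.mul_induction_on hκ (fun x hx y hy => ?_)
      (fun x y hx hy => by rw [map_add, hx, hy, add_zero])
    induction hx using Submodule.span_induction generalizing y with
    | mem x hx =>
      obtain ⟨l, hl, rfl⟩ := hx
      rw [pair_one_sub]
      exact ih _ (h l hl) y hy
    | zero => simp
    | add x x' _ _ h1 h2 => rw [add_mul, map_add, h1 y hy, h2 y hy, add_zero]
    | smul r x _ h1 =>
      rw [smul_eq_mul, mul_comm r, mul_assoc]
      exact h1 _ (Ideal.mul_mem_left _ _ hy)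

lemma Dg.comb {D : Set Λ} (k : ℕ) : ∀ {Φ Φ' : Λ → ℤ} (r : ℤ) (l : Λ), Dg D k Φ → Dg D k Φ' →
    Dg D k (fun χ => Φ χ + r * Φ' (χ + l)) := by
  induction k with
  | zero =>
    intro Φ Φ' r l h h'
    rw [show Φ = 0 from h, show Φ' = 0 from h']
    funext χ; simp
  | succ k ih =>
    intro Φ Φ' r l h h' l' hl'
    have := ih r l (h l' hl') (h' l' hl')
    convert this using 1
    funext χ
    simp only [dl, add_right_comm χ l l']
    ring

lemma Dg.succ {D : Set Λ} (k : ℕ) : ∀ {Φ : Λ → ℤ}, Dg D k Φ → Dg D (k + 1) Φ := by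
  induction k with
  | zero =>
    intro Φ h l _
    rw [show Φ = 0 from h]
    funext χ; simp [dl]
  | succ k ih => intro Φ h l hl; exact ih (h l hl)

lemma Dg.mono {D : Set Λ} {k k' : ℕ} (hk : k ≤ k') {Φ : Λ → ℤ} (h : Dg D k Φ) : Dg D k' Φ := by
  induction hk with
  | refl => exact h
  | step _ ih => exact ih.succ _

lemma Dg.mul_const {D : Set Λ} (ψ : Λ → ℤ) (hψ : ∀ l ∈ D, ∀ χ, ψ (χ + l) = ψ χ) (k : ℕ) :
    ∀ {Φ : Λ → ℤ}, Dg D k Φ → Dg D k (fun χ => ψ χ * Φ χ) := by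
  induction k with
  | zero => intro Φ h; rw [show Φ = 0 from h]; funext χ; simp
  | succ k ih =>
    intro Φ h l hl
    have := ih (h l hl)
    convert this using 1
    funext χ
    simp only [dl, hψ l hl]
    ring

lemma Dg.mul_aff {D : Set Λ} (ψ : Λ →+ ℤ) (b : ℤ) (k : ℕ) :
    ∀ {Φ : Λ → ℤ}, Dg D k Φ → Dg D (k + 1) (fun χ => (ψ χ + b) * Φ χ) := by
  induction k with
  | zero => intro Φ h l _; rw [show Φ = 0 from h]; funext χ; simp [dl]
  | succ k ih =>
    intro Φ h l hl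
    have := Dg.comb (k + 1) (-ψ l) l (ih (h l hl)) h
    convert this using 1
    funext χ
    simp only [dl, map_add]
    ring

/-- Falling products. -/
def fall (ν : Λ →+ ℤ) (q : ℤ) : ℕ → Λ → ℤ
  | 0, _ => 1
  | R + 1, χ => (ν χ + -(R * q)) * fall ν q R χ

lemma Dg_fall (D : Set Λ) (ν : Λ →+ ℤ) (q : ℤ) (R : ℕ) : Dg D (R + 1) (fall ν q R) := by
  induction R with
  | zero => intro l _; funext χ; simp [dl, fall]
  | succ R ih => exact Dg.mul_aff ν _ _ ih

lemma fall_add (ν : Λ →+ ℤ) (Q : Λ) (R : ℕ) (χ : Λ) :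
    fall ν (ν Q) (R + 1) (χ + Q) = (ν χ + ν Q) * fall ν (ν Q) R χ := by
  induction R with
  | zero => simp [fall]
  | succ R ih =>
    rw [fall, ih, fall, map_add]
    push_cast
    ring

lemma pair_fall (ν : Λ →+ ℤ) (Q : Λ) (Ψ : Λ → ℤ) (hΨ : ∀ χ, Ψ (χ + Q) = Ψ χ) (R : ℕ) (κ : GA Λ) :
    pair (fun χ => fall ν (ν Q) R χ * Ψ χ) ((1 - ch Q) ^ R * κ) =
      (-ν Q) ^ R * R.factorial * pair Ψ κ := by
  induction R with
  | zero => simp [fall]
  | succ R ih =>
    rw [pow_succ', mul_assoc, pair_one_sub]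
    have : dl Q (fun χ => fall ν (ν Q) (R + 1) χ * Ψ χ) =
        fun χ => (-ν Q * (R + 1)) * (fall ν (ν Q) R χ * Ψ χ) := by
      funext χ
      simp only [dl, fall_add, hΨ]
      rw [fall]
      ring
    rw [this, pair_mul_left, ih, Nat.factorial_succ]
    push_cast
    ring

/-- Substitution of characters, with signs. -/
noncomputable def tw (g : Λ' →+ Λ) (e : Λ' →+ ℤ) : GA Λ' →ₐ[ℤ] GA Λ :=
  AddMonoidAlgebra.lift ℤ _ Λ'
    { toFun := fun l => ((e l.toAdd).negOnePow : ℤ) • ch (g l.toAdd)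
      map_one' := by simp
      map_mul' := fun a b => by
        simp only [toAdd_mul, map_add, Int.negOnePow_add, ch_add, Units.val_mul, smul_mul_smul_comm] }

lemma tw_ch (g : Λ' →+ Λ) (e : Λ' →+ ℤ) (l : Λ') :
    tw g e (ch l) = ((e l).negOnePow : ℤ) • ch (g l) := by
  simp [tw, ch]

lemma pair_tw (g : Λ' →+ Λ) (e : Λ' →+ ℤ) (Φ : Λ → ℤ) (κ : GA Λ') :
    pair Φ (tw g e κ) = pair (fun l => ((e l).negOnePow : ℤ) * Φ (g l)) κ := by
  induction κ using GA_induction with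
  | h0 => simp
  | hadd x y hx hy => rw [map_add, map_add, map_add, hx, hy]
  | hs r l => rw [map_smul, map_smul, map_smul, tw_ch, map_smul, pair_ch, pair_ch, smul_eq_mul _ (Φ _)]

lemma tw_mem_JD (g : Λ' →+ Λ) (e : Λ' →+ ℤ) {D : Set Λ'} (he : ∀ l ∈ D, Even (e l)) {k : ℕ}
    {κ : GA Λ'} (hκ : κ ∈ JD D ^ k) : tw g e κ ∈ JD (g '' D) ^ k := by
  have h : (JD D).map (tw g e) ≤ JD (g '' D) := by
    rw [JD, Ideal.map_span, Ideal.span_le]
    rintro _ ⟨_, ⟨l, hl, rfl⟩, rfl⟩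
    refine Ideal.subset_span ⟨g l, ⟨l, hl, rfl⟩, ?_⟩
    simp [tw_ch, Int.negOnePow_even _ (he l hl)]
  have h2 := Ideal.mem_map_of_mem (tw g e) hκ
  rw [Ideal.map_pow] at h2
  exact Ideal.pow_right_mono h k h2

lemma act_tw (g : Λ →+ Λ) (a : GA Λ) (h : Λ → ℤ) (χ : Λ) :
    act (tw g 0 a) h (g χ) = act a (fun l => h (g l)) χ := by
  induction a using GA_induction with
  | h0 => simp
  | hadd x y hx hy => simp only [map_add, LinearMap.add_apply, Pi.add_apply, hx, hy]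
  | hs r l =>
    simp only [map_smul, tw_ch, LinearMap.smul_apply, Pi.smul_apply, act_ch, map_sub,
      AddMonoidHom.zero_apply, Int.negOnePow_zero, Units.val_one, one_smul]

lemma pair_invariant (g : Λ ≃+ Λ) {K : GA Λ} (hK : ∀ χ, toF K (g χ) = toF K χ) (Φ : Λ → ℤ) :
    pair (fun χ => Φ (g χ)) K = pair Φ K := by
  rw [pair_apply, pair_apply]
  refine Finset.sum_bij (fun χ _ => g χ) (fun χ hχ => ?_) (fun _ _ _ _ h => g.injective h)
    (fun χ hχ => ⟨g.symm χ, ?_, by simp⟩) (fun χ _ => by rw [hK])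
  · rw [Finsupp.mem_support_iff] at hχ ⊢
    exact fun h => hχ ((hK χ).symm.trans h)
  · rw [Finsupp.mem_support_iff] at hχ ⊢
    refine fun h => hχ ?_
    have := hK (g.symm χ)
    rw [AddEquiv.apply_symm_apply] at this
    exact this.trans h

lemma pair_step (g : Λ ≃+ Λ) {K : GA Λ} (hK : ∀ χ, toF K (g χ) = toF K χ) (a : ℤ)
    (φ c : Λ → ℤ) (hφ : ∀ χ, toF K χ ≠ 0 → φ (g χ) - φ χ = 1 - a * c χ) (Ψ : Λ → ℤ)
    (hΨ : ∀ χ, Ψ (g χ) = Ψ χ) : pair Ψ K = a * pair (fun χ => Ψ χ * c χ) K := by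
  have h1 := pair_invariant g hK (fun χ => Ψ χ * φ χ)
  rw [← sub_eq_zero, ← pair_sub_left] at h1
  rw [← sub_eq_zero, ← pair_mul_left, ← pair_sub_left, ← h1]
  refine pair_congr fun χ hχ => ?_
  rw [hΨ, ← mul_sub, hφ χ hχ]
  ring

/-- The final divisibility computation. -/
theorem dvd_final {B I : Type*} [Fintype B] [Fintype I] [DecidableEq B] (a : ℤ) (R m : ℕ)
    (ν : Λ →+ ℤ) (Q : Λ) (hQ : ν Q ≠ 0) (c : B → Λ →+ ℤ) (hc : ∀ k, c k Q = 0) (K : GA Λ)
    (g : B → Λ → Λ) (hν : ∀ k χ, ν (g k χ) = ν χ) (hcg : ∀ k l χ, l ≠ k → c l (g k χ) = c l χ)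
    (hstep : ∀ k (Ψ : Λ → ℤ), (∀ χ, Ψ (g k χ) = Ψ χ) →
      pair Ψ K = a * pair (fun χ => Ψ χ * c k χ) K)
    (κ0 κ1 : GA Λ) (hκ1 : κ1 ∈ JD Set.univ ^ (R + 1)) (hlead : K = (1 - ch Q) ^ R * κ0 + κ1)
    (D : I → Set Λ) (grp : I → Finset B) (hgrp : ∀ i, (grp i).card ≤ m)
    (hD : ∀ i k, k ∉ grp i → ∀ l ∈ D i, c k l = 0) (κ' : GA Λ) (κ2 : I → GA Λ)
    (hκ2 : ∀ i, κ2 i ∈ JD (D i) ^ (R + m + 1)) (hpure : K = (1 - ch Q) ^ R * κ' + ∑ i, κ2 i) :
    a ^ Fintype.card B ∣ pair (fun _ => 1) κ0 := by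
  have hfg : ∀ k R χ, fall ν (ν Q) R (g k χ) = fall ν (ν Q) R χ := by
    intro k R χ
    induction R with
    | zero => rfl
    | succ R ih => rw [fall, fall, ih, hν]
  have h1 : ∀ s : Finset B, pair (fall ν (ν Q) R) K =
      a ^ s.card * pair (fun χ => fall ν (ν Q) R χ * ∏ k ∈ s, c k χ) K := by
    intro s
    induction s using Finset.induction_on with
    | empty => simp
    | insert k s hk ih =>
      rw [ih, hstep k _ fun χ => by
        rw [hfg, Finset.prod_congr rfl fun l hl => hcg k l χ (by rintro rfl; exact hk hl)],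
        Finset.card_insert_of_notMem hk, pow_succ, mul_assoc]
      congr 2
      refine pair_congr fun χ _ => ?_
      rw [Finset.prod_insert hk]
      ring
  have h2 : pair (fall ν (ν Q) R) K = (-ν Q) ^ R * R.factorial * pair (fun _ => 1) κ0 := by
    rw [hlead, map_add, pair_eq_zero _ _ (Dg_fall _ ν _ R) _ hκ1, add_zero,
      ← pair_fall ν Q _ (fun _ => rfl)]
    simp
  have h3 : ∀ i (s : Finset B), Dg (D i) (R + (s ∩ grp i).card + 1)
      (fun χ => (∏ k ∈ s, c k χ) * fall ν (ν Q) R χ) := by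
    intro i s
    induction s using Finset.induction_on with
    | empty => simpa using Dg_fall _ ν _ R
    | insert k s hk ih =>
      by_cases hki : k ∈ grp i
      · have := Dg.mul_aff (c k) 0 _ ih
        rw [Finset.insert_inter_of_mem hki, Finset.card_insert_of_notMem (by simp [hk]),
          ← add_assoc]
        convert this using 2
        rw [Finset.prod_insert hk]
        ring
      · have := Dg.mul_const (c k) (fun l hl χ => by rw [map_add, hD i k hki l hl, add_zero]) _ ih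
        rw [Finset.insert_inter_of_notMem hki]
        convert this using 2
        rw [Finset.prod_insert hk]
        ring
  have h4 : pair (fun χ => fall ν (ν Q) R χ * ∏ k, c k χ) K =
      (-ν Q) ^ R * R.factorial * pair (fun χ => ∏ k, c k χ) κ' := by
    rw [hpure, map_add, map_sum, Finset.sum_eq_zero, add_zero, pair_fall ν Q]
    · intro χ
      exact Finset.prod_congr rfl fun k _ => by rw [map_add, hc, add_zero]
    · intro i _
      refine pair_eq_zero _ _ ?_ _ (hκ2 i)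
      have := (h3 i Finset.univ).mono (k' := R + m + 1) (by
        have := hgrp i
        rw [Finset.univ_inter]; omega)
      convert this using 2
      ring
  have h5 := h1 Finset.univ
  rw [h2, h4, Finset.card_univ, mul_left_comm] at h5
  exact ⟨_, mul_left_cancel₀ (mul_ne_zero (pow_ne_zero _ (neg_ne_zero.mpr hQ))
    (by exact_mod_cast R.factorial_ne_zero)) h5⟩

end Vale.Agent.P200
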