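import Vale.Agent.P200.End3

/-! Ideals containing all forms of a given degree. -/

namespace Vale.Agent.P200

open MvPolynomial Module Finset

section hc

variable {R R' : Type*} [CommRing R] [CommRing R'] {n : ℕ}

lemma hc_mul {p : MvPolynomial (Fin n) R} {e : ℕ} (hp : p.IsHomogeneous e)
    (q : MvPolynomial (Fin n) R) (d : ℕ) : homogeneousComponent d (p * q) =
      if e ≤ d then p * homogeneousComponent (d - e) q else 0 := by
  conv_lhs => rw [← q.sum_homogeneousComponent, mul_sum, map_sum]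
  have h : ∀ i, homogeneousComponent d (p * homogeneousComponent i q) =
      if d = e + i then p * homogeneousComponent i q else 0 := fun i =>
    homogeneousComponent_of_mem (hp.mul (homogeneousComponent_isHomogeneous i q))
  simp only [h]
  split_ifs with hle
  · rw [sum_eq_single (d - e) (fun i _ hi => if_neg (by omega)) (fun hi => by
      rw [homogeneousComponent_eq_zero _ _ (by rw [mem_range] at hi; omega)]; simp), if_pos (by omega)]
  · exact sum_eq_zero fun i _ => if_neg (by omega)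

lemma hc_map (f : R →+* R') (d : ℕ) (p : MvPolynomial (Fin n) R) :
    homogeneousComponent d (map f p) = map f (homogeneousComponent d p) := by
  ext μ
  simp only [coeff_homogeneousComponent, coeff_map]
  split_ifs <;> simp

lemma hc_mem_span {H : Set (MvPolynomial (Fin n) R)} (hH : ∀ h ∈ H, ∃ e, h.IsHomogeneous e)
    {p : MvPolynomial (Fin n) R} (hp : p ∈ Ideal.span H) (d : ℕ) :
    homogeneousComponent d p ∈ Ideal.span H := by
  suffices h : ∀ q, homogeneousComponent d (p * q) ∈ Ideal.span H by simpa using h 1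
  induction hp using Submodule.span_induction with
  | mem x hx =>
    intro q
    obtain ⟨e, he⟩ := hH x hx
    rw [hc_mul he]
    split_ifs
    exacts [Ideal.mul_mem_right _ _ (Ideal.subset_span hx), zero_mem _]
  | zero => simp
  | add x y _ _ hx hy => intro q; rw [add_mul, map_add]; exact add_mem (hx q) (hy q)
  | smul c x _ hx => intro q; rw [smul_eq_mul, mul_comm c, mul_assoc]; exact hx _

lemma hom_eq_sum {p : MvPolynomial (Fin n) R} {d : ℕ} (hp : p.IsHomogeneous d) :
    p = ∑ μ : Mon n d, C (coeff μ.1 p) * monomial μ.1 1 := by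
  ext ν
  simp only [C_mul_monomial, mul_one, coeff_sum, coeff_monomial]
  by_cases h : ν ∈ Mon n d
  · rw [sum_eq_single ⟨ν, h⟩ (fun μ _ hμ => if_neg fun h' => hμ (Subtype.ext h')) (by simp)]
    simp
  · rw [hp.coeff_eq_zero (by rwa [mem_Mon] at h)]
    exact (sum_eq_zero fun μ _ => if_neg fun (h' : μ.1 = ν) => h (h' ▸ μ.2)).symm

/-- The ideal contains all forms of degree `D`. -/
def Prim (J : Ideal (MvPolynomial (Fin n) R)) (D : ℕ) : Prop :=
  ∀ p : MvPolynomial (Fin n) R, p.IsHomogeneous D → p ∈ J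

lemma prim_of_mon {J : Ideal (MvPolynomial (Fin n) R)} {D : ℕ}
    (h : ∀ μ ∈ Mon n D, monomial μ 1 ∈ J) : Prim J D := fun p hp => by
  rw [hom_eq_sum hp]
  exact Ideal.sum_mem _ fun μ _ => Ideal.mul_mem_left _ _ (h _ μ.2)

lemma Prim.mono {J J' : Ideal (MvPolynomial (Fin n) R)} {D D' : ℕ} (h : Prim J D) (hJ : J ≤ J')
    (hD : D ≤ D') : Prim J' D' := prim_of_mon fun μ hμ => by
  obtain ⟨k, rfl⟩ := Nat.exists_eq_add_of_le hD
  have h2 : (monomial μ 1 : MvPolynomial (Fin n) R) ∈
      homogeneousSubmodule (Fin n) R D * homogeneousSubmodule (Fin n) R k := by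
    rw [← homogeneousSubmodule_one_pow, ← homogeneousSubmodule_one_pow _ k, ← pow_add,
      homogeneousSubmodule_one_pow]
    exact isHomogeneous_monomial _ (mem_Mon.mp hμ)
  exact Submodule.mul_induction_on h2 (fun p hp q _ => J'.mul_mem_right _ (hJ (h p hp)))
    fun x y hx hy => add_mem hx hy

lemma prim_of_pow {J : Ideal (MvPolynomial (Fin n) R)} (h : ∀ j, ∃ N, X j ^ N ∈ J) :
    ∃ D, Prim J D := by
  choose N hN using h
  refine ⟨∑ j, N j + 1, prim_of_mon fun μ hμ => ?_⟩
  rw [mem_Mon, Finsupp.degree_eq_sum] at hμ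
  obtain ⟨j, -, hj⟩ := exists_lt_of_sum_lt (s := univ) (f := N) (g := μ) (by omega)
  have : μ = Finsupp.single j (N j) + (μ - Finsupp.single j (N j)) := by
    rw [add_tsub_cancel_of_le (Finsupp.single_le_iff.mpr hj.le)]
  rw [this, ← one_mul (1 : R), ← monomial_mul, ← X_pow_eq_monomial]
  exact J.mul_mem_right _ (hN j)

theorem prim_transfer {F E : Type*} [Field F] [Field E] (ev : R →+* F)
    (hev : Function.Surjective ev) (φ : R →+* E) (hφ : ∀ p, φ p = 0 → ev p = 0)
    {H : Set (MvPolynomial (Fin n) R)} (hH : ∀ h ∈ H, ∃ e, h.IsHomogeneous e) {D : ℕ}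
    (h : Prim (Ideal.span (map ev '' H)) D) : Prim (Ideal.span (map φ '' H)) D := by
  classical
  have h1 : ∀ μ : Mon n D, ∃ q ∈ Ideal.span H, q.IsHomogeneous D ∧ map ev q = monomial μ.1 1 := by
    intro μ
    have hμ := isHomogeneous_monomial (1 : F) (mem_Mon.mp μ.2)
    have := h _ hμ
    rw [← Ideal.map_span, Ideal.mem_map_iff_of_surjective _ (map_surjective _ hev)] at this
    obtain ⟨q, hq, hq'⟩ := this
    exact ⟨_, hc_mem_span hH hq D, homogeneousComponent_isHomogeneous _ _, by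
      rw [← hc_map, hq', homogeneousComponent_eq_self hμ]⟩
  choose q hq hq' hq'' using h1
  let A : Matrix (Mon n D) (Mon n D) R := Matrix.of fun μ ν => coeff ν.1 (q μ)
  have hA : ev.mapMatrix A = 1 := by
    ext μ ν
    change ev (coeff ν.1 (q μ)) = _
    rw [← coeff_map, hq'', coeff_monomial, Matrix.one_apply]
    simp only [Subtype.ext_iff]
  have hdet : φ A.det ≠ 0 := fun h0 => by
    have := hφ _ h0
    rw [RingHom.map_det, hA, Matrix.det_one] at this
    exact one_ne_zero this
  refine prim_of_mon fun ν hν => ?_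
  have h2 : C A.det * monomial ν 1 = ∑ μ, C (A.adjugate ⟨ν, hν⟩ μ) * q μ := by
    have h3 : ∀ μ, q μ = ∑ ν' : Mon n D, C (A μ ν') * monomial ν'.1 1 := fun μ => hom_eq_sum (hq' μ)
    have h5 : ∀ μ, C (A.adjugate ⟨ν, hν⟩ μ) * q μ =
        ∑ ν' : Mon n D, C (A.adjugate ⟨ν, hν⟩ μ * A μ ν') * monomial ν'.1 1 := fun μ => by
      rw [h3 μ, mul_sum]
      exact sum_congr rfl fun _ _ => by rw [C_mul, mul_assoc]
    rw [sum_congr rfl fun μ _ => h5 μ, sum_comm]
    simp only [← sum_mul, ← map_sum, ← Matrix.mul_apply, Matrix.adjugate_mul]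
    rw [sum_eq_single ⟨ν, hν⟩ (fun b _ hb => by simp [Matrix.one_apply_ne hb.symm]) (by simp)]
    simp
  have h4 : map φ (C A.det * monomial ν 1) ∈ Ideal.span (map φ '' H) := by
    rw [← Ideal.map_span, h2]
    exact Ideal.mem_map_of_mem _ (Ideal.sum_mem _ fun μ _ => Ideal.mul_mem_left _ _ (hq μ))
  rw [map_mul, map_C, map_monomial, map_one] at h4
  exact (Ideal.unit_mul_mem_iff_mem _ ((isUnit_iff_ne_zero.mpr hdet).map C)).mp h4

end hc

section lin

variable {F : Type*} [Field F] {n : ℕ}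

/-- Every prime over the ideal is irrelevant or has large height. -/
def Ht (J : Ideal (MvPolynomial (Fin n) F)) (k : ℕ) : Prop :=
  ∀ P : Ideal (MvPolynomial (Fin n) F), P.IsPrime → J ≤ P → (∀ j, X j ∈ P) ∨ (k : ℕ∞) ≤ P.height

lemma Ht.mono {J J' : Ideal (MvPolynomial (Fin n) F)} {k : ℕ} (h : Ht J k) (hJ : J ≤ J') :
    Ht J' k := fun P hP hle => h P hP (hJ.trans hle)

lemma Ht.step {J J' : Ideal (MvPolynomial (Fin n) F)} {k : ℕ} (h : Ht J k) (hJ : J ≤ J')
    {f : MvPolynomial (Fin n) F} (hf : f ∈ J')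
    (hf' : ∀ P ∈ J.minimalPrimes, (∀ j, X j ∈ P) ∨ f ∉ P) : Ht J' (k + 1) := by
  intro P hP hle
  obtain ⟨Q, hQ, hQP⟩ := Ideal.exists_minimalPrimes_le (hJ.trans hle)
  have hQ' : Q.IsPrime := hQ.1.1
  rcases hf' Q hQ with h1 | h1
  · exact Or.inl fun j => hQP (h1 j)
  rcases h Q hQ' hQ.1.2 with h2 | h2
  · exact Or.inl fun j => hQP (h2 j)
  · refine Or.inr (le_trans ?_ (Ideal.height_add_one_le_of_lt_of_isPrime
      (lt_of_le_of_ne hQP fun h => h1 (h ▸ hle hf))))
    push_cast
    gcongr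

lemma ht_of_reg {c : ℕ} (f : Fin c → MvPolynomial (Fin n) F)
    (hreg : ∀ i g, g * f i ∈ Ideal.span (f '' {j | j < i}) → g ∈ Ideal.span (f '' {j | j < i}))
    (k : ℕ) (hk : k ≤ c) : Ht (Ideal.span (f '' {j | (j : ℕ) < k})) k := by
  induction k with
  | zero => exact fun P _ _ => Or.inr (by simp)
  | succ k ih =>
    refine (ih (by omega)).step (Ideal.span_mono (Set.image_mono fun j hj => ?_))
      (f := f ⟨k, hk⟩) (Ideal.subset_span ⟨_, by simp, rfl⟩) fun P hP => Or.inr fun h => ?_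
    · exact Nat.lt_succ_of_lt hj
    · obtain ⟨y, hy, hy'⟩ := Ideal.exists_mul_mem_of_mem_minimalPrimes hP h
      exact hy (hreg ⟨k, hk⟩ y (by rw [mul_comm]; exact hy'))

lemma Ht.exists_lin [Infinite F] {J : Ideal (MvPolynomial (Fin n) F)} {k : ℕ} (h : Ht J k) :
    ∃ l : MvPolynomial (Fin n) F, l.IsHomogeneous 1 ∧ Ht (J ⊔ Ideal.span {l}) (k + 1) := by
  classical
  have hfin := Ideal.finite_minimalPrimes_of_isNoetherianRing _ J
  let s := (hfin.toFinset.filter fun P => ¬ ∀ j, X j ∈ P).image fun P =>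
    (P.restrictScalars F).comap (homogeneousSubmodule (Fin n) F 1).subtype
  have hs : ⊤ ∉ s := by
    simp only [s, mem_image, mem_filter, not_exists, not_and, and_imp]
    intro P _ hP htop
    refine hP fun j => ?_
    have : (⟨X j, isHomogeneous_X F j⟩ : homogeneousSubmodule (Fin n) F 1) ∈
        (P.restrictScalars F).comap (homogeneousSubmodule (Fin n) F 1).subtype := by
      rw [htop]; trivial
    exact this
  obtain ⟨l, hl⟩ := (Set.ne_univ_iff_exists_notMem _).mp
    (Subspace.biUnion_ne_univ_of_top_notMem hs)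
  refine ⟨l, l.2, h.step le_sup_left (Ideal.mem_sup_right (Ideal.subset_span rfl)) fun P hP => ?_⟩
  by_contra hc
  rw [not_or, not_not] at hc
  exact hl (Set.mem_biUnion (mem_coe.mpr (mem_image_of_mem _ (mem_filter.mpr
    ⟨hfin.mem_toFinset.mpr hP, hc.1⟩))) hc.2)

lemma Ht.exists_lins [Infinite F] {J : Ideal (MvPolynomial (Fin n) F)} {k : ℕ} (h : Ht J k)
    (s : Finset (Fin n)) : ∃ l : Fin n → MvPolynomial (Fin n) F, (∀ j, (l j).IsHomogeneous 1) ∧
      (∀ j ∉ s, l j = 0) ∧ Ht (J ⊔ Ideal.span (Set.range l)) (k + s.card) := by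
  classical
  induction s using Finset.induction_on with
  | empty => exact ⟨0, fun _ => isHomogeneous_zero _ _ _, fun _ _ => rfl, h.mono le_sup_left⟩
  | insert i s hi ih =>
    obtain ⟨l, h1, h2, h3⟩ := ih
    obtain ⟨l0, h4, h5⟩ := h3.exists_lin
    refine ⟨Function.update l i l0, fun j => ?_, fun j hj => ?_, ?_⟩
    · by_cases hj : j = i
      · subst hj; simpa
      · simpa [hj] using h1 j
    · rw [mem_insert, not_or] at hj
      simpa [hj.1] using h2 j hj.2
    · rw [card_insert_of_notMem hi]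
      refine h5.mono (sup_le (sup_le le_sup_left (le_sup_of_le_right (Ideal.span_le.mpr ?_)))
        (le_sup_of_le_right (Ideal.span_mono (by rintro _ rfl; exact ⟨i, by simp⟩))))
      rintro _ ⟨j, rfl⟩
      by_cases hj : j = i
      · rw [hj, h2 i hi]; exact zero_mem _
      · exact Ideal.subset_span ⟨j, by simp [hj]⟩

lemma Ht.prim {H : Set (MvPolynomial (Fin n) F)} (hH : ∀ h ∈ H, ∃ e, h.IsHomogeneous e)
    (h : Ht (Ideal.span H) n) : ∃ D, Prim (Ideal.span H) D := by
  refine prim_of_pow fun j => ?_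
  change X j ∈ (Ideal.span H).radical
  rw [Ideal.radical_eq_sInf, Submodule.mem_sInf]
  rintro P ⟨hle, hP⟩
  let := gradedAlgebra (σ := Fin n) (R := F)
  let Q := Ideal.homogeneousCore (homogeneousSubmodule (Fin n) F) P
  have hQ : Q.toIdeal.IsPrime := hP.homogeneousCore
  have hQP : Q.toIdeal ≤ P := Ideal.toIdeal_homogeneousCore_le _ _
  by_contra hj
  rcases h Q.toIdeal hQ (Ideal.span_le.mpr fun x hx =>
    Ideal.mem_homogeneousCore_of_homogeneous_of_mem (hH x hx) (hle (Ideal.subset_span hx)))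
    with h1 | h1
  · exact hj (hQP (h1 j))
  let M := RingHom.ker (constantCoeff : MvPolynomial (Fin n) F →+* F)
  have hM : M.IsPrime := RingHom.ker_isPrime _
  have hQM : Q.toIdeal < M := by
    refine lt_of_le_of_ne (fun p hp => ?_) fun h => hj (hQP (h ▸ by simp [M]))
    have := homogeneousComponent_mem_of_mem Q.isHomogeneous hp 0
    rw [homogeneousComponent_zero] at this
    by_contra h0
    exact hQ.ne_top (Ideal.eq_top_of_isUnit_mem _ this ((isUnit_iff_ne_zero.mpr h0).map C))
  have h2 := Ideal.height_add_one_le_of_lt_of_isPrime hQM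
  have h3 := Ideal.height_le_ringKrullDim_of_ne_top hM.ne_top
  rw [MvPolynomial.ringKrullDim_of_isNoetherianRing, ringKrullDim_eq_zero_of_field] at h3
  simp only [Nat.card_eq_fintype_card, Fintype.card_fin, zero_add] at h3
  have h4 : M.height ≤ n := by exact_mod_cast h3
  have h5 : ((n + 1 : ℕ) : ℕ∞) ≤ n := by
    push_cast
    exact le_trans (by gcongr) (h2.trans h4)
  have : n + 1 ≤ n := by exact_mod_cast h5
  omega

end lin

end Vale.Agent.P200
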