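import Mathlib

/-! Twisted shift matrices. -/

namespace Vale.Agent.P200

open Finset

section qbin

variable {F A : Type*} [CommRing F] [Ring A] [Algebra F A]

/-- Gaussian binomial coefficients. -/
def qc (ω : F) : ℕ → ℕ → F
  | _, 0 => 1
  | 0, _ + 1 => 0
  | k + 1, j + 1 => qc ω k j + ω ^ (j + 1) * qc ω k (j + 1)

lemma qc_zero (ω : F) (k : ℕ) : qc ω k 0 = 1 := by cases k <;> rfl

lemma qc_of_lt (ω : F) : ∀ k j, k < j → qc ω k j = 0
  | _, 0, h => absurd h (Nat.not_lt_zero _)
  | 0, _ + 1, _ => rfl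
  | k + 1, j + 1, h => by
    rw [qc, qc_of_lt ω k j (by omega), qc_of_lt ω k (j + 1) (by omega)]; simp

lemma qc_self (ω : F) : ∀ k, qc ω k k = 1
  | 0 => rfl
  | k + 1 => by rw [qc, qc_self ω k, qc_of_lt ω k (k + 1) (by omega)]; simp

lemma qc_rec (ω : F) : ∀ k j, qc ω k (j + 1) * (1 - ω ^ (j + 1)) * ω ^ j =
    qc ω k j * (ω ^ j - ω ^ k)
  | 0, 0 => by simp [qc]
  | 0, j + 1 => by simp [qc]
  | k + 1, 0 => by
    have := qc_rec ω k 0
    simp only [qc, qc_zero] at this ⊢
    linear_combination ω * this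
  | k + 1, j + 1 => by
    have h1 := qc_rec ω k j
    have h2 := qc_rec ω k (j + 1)
    simp only [qc]
    linear_combination ω ^ (j + 2) * h2 + ω * h1

lemma qcomm_pow {ω : F} {x y : A} (h : y * x = ω • (x * y)) (j : ℕ) :
    y * x ^ j = ω ^ j • (x ^ j * y) := by
  induction j with
  | zero => simp
  | succ j ih =>
    rw [pow_succ, ← mul_assoc, ih, smul_mul_assoc, mul_assoc, h, mul_smul_comm, smul_smul,
      pow_succ, mul_assoc]

lemma add_pow_qc {ω : F} {x y : A} (h : y * x = ω • (x * y)) (k : ℕ) :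
    (x + y) ^ k = ∑ j ∈ range (k + 1), qc ω k j • (x ^ j * y ^ (k - j)) := by
  induction k with
  | zero => simp [qc]
  | succ k ih =>
    rw [pow_succ', ih, add_mul, mul_sum, mul_sum, sum_range_succ' _ (k + 1)]
    simp only [qc, add_smul, sum_add_distrib]
    rw [add_assoc]
    congr 1
    · refine sum_congr rfl fun j _ => ?_
      rw [mul_smul_comm, ← mul_assoc, ← pow_succ', Nat.add_sub_add_right]
    · rw [sum_range_succ', sum_range_succ (fun j => (ω ^ (j + 1) * qc ω k (j + 1)) • _),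
        qc_of_lt ω k (k + 1) (by omega)]
      simp only [mul_zero, zero_smul, add_zero, qc_zero, pow_zero, one_mul, one_smul, tsub_zero,
        ← pow_succ']
      congr 1
      refine sum_congr rfl fun j hj => ?_
      rw [mul_smul_comm, ← mul_assoc, qcomm_pow h, smul_mul_assoc, smul_smul, mul_assoc,
        ← pow_succ', mul_comm (qc _ _ _)]
      congr 3
      have := mem_range.mp hj
      omega

end qbin

section qroot

variable {F A : Type*} [Field F] [Ring A] [Algebra F A]

lemma add_pow_prim {ω : F} {a : ℕ} (hω : IsPrimitiveRoot ω a) (ha : 0 < a) {x y : A}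
    (h : y * x = ω • (x * y)) : a = 1 ∨ (x + y) ^ a = x ^ a + y ^ a := by
  have h0 : ω ≠ 0 := hω.ne_zero ha.ne'
  have key : ∀ j, j + 1 < a → qc ω a (j + 1) = 0 := by
    intro j
    induction j with
    | zero =>
      intro hj
      have := qc_rec ω a 0
      rw [hω.pow_eq_one, pow_zero, sub_self, mul_zero, mul_one] at this
      exact (mul_eq_zero.mp this).resolve_right
        (sub_ne_zero.mpr (hω.pow_ne_one_of_pos_of_lt (by omega) hj).symm)
    | succ j ih =>
      intro hj
      have := qc_rec ω a (j + 1)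
      rw [ih (by omega), zero_mul] at this
      exact (mul_eq_zero.mp ((mul_eq_zero.mp this).resolve_right (pow_ne_zero _ h0))).resolve_right
        (sub_ne_zero.mpr (hω.pow_ne_one_of_pos_of_lt (by omega) hj).symm)
  right
  obtain ⟨b, rfl⟩ : ∃ b, a = b + 1 := ⟨a - 1, by omega⟩
  rw [add_pow_qc h, sum_range_succ, sum_range_succ', sum_eq_zero, qc_self, qc_zero]
  · simp [add_comm]
  · intro j hj
    rw [key j (by have := mem_range.mp hj; omega), zero_smul]

/-- Roots of unity for which the binomial theorem degenerates. -/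
def QRoot (a : ℕ) (ω : F) : Prop :=
  ∃ a' p e : ℕ, ExpChar F p ∧ a = a' * p ^ e ∧ 0 < a' ∧ IsPrimitiveRoot ω a'

lemma QRoot.pow_eq_one {a : ℕ} {ω : F} (h : QRoot a ω) : ω ^ a = 1 := by
  obtain ⟨a', p, e, -, rfl, -, h⟩ := h
  rw [pow_mul, h.pow_eq_one, one_pow]

lemma QRoot.add_pow {a : ℕ} {ω : F} (hω : QRoot a ω) {x y : A}
    (h : y * x = ω • (x * y)) : (x + y) ^ a = x ^ a + y ^ a := by
  obtain ⟨a', p, e, hp, rfl, ha', hω⟩ := hω
  rcases subsingleton_or_nontrivial A with hA | hA
  · exact Subsingleton.elim _ _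
  have : ExpChar A p := expChar_of_injective_algebraMap (algebraMap F A).injective p
  have hc : Commute (x ^ a') (y ^ a') := by
    refine Commute.pow_right ?_ _
    have := qcomm_pow h a'
    rw [hω.pow_eq_one, one_smul] at this
    exact this.symm
  have h1 : (x + y) ^ a' = x ^ a' + y ^ a' := by
    rcases add_pow_prim hω ha' h with rfl | h1
    · simp
    · exact h1
  rw [pow_mul, pow_mul, pow_mul, h1, add_pow_expChar_pow_of_commute _ _ hc]

lemma exists_qRoot (F : Type*) [Field F] [IsAlgClosed F] {a : ℕ} (ha : a ≠ 0) :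
    ∃ ω : F, QRoot a ω := by
  obtain ⟨p, hp⟩ := ExpChar.exists F
  have key : ∀ a' : ℕ, (a' : F) ≠ 0 → ∃ ω : F, IsPrimitiveRoot ω a' := by
    intro a' h
    have : NeZero (a' : F) := ⟨h⟩
    exact HasEnoughRootsOfUnity.exists_primitiveRoot F a'
  cases hp with
  | zero =>
    obtain ⟨ω, hω⟩ := key a (by exact_mod_cast ha)
    exact ⟨ω, a, 1, 0, inferInstance, by simp, Nat.pos_of_ne_zero ha, hω⟩
  | prime hpp =>
    obtain ⟨e, a', hnd, rfl⟩ := Nat.exists_eq_pow_mul_and_not_dvd ha p hpp.ne_one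
    obtain ⟨ω, hω⟩ := key a' (by rwa [Ne, CharP.cast_eq_zero_iff F p])
    exact ⟨ω, a', p, e, ExpChar.prime hpp, mul_comm _ _,
      Nat.pos_of_ne_zero (by rintro rfl; simp at hnd), hω⟩

end qroot

lemma sum_pow_of_qcomm {F A B : Type*} [CommRing F] [Ring A] [Algebra F A] [LinearOrder B]
    {ω : F} {a : ℕ} (ha : a ≠ 0)
    (hb : ∀ x y : A, y * x = ω • (x * y) → (x + y) ^ a = x ^ a + y ^ a) (z : B → A)
    (hz : ∀ k l, k < l → z l * z k = ω • (z k * z l)) (s : Finset B) :
    (∑ k ∈ s, z k) ^ a = ∑ k ∈ s, z k ^ a := by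
  induction s using Finset.induction_on_max with
  | empty => simp [ha]
  | insert l s hl ih =>
    have hls : l ∉ s := fun h => lt_irrefl _ (hl l h)
    rw [sum_insert hls, sum_insert hls, add_comm, hb, ih, add_comm]
    rw [mul_sum, sum_mul, smul_sum]
    exact sum_congr rfl fun k hk => hz k l (hl k hk)

section wsh

variable {R G : Type*} [CommRing R] [AddCommGroup G] [DecidableEq G]

/-- Weighted shift matrices. -/
def wsh (v : G) (d : G → R) : Matrix G G R := Matrix.of fun β γ => if γ = β - v then d β else 0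

lemma wsh_mul [Fintype G] (v v' : G) (d d' : G → R) :
    wsh v d * wsh v' d' = wsh (v + v') fun β => d β * d' (β - v) := by
  ext β γ
  rw [Matrix.mul_apply, sum_eq_single (β - v) (fun j _ hj => by simp [wsh, hj]) (by simp)]
  simp [wsh, sub_sub]

lemma wsh_zero (c : R) : wsh (0 : G) (fun _ => c) = c • (1 : Matrix G G R) := by
  ext β γ
  simp [wsh, Matrix.one_apply, eq_comm]

lemma smul_wsh (c : R) (v : G) (d : G → R) : c • wsh v d = wsh v fun β => c * d β := by
  ext β γ
  simp [wsh]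

lemma wsh_add (v : G) (d d' : G → R) : wsh v d + wsh v d' = wsh v fun β => d β + d' β := by
  ext β γ
  simp only [wsh, Matrix.add_apply, Matrix.of_apply]
  split_ifs <;> simp

lemma wsh_map {R' : Type*} [CommRing R'] (f : R →+* R') (v : G) (d : G → R) :
    (wsh v d).map f = wsh v fun β => f (d β) := by
  ext β γ
  simp only [wsh, Matrix.map_apply, Matrix.of_apply]
  split_ifs <;> simp

lemma wsh_mulVec [Fintype G] (v : G) (d : G → R) (f : G → R) (β : G) :
    (wsh v d).mulVec f β = d β * f (β - v) := by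
  simp [wsh, Matrix.mulVec, dotProduct]

end wsh

section tsh

variable {R B : Type*} [CommRing R] [Fintype B] [LinearOrder B] {a : ℕ} [NeZero a] {ω : R}

/-- The character of the cyclic group. -/
def om (ω : R) (b : ZMod a) : R := ω ^ b.val

lemma om_add (hω : ω ^ a = 1) (b b' : ZMod a) : om ω (b + b') = om ω b * om ω b' := by
  rw [om, om, om, ← pow_add, ZMod.val_add, ← pow_eq_pow_mod _ hω]

omit [NeZero a] in
lemma om_pow (hω : ω ^ a = 1) (b : ZMod a) : om ω b ^ a = 1 := by
  rw [om, ← pow_mul, mul_comm, pow_mul, hω, one_pow]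

lemma om_sub_one (hω : ω ^ a = 1) (b : ZMod a) : ω * om ω (b - 1) = om ω b := by
  have h1 : om ω (1 : ZMod a) = ω := by
    rw [om, ← Nat.cast_one, ZMod.val_natCast, ← pow_eq_pow_mod _ hω, pow_one]
  conv_rhs => rw [← sub_add_cancel b 1, om_add hω, h1, mul_comm]

/-- The twisting factor attached to a set of positions. -/
def twf (ω : R) (s : Finset B) (β : B → ZMod a) : R := ∏ l ∈ s, om ω (β l)

omit [Fintype B] [NeZero a] in
lemma twf_sub_of_notMem {s : Finset B} {k : B} (hk : k ∉ s) (β : B → ZMod a) (t : ZMod a) :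
    twf ω s (β - Pi.single k t) = twf ω s β :=
  prod_congr rfl fun l hl => by
    rw [Pi.sub_apply, Pi.single_eq_of_ne (by rintro rfl; exact hk hl), sub_zero]

omit [Fintype B] in
lemma twf_sub_of_mem (hω : ω ^ a = 1) {s : Finset B} {k : B} (hk : k ∈ s) (β : B → ZMod a) :
    ω * twf ω s (β - Pi.single k 1) = twf ω s β := by
  have h := twf_sub_of_notMem (ω := ω) (notMem_erase k s) β 1
  rw [twf, twf] at h
  rw [twf, twf, ← mul_prod_erase _ _ hk, ← mul_prod_erase _ _ hk, h, ← mul_assoc, Pi.sub_apply,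
    Pi.single_eq_same, om_sub_one hω]

/-- Twisted shifts. -/
def tsh (ω : R) (k : B) (φ : ZMod a → R) : Matrix (B → ZMod a) (B → ZMod a) R :=
  wsh (Pi.single k 1) fun β => twf ω (univ.filter (· < k)) β * φ (β k)

lemma tsh_comm (hω : ω ^ a = 1) {k l : B} (hkl : k < l) (φ ψ : ZMod a → R) :
    tsh ω l ψ * tsh ω k φ = ω • (tsh ω k φ * tsh ω l ψ) := by
  rw [tsh, tsh, wsh_mul, wsh_mul, smul_wsh, add_comm]
  congr 1
  funext β
  rw [twf_sub_of_notMem (by simpa using hkl.le), ← twf_sub_of_mem hω (k := k)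
    (s := univ.filter (· < l)) (by simpa using hkl) β]
  simp only [Pi.sub_apply, Pi.single_eq_of_ne hkl.ne, Pi.single_eq_of_ne hkl.ne', sub_zero]
  ring

lemma tsh_pow (k : B) (φ : ZMod a → R) (j : ℕ) :
    tsh ω k φ ^ j = wsh (Pi.single k (j : ZMod a)) fun β =>
      twf ω (univ.filter (· < k)) β ^ j * ∏ i ∈ range j, φ (β k - i) := by
  induction j with
  | zero => simp [wsh_zero]
  | succ j ih =>
    rw [pow_succ, ih, tsh, wsh_mul, Nat.cast_succ, Pi.single_add]
    congr 1
    funext β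
    rw [twf_sub_of_notMem (by simp), prod_range_succ, Pi.sub_apply, Pi.single_eq_same]
    ring

lemma tsh_pow_self (hω : ω ^ a = 1) (k : B) (φ : ZMod a → R) :
    tsh ω k φ ^ a = (∏ t, φ t) • (1 : Matrix (B → ZMod a) (B → ZMod a) R) := by
  rw [tsh_pow, ZMod.natCast_self, Pi.single_zero, ← wsh_zero]
  congr 1
  funext β
  rw [twf, ← prod_pow, prod_eq_one fun l _ => om_pow hω _, one_mul]
  refine prod_bij (fun i _ => β k - i) (fun _ _ => mem_univ _) (fun i hi j hj h => ?_)
    (fun t _ => ⟨(β k - t).val, mem_range.mpr (ZMod.val_lt _), by simp⟩) (fun _ _ => rfl)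
  have h1 : (i : ZMod a) = j := by simpa using h
  have := (ZMod.natCast_eq_natCast_iff' i j a).mp h1
  rwa [Nat.mod_eq_of_lt (mem_range.mp hi), Nat.mod_eq_of_lt (mem_range.mp hj)] at this

omit [NeZero a] in
lemma tsh_add (k : B) (φ ψ : ZMod a → R) :
    tsh ω k φ + tsh ω k ψ = tsh ω k fun t => φ t + ψ t := by
  rw [tsh, tsh, tsh, wsh_add]
  simp only [mul_add]

lemma sum_tsh_pow {F : Type*} [CommRing F] [Algebra F R] {ω : F} (hω : ω ^ a = 1)
    (hb : ∀ x y : Matrix (B → ZMod a) (B → ZMod a) R, y * x = ω • (x * y) →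
      (x + y) ^ a = x ^ a + y ^ a) (φ : B → ZMod a → R) (s : Finset B) :
    (∑ k ∈ s, tsh (algebraMap F R ω) k (φ k)) ^ a =
      (∑ k ∈ s, ∏ t, φ k t) • (1 : Matrix (B → ZMod a) (B → ZMod a) R) := by
  have hω' : algebraMap F R ω ^ a = 1 := by rw [← map_pow, hω, map_one]
  rw [sum_pow_of_qcomm (NeZero.ne a) hb, sum_smul]
  · exact sum_congr rfl fun k _ => tsh_pow_self hω' k _
  · intro k l hkl
    rw [tsh_comm hω' hkl, algebraMap_smul]

/-- Anticommutator of two fermionic operators. -/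
lemma car (φ ψ : B → ZMod 2 → R) :
    (∑ k, tsh (-1 : R) k (φ k)) * (∑ k, tsh (-1 : R) k (ψ k)) +
      (∑ k, tsh (-1 : R) k (ψ k)) * (∑ k, tsh (-1 : R) k (φ k)) =
      (∑ k, (φ k 0 * ψ k 1 + φ k 1 * ψ k 0)) • (1 : Matrix (B → ZMod 2) (B → ZMod 2) R) := by
  have hb : ∀ φ : B → ZMod 2 → R, (∑ k, tsh (-1 : R) k (φ k)) ^ 2 =
      (∑ k, φ k 0 * φ k 1) • (1 : Matrix (B → ZMod 2) (B → ZMod 2) R) := by
    intro φ
    have := sum_tsh_pow (F := R) (ω := -1) (a := 2) (by simp) (fun x y h => by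
      rw [sq, sq, sq, add_mul, mul_add, mul_add, h]; simp) φ univ
    rw [Algebra.algebraMap_self, RingHom.id_apply] at this
    rw [this]
    congr 1
    exact sum_congr rfl fun k _ => Fin.prod_univ_two (φ k)
  have h1 := hb fun k t => φ k t + ψ k t
  simp only [← tsh_add, sum_add_distrib] at h1
  have h2 := hb φ
  have h3 := hb ψ
  rw [sq] at h1 h2 h3
  rw [add_mul, mul_add, mul_add, h2, h3] at h1
  have h4 : ∑ k, (φ k 0 * ψ k 1 + φ k 1 * ψ k 0) = ∑ k, (φ k 0 + ψ k 0) * (φ k 1 + ψ k 1) -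
      ∑ k, φ k 0 * φ k 1 - ∑ k, ψ k 0 * ψ k 1 := by
    rw [← sum_sub_distrib, ← sum_sub_distrib]
    exact sum_congr rfl fun k _ => by ring
  rw [h4, sub_smul, sub_smul, ← h1]
  abel

lemma car_sq (φ : B → ZMod 2 → R) :
    (∑ k, tsh (-1 : R) k (φ k)) * (∑ k, tsh (-1 : R) k (φ k)) =
      (∑ k, φ k 0 * φ k 1) • (1 : Matrix (B → ZMod 2) (B → ZMod 2) R) := by
  have := sum_tsh_pow (F := R) (ω := -1) (a := 2) (by simp) (fun x y h => by
    rw [sq, sq, sq, add_mul, mul_add, mul_add, h]; simp) φ univ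
  rw [Algebra.algebraMap_self, RingHom.id_apply, sq] at this
  rw [this]
  congr 1
  exact sum_congr rfl fun k _ => Fin.prod_univ_two (φ k)

end tsh

section mact

variable {R G M : Type*} [CommRing R] [Fintype G] [DecidableEq G] [AddCommGroup M] [Module R M]

/-- Matrices acting on vectors with entries in a module. -/
def mact (M : Type*) [AddCommGroup M] [Module R M] : Matrix G G R →ₐ[R] Module.End R (G → M) where
  toFun A :=
    { toFun := fun f β => ∑ γ, A β γ • f γ
      map_add' := fun f g => by funext β; simp [sum_add_distrib]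
      map_smul' := fun c f => by
        funext β; simp only [Pi.smul_apply, RingHom.id_apply, smul_sum, smul_comm c] }
  map_one' := by ext f β; simp [Matrix.one_apply]
  map_mul' A A' := by
    refine LinearMap.ext fun f => funext fun β => ?_
    simp only [Matrix.mul_apply, LinearMap.coe_mk, AddHom.coe_mk, Module.End.mul_apply, sum_smul,
      smul_sum, mul_smul]
    exact sum_comm
  map_zero' := by ext f β; simp
  map_add' A A' := by
    refine LinearMap.ext fun f => funext fun β => ?_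
    simp [add_smul, sum_add_distrib]
  commutes' c := by
    refine LinearMap.ext fun f => funext fun β => ?_
    simp [Matrix.algebraMap_matrix_apply]

lemma mact_apply (A : Matrix G G R) (f : G → M) (β : G) : mact M A f β = ∑ γ, A β γ • f γ := rfl

lemma mact_wsh [AddCommGroup G] (v : G) (d : G → R) (f : G → M) (β : G) :
    mact M (wsh v d) f β = d β • f (β - v) := by
  simp [mact_apply, wsh]

end mact

end Vale.Agent.P200
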