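import Vale.Agent.P200.Pair
import Vale.Agent.P200.Shift

/-! Purity of the numerators of modules over a system of linear equations. -/

namespace Vale.Agent.P200

open MvPolynomial Module Finset

/-- Systems of equations which are linear in a group of variables. -/
structure LinSys (F σ I C0 : Type*) [Field F] (r : ℕ) where
  y : I × C0 → σ
  τ : I × Fin r → σ
  base : I → Finset σ
  M : I → Matrix (Fin r) C0 (MvPolynomial σ F)
  y_inj : Function.Injective y
  τ_inj : Function.Injective τ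
  y_ne_τ : ∀ c s, y c ≠ τ s
  y_base : ∀ c i, y c ∉ base i
  τ_base : ∀ s i, τ s ∉ base i
  M_supp : ∀ i s c, M i s c ∈ supported F (base i : Set σ)

variable {F σ I C0 : Type*} [Field F] {r : ℕ} [Fintype C0]

/-- The equations. -/
noncomputable def LinSys.w (L : LinSys F σ I C0 r) (s : I × Fin r) : MvPolynomial σ F :=
  ∑ c, L.M s.1 s.2 c * X (L.y (s.1, c))

/-- The maximal minors. -/
noncomputable def LinSys.δ (L : LinSys F σ I C0 r) (i : I) (e : Fin r → C0) : MvPolynomial σ F :=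
  ((L.M i).submatrix id e).det

/-- Compatibility with weights. -/
structure LinSys.Wt (L : LinSys F σ I C0 r) {Λ : Type*} [AddCommGroup Λ] (wt : σ → Λ × ℤ) (Q : Λ) :
    Prop where
  y2 : ∀ c, (wt (L.y c)).2 = 0
  y1 : ∀ c, (wt (L.y c)).1 ≠ 0
  τ : ∀ s, wt (L.τ s) = (-Q, 2)
  M : ∀ i s c, (L.M i s c).IsWeightedHomogeneous wt ((Q, 0) - wt (L.y (i, c)))
  even : ∀ v, Even (wt v).2

/-- Specialisation of the homological variable. -/
noncomputable def sp (Λ : Type*) [AddCommGroup Λ] : GA (Λ × ℤ) →ₐ[ℤ] GA Λ :=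
  tw (AddMonoidHom.fst Λ ℤ) (AddMonoidHom.snd Λ ℤ)

lemma sp_ch {Λ : Type*} [AddCommGroup Λ] (l : Λ × ℤ) :
    sp Λ (ch l) = ((l.2).negOnePow : ℤ) • ch l.1 := tw_ch _ _ _

lemma JI_eq {Λ : Type*} [AddCommGroup Λ] (wt : σ → Λ) (V : Finset σ) :
    JI wt V = JD (wt '' V) := by
  rw [JI, JD, Set.image_image]

lemma sp_mem_JD {Λ : Type*} [AddCommGroup Λ] {wt : σ → Λ × ℤ} (he : ∀ v, Even (wt v).2)
    {V : Finset σ} {k : ℕ} {κ : GA (Λ × ℤ)} (h : κ ∈ JI wt V ^ k) :
    sp Λ κ ∈ JD (Prod.fst '' (wt '' V)) ^ k := by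
  rw [JI_eq] at h
  have := tw_mem_JD (AddMonoidHom.fst Λ ℤ) (AddMonoidHom.snd Λ ℤ) (by
    rintro _ ⟨v, -, rfl⟩
    exact he v) h
  exact this

lemma ch_sum {Λ α : Type*} [AddCommGroup Λ] (s : Finset α) (f : α → Λ) :
    ch (∑ a ∈ s, f a) = ∏ a ∈ s, ch (f a) := by
  classical
  induction s using Finset.induction_on with
  | empty => simp
  | insert a s ha ih => rw [sum_insert ha, prod_insert ha, ch_add, ih]

lemma twf_map {R R' B : Type*} [CommRing R] [CommRing R'] {a : ℕ} (f : R →+* R') (ω : R)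
    (s : Finset B) (β : B → ZMod a) : f (twf ω s β) = twf (f ω) s β := by
  simp [twf, om]

section mod

variable {Λ : Type*} [AddCommGroup Λ] {wt : σ → Λ} {M : Type*}
  [AddCommGroup M] [Module F M] [Module (MvPolynomial σ F) M]
  [IsScalarTower F (MvPolynomial σ F) M] {G : Gr F wt M}

lemma homMap_wsh {A : Type*} [AddCommGroup A] [Fintype A] [DecidableEq A] (sh : A → Λ) (v : A)
    (d : A → MvPolynomial σ F) (l : Λ)
    (hd : ∀ β, (d β).IsWeightedHomogeneous wt (l + sh (β - v) - sh β)) :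
    Gr.HomMap (G.pi sh) (G.pi sh) (mact M (wsh v d)) l := by
  intro χ f
  funext β
  rw [Gr.pi_π, mact_wsh, mact_wsh, Gr.pi_π, ← G.smul_hom (hd β)]
  congr 2
  abel

omit [IsScalarTower F (MvPolynomial σ F) M] in
lemma homMap_sum {α : Type*} (s : Finset α) (f : α → M →ₗ[MvPolynomial σ F] M) (l : Λ)
    (hf : ∀ a ∈ s, Gr.HomMap G G (f a) l) : Gr.HomMap G G (∑ a ∈ s, f a) l := by
  intro χ m
  rw [LinearMap.sum_apply, LinearMap.sum_apply, map_sum]
  exact sum_congr rfl fun a ha => hf a ha χ m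

omit [Module F M] [IsScalarTower F (MvPolynomial σ F) M] in
lemma mact_mem_piS {A : Type*} [Fintype A] [DecidableEq A] (P : Matrix A A (MvPolynomial σ F))
    {N : Submodule (MvPolynomial σ F) M} {f : A → M} (hf : f ∈ Gr.piS A N) :
    mact M P f ∈ Gr.piS A N :=
  Gr.mem_piS.mpr fun _ => N.sum_mem fun γ _ => N.smul_mem _ (Gr.mem_piS.mp hf γ)

omit [Module F M] [IsScalarTower F (MvPolynomial σ F) M] in
lemma smul_mem_of_mem_span {α : Type*} {δ : α → MvPolynomial σ F} {p : MvPolynomial σ F}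
    (hp : p ∈ Ideal.span (Set.range δ)) {N : Submodule (MvPolynomial σ F) M} {m : M}
    (h : ∀ e, δ e • m ∈ N) : p • m ∈ N := by
  induction hp using Submodule.span_induction with
  | mem x hx => obtain ⟨e, rfl⟩ := hx; exact h e
  | zero => simp
  | add x y _ _ hx hy => rw [add_smul]; exact N.add_mem hx hy
  | smul a x _ hx => rw [smul_assoc]; exact N.smul_mem _ hx

end mod

variable {Λ : Type*} [AddCommGroup Λ] {wt : σ → Λ × ℤ} {M : Type*}
  [AddCommGroup M] [Module F M] [Module (MvPolynomial σ F) M]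
  [IsScalarTower F (MvPolynomial σ F) M] [Fintype σ] [DecidableEq σ] [Fintype I]
  [IsNoetherian (MvPolynomial σ F) M]

/-- Filtration of the homology by the images of the dual variables. -/
lemma LinSys.filt (L : LinSys F σ I C0 r) (G : Gr F wt M) {Z B : Submodule (MvPolynomial σ F) M}
    (hZ : G.Graded Z) (hB : G.Graded B) (hle : B ≤ Z)
    (hy : ∀ c, ∀ m ∈ Z, (X (L.y c) : MvPolynomial σ F) • m ∈ B)
    (hτ : ∀ i e s, ∀ m ∈ Z, L.δ i e • (X (L.τ (i, s)) : MvPolynomial σ F) • m ∈ B) (s0 : ℕ)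
    (hK1 : ∀ i, ∀ Y ⊆ L.base i, (L.base i \ Y).card < s0 →
      ∃ p ∈ supported F (Y : Set σ), p ≠ 0 ∧ p ∈ Ideal.span (Set.range (L.δ i))) :
    ∃ (κ1 : GA (Λ × ℤ)) (κ2 : I → GA (Λ × ℤ)), (∀ i, κ2 i ∈ JI wt (L.base i) ^ s0) ∧
      act (Den wt (univ \ univ.image L.y)) (G.hd Z - G.hd B) =
        toF (Den wt (univ.image L.τ) * κ1 + ∑ i, κ2 i) := by
  classical
  let T : I → Submodule (MvPolynomial σ F) M := fun i =>
    univ.sup fun s : Fin r => Z.map (LinearMap.lsmul _ M (X (L.τ (i, s))))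
  have hT : ∀ i, G.Graded (T i) := fun i => Gr.Graded.finsetSup _ _ fun s _ =>
    hZ.map (Gr.homMap_smul (isWeightedHomogeneous_X F wt _))
  have hTZ : ∀ i, T i ≤ Z := fun i => Finset.sup_le fun s _ => by
    rintro _ ⟨m, hm, rfl⟩; exact Z.smul_mem _ hm
  have hBS : ∀ S : Finset I, G.Graded (B ⊔ S.sup T) := fun S =>
    hB.sup (Gr.Graded.finsetSup _ _ fun i _ => hT i)
  have hBSZ : ∀ S : Finset I, B ⊔ S.sup T ≤ Z := fun S =>
    sup_le hle (Finset.sup_le fun i _ => hTZ i)
  have h2 : ∀ i (S : Finset I), ∃ κ ∈ JI wt (L.base i) ^ s0,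
      act (Den wt (univ \ univ.image L.y)) (G.hd (B ⊔ (insert i S).sup T) - G.hd (B ⊔ S.sup T)) =
        toF κ := by
    intro i S
    refine exists_num (L.base i) _ s0 _ _ (hBS _) (hBS _)
      (sup_le_sup_left (Finset.sup_mono (subset_insert _ _)) _) (fun v hv m hm => ?_)
      (fun Y hY hc => ?_)
    · obtain ⟨c, rfl⟩ : ∃ c, L.y c = v := by simpa using hv
      exact Submodule.mem_sup_left (hy c m (hBSZ _ hm))
    · have e : L.base i ∩ (univ \ univ.image L.y) = L.base i := by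
        refine inter_eq_left.mpr fun v hv => ?_
        simp only [mem_sdiff, mem_univ, mem_image, true_and, not_exists]
        rintro c rfl
        exact L.y_base c i hv
      rw [e] at hY hc
      obtain ⟨p, hp, hp0, hpδ⟩ := hK1 i Y hY hc
      refine ⟨p, hp, hp0, fun m hm => smul_mem_of_mem_span hpδ fun e => ?_⟩
      have : B ⊔ (insert i S).sup T ≤ (B ⊔ S.sup T).comap (LinearMap.lsmul _ M (L.δ i e)) := by
        rw [sup_insert, sup_left_comm]
        refine sup_le (Finset.sup_le fun s _ => ?_) fun m hm => Submodule.smul_mem _ _ hm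
        rintro _ ⟨m, hm, rfl⟩
        exact Submodule.mem_sup_left (hτ i e s m hm)
      exact this hm
  have h3 : ∀ S : Finset I, ∃ κ2 : I → GA (Λ × ℤ), (∀ i, κ2 i ∈ JI wt (L.base i) ^ s0) ∧
      act (Den wt (univ \ univ.image L.y)) (G.hd (B ⊔ S.sup T) - G.hd B) = toF (∑ i, κ2 i) := by
    intro S
    induction S using Finset.induction_on with
    | empty => exact ⟨0, fun i => zero_mem _, by simp [toF_zero]⟩
    | insert i S _ ih =>
      obtain ⟨κ2, h, h'⟩ := ih
      obtain ⟨κ, hκ, hκ'⟩ := h2 i S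
      refine ⟨κ2 + Pi.single i κ, fun j => add_mem (h j) ?_, ?_⟩
      · by_cases hj : j = i
        · subst hj; simpa using hκ
        · simp [Pi.single_eq_of_ne hj]
      · simp only [Pi.add_apply, sum_add_distrib, sum_pi_single', mem_univ, if_true]
        rw [toF_add, ← h', ← hκ', ← map_add]
        congr 1
        abel
  obtain ⟨κ2, h, h'⟩ := h3 univ
  obtain ⟨κ1, -, h1⟩ := exists_num (G := G) ∅ ((univ \ univ.image L.y) \ univ.image L.τ) 0 Z
    (B ⊔ univ.sup T) hZ (hBS _) (hBSZ _) (fun v hv m hm => by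
      by_cases hv1 : ∃ c, L.y c = v
      · obtain ⟨c, rfl⟩ := hv1
        exact Submodule.mem_sup_left (hy c m hm)
      · obtain ⟨i, s, rfl⟩ : ∃ i s, L.τ (i, s) = v := by
          by_contra hv2
          simp only [not_exists] at hv1 hv2
          exact hv (by simp [hv1, hv2])
        refine Submodule.mem_sup_right (Finset.le_sup (f := T) (mem_univ i) ?_)
        exact Finset.le_sup (f := fun s : Fin r => Z.map (LinearMap.lsmul _ M (X (L.τ (i, s)))))
          (mem_univ s) ⟨m, hm, rfl⟩) (fun Y _ h => absurd h (Nat.not_lt_zero _))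
  refine ⟨κ1, κ2, h, ?_⟩
  have e : Den wt (univ \ univ.image L.y) =
      Den wt (univ.image L.τ) * Den wt ((univ \ univ.image L.y) \ univ.image L.τ) := by
    rw [Den, Den, Den, mul_comm, prod_sdiff]
    intro v hv
    obtain ⟨s, -, rfl⟩ := mem_image.mp hv
    simp only [mem_sdiff, mem_univ, mem_image, true_and, not_exists]
    exact fun c => L.y_ne_τ c s
  rw [toF_add, ← h', ← act_toF, ← h1, ← act_mul_apply, ← e, ← map_add]
  congr 1
  abel

omit [Fintype σ] [DecidableEq σ] in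
lemma LinSys.exists_b (L : LinSys F σ I C0 r) [DecidableEq I] (i : I) (e : Fin r → C0) (s : Fin r) :
    ∃ b : I × C0 → MvPolynomial σ F,
      ∑ c, (∑ s', X (L.τ (c.1, s')) * L.M c.1 s' c.2) * b c = L.δ i e * X (L.τ (i, s)) := by
  classical
  refine ⟨fun c => if c.1 = i then ∑ j with e j = c.2,
    ((L.M i).submatrix id e).adjugate j s else 0, ?_⟩
  rw [Fintype.sum_prod_type, sum_eq_single i (fun j _ hj => by simp [hj]) (by simp)]
  simp only [if_true, sum_mul, mul_assoc]
  rw [sum_comm]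
  have h : ∀ s', ∑ c, L.M i s' c * ∑ j with e j = c, ((L.M i).submatrix id e).adjugate j s =
      if s' = s then L.δ i e else 0 := by
    intro s'
    have h1 := congrFun (congrFun ((L.M i).submatrix id e).mul_adjugate s') s
    rw [Matrix.mul_apply, Matrix.smul_apply, Matrix.one_apply, smul_eq_mul, mul_ite, mul_one,
      mul_zero] at h1
    rw [LinSys.δ, ← h1, ← sum_fiberwise (s := univ) (g := e)]
    refine sum_congr rfl fun c _ => ?_
    rw [mul_sum]
    refine sum_congr rfl fun j hj => ?_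
    rw [Matrix.submatrix_apply, (mem_filter.mp hj).2, id]
  simp only [← mul_sum, h]
  simp [mul_comm]

omit [Fintype I] [Fintype C0] in
/-- The complex computing the restriction to the zero section. -/
lemma complex_id {D : Type*} [Fintype D] [LinearOrder D] (y : D → σ) (φ0 : D → MvPolynomial σ F)
    (hφ : ∀ c, (φ0 c).IsWeightedHomogeneous wt ((0, 2) - wt (y c)))
    (G : Gr F wt M) {N' N : Submodule (MvPolynomial σ F) M}
    (hN' : G.Graded N') (hN : G.Graded N) (hle : N ≤ N')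
    (hw : ∀ m ∈ N', (∑ c, φ0 c * X (y c)) • m ∈ N) :
    ∃ (G' : Gr F wt ((D → ZMod 2) → M)) (Z B : Submodule (MvPolynomial σ F) ((D → ZMod 2) → M))
      (κB : GA (Λ × ℤ)), G'.Graded Z ∧ G'.Graded B ∧ B ≤ Z ∧
      (∀ ψ0 ψ1 : D → MvPolynomial σ F, ∀ m ∈ Z, (∑ c, (φ0 c * ψ1 c + X (y c) * ψ0 c)) • m ∈ B) ∧
      act (Den wt univ) (act (∏ c, (1 + ch ((0, 1) - wt (y c)))) (G.hd N' - G.hd N)) =
        act (Den wt univ) (G'.hd Z - G'.hd B) + toF ((1 + ch (0, -1)) * κB) := by
  let u : Λ × ℤ := (0, 1)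
  let sh : (D → ZMod 2) → Λ × ℤ := fun β => ∑ c, (β c).val • (u - wt (y c))
  let φ : D → ZMod 2 → MvPolynomial σ F := fun c t => if t = 0 then φ0 c else X (y c)
  have hφ0 : ∀ c, φ c 0 = φ0 c := fun c => if_pos rfl
  have hφ1 : ∀ c, φ c 1 = X (y c) := fun c => if_neg (by decide)
  let d := mact M (∑ c, tsh (-1 : MvPolynomial σ F) c (φ c))
  have hd : Gr.HomMap (G.pi sh) (G.pi sh) d u := by
    simp only [d, map_sum]
    refine homMap_sum _ _ _ fun c _ => homMap_wsh sh _ _ _ fun β => ?_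
    have e1 : sh (β - Pi.single c 1) - sh β =
        (β c - 1).val • (u - wt (y c)) - (β c).val • (u - wt (y c)) := by
      simp only [sh, ← sum_sub_distrib]
      rw [sum_eq_single c (fun j _ hj => by simp [Pi.single_eq_of_ne hj]) (by simp)]
      simp
    have e2 : (-1 : MvPolynomial σ F) = C (-1) := by simp
    rw [add_sub_assoc, e1, e2, ← twf_map, ← zero_add (u + _)]
    refine (isWeightedHomogeneous_C wt _).mul ?_
    have hb : β c = 0 ∨ β c = 1 := by generalize β c = t; revert t; decide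
    rcases hb with hb | hb
    · rw [hb, hφ0]
      convert hφ c using 1
      rw [show ((0 : ZMod 2) - 1).val = 1 from rfl]
      ext <;> simp [u]
      ring
    · rw [hb, hφ1]
      convert isWeightedHomogeneous_X F wt (y c) using 1
      rw [show ((1 : ZMod 2) - 1).val = 0 from rfl, show (1 : ZMod 2).val = 1 from rfl]
      simp
  let A' := Gr.piS (D → ZMod 2) N'
  let A := Gr.piS (D → ZMod 2) N
  have hA' : (G.pi sh).Graded A' := hN'.piS sh
  have hA : (G.pi sh).Graded A := hN.piS sh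
  have hAA : A ≤ A' := fun m hm => Gr.mem_piS.mpr fun j => hle (Gr.mem_piS.mp hm j)
  have hB := hA.sup (hA'.map hd)
  obtain ⟨κB, -, hκB⟩ := exists_num (G := G.pi sh) ∅ univ 0 _ _ hB hA le_sup_left
    (fun v hv => absurd (mem_univ v) hv) (fun Y _ h => absurd h (Nat.not_lt_zero _))
  refine ⟨G.pi sh, A' ⊓ A.comap d, A ⊔ A'.map d, κB, hA'.inf (hA.comap hd), hB, ?_, ?_, ?_⟩
  · refine sup_le (le_inf hAA fun m hm => mact_mem_piS _ hm) ?_
    rintro _ ⟨m, hm, rfl⟩
    refine ⟨mact_mem_piS _ hm, ?_⟩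
    change d (d m) ∈ A
    rw [← Module.End.mul_apply, ← map_mul, car_sq, map_smul, map_one]
    refine Gr.mem_piS.mpr fun j => ?_
    simp only [hφ0, hφ1]
    exact hw _ (Gr.mem_piS.mp hm j)
  · intro ψ0 ψ1 m hm
    have h := congrArg (fun P => mact M P m) (car φ fun c t => if t = 0 then ψ0 c else ψ1 c)
    simp only [map_add, map_mul, map_smul, map_one, LinearMap.add_apply, Module.End.mul_apply,
      LinearMap.smul_apply, Module.End.one_apply, hφ0, hφ1, if_true,
      if_neg (show ¬ (1 : ZMod 2) = 0 by decide)] at h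
    rw [← h, add_comm]
    exact Submodule.add_mem_sup (mact_mem_piS _ hm.2) ⟨_, mact_mem_piS _ hm.1, rfl⟩
  · have e1 : (G.pi sh).hd A' - (G.pi sh).hd A = act (∑ β, ch (sh β)) (G.hd N' - G.hd N) := by
      funext χ
      simp only [Pi.sub_apply, A', A, Gr.hd_piS sh hN', Gr.hd_piS sh hN, map_sum,
        LinearMap.sum_apply, Finset.sum_apply, act_ch, sum_sub_distrib]
    have e2 : (G.pi sh).hd A' - (G.pi sh).hd A =
        ((G.pi sh).hd (A' ⊓ A.comap d) - (G.pi sh).hd (A ⊔ A'.map d)) +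
          act (1 + ch (0, -1)) ((G.pi sh).hd (A ⊔ A'.map d) - (G.pi sh).hd A) := by
      funext χ
      have := Gr.hd_four hd hA' hA χ
      rw [show χ + u = χ - (0, -1) by ext <;> simp [u]] at this
      simp only [Pi.sub_apply, Pi.add_apply, map_add, map_one, LinearMap.add_apply,
        Module.End.one_apply, act_ch]
      omega
    have e3 : ∑ β, ch (sh β) = ∏ c, (1 + ch (u - wt (y c))) := by
      have : ∀ c, 1 + ch (u - wt (y c)) = ∑ t : ZMod 2, ch (t.val • (u - wt (y c))) := by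
        intro c
        rw [show (univ : Finset (ZMod 2)) = {0, 1} from rfl, sum_pair (by decide),
          show (1 : ZMod 2).val = 1 from rfl]
        simp
      simp only [this, prod_univ_sum, Fintype.piFinset_univ, sh, ch_sum]
    rw [← e3, ← e1, e2, map_add, ← act_toF, ← hκB, ← act_mul_apply, ← act_mul_apply, mul_comm]

lemma one_sub_ch_ne_zero {l : Λ} (hl : l ≠ 0) : 1 - ch l ≠ 0 := by
  intro h
  have := congrFun (congrArg toF (sub_eq_zero.mp h)) 0
  rw [← ch_zero, toF_ch, toF_ch, if_pos rfl, if_neg hl] at this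
  exact one_ne_zero this

/-- The purity theorem. -/
theorem LinSys.purity [UniqueSums Λ] (L : LinSys F σ I C0 r) {Q : Λ} (hW : L.Wt wt Q)
    (G : Gr F wt M) {N' N : Submodule (MvPolynomial σ F) M}
    (hN' : G.Graded N') (hN : G.Graded N) (hle : N ≤ N') (hw : ∀ s, ∀ m ∈ N', L.w s • m ∈ N)
    (s0 : ℕ) (hK1 : ∀ i, ∀ Y ⊆ L.base i, (L.base i \ Y).card < s0 →
      ∃ p ∈ supported F (Y : Set σ), p ≠ 0 ∧ p ∈ Ideal.span (Set.range (L.δ i)))
    {K : GA (Λ × ℤ)} (hK : act (Den wt univ) (G.hd N' - G.hd N) = toF K) :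
    ∃ (κ' : GA Λ) (κ2 : I → GA Λ), (∀ i, κ2 i ∈ JD (Prod.fst '' (wt '' L.base i)) ^ s0) ∧
      sp Λ K = (1 - ch Q) ^ (Fintype.card I * r) * κ' + ∑ i, κ2 i := by
  classical
  obtain ⟨G', Z, B, κB, hZ, hB, hBZ, hkill, e0⟩ := @complex_id F σ _ Λ _ wt M _ _ _ _ _ _ _ (I × C0) _
    (LinearOrder.lift' _ (Fintype.equivFin (I × C0)).injective) L.y
    (fun c => ∑ s, X (L.τ (c.1, s)) * L.M c.1 s c.2) (fun c => by
      refine IsWeightedHomogeneous.sum _ _ _ fun s _ => ?_
      convert (isWeightedHomogeneous_X F wt _).mul (hW.M c.1 s c.2) using 1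
      rw [hW.τ]
      ext <;> simp [sub_eq_add_neg]) G N' N hN' hN hle (fun m hm => by
      have : ∑ c : I × C0, (∑ s, X (L.τ (c.1, s)) * L.M c.1 s c.2) * X (L.y c) =
          ∑ s, X (L.τ s) * L.w s := by
        simp only [LinSys.w, Fintype.sum_prod_type, sum_mul, mul_sum, mul_assoc]
        exact sum_congr rfl fun i _ => sum_comm
      rw [this, sum_smul]
      exact N.sum_mem fun s _ => by rw [mul_smul]; exact N.smul_mem _ (hw s _ hm))
  obtain ⟨κ1, κ2, h2, h1⟩ := L.filt G' hZ hB hBZ (fun c m hm => by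
    have := hkill (Pi.single c 1) 0 m hm
    simpa [Pi.single_apply] using this) (fun i e s m hm => by
    obtain ⟨b, hb⟩ := L.exists_b i e s
    have := hkill 0 b m hm
    simp only [Pi.zero_apply, mul_zero, add_zero, hb] at this
    rwa [← mul_smul]) s0 hK1
  have e4 : Den wt univ = Den wt (univ.image L.y) * Den wt (univ \ univ.image L.y) := by
    rw [Den, Den, Den, mul_comm, prod_sdiff (subset_univ _)]
  have e5 : (∏ c, (1 + ch ((0, 1) - wt (L.y c)))) * K = Den wt (univ.image L.y) *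
      (Den wt (univ.image L.τ) * κ1 + ∑ i, κ2 i) + (1 + ch (0, -1)) * κB := by
    apply toF_injective
    rw [← act_toF, ← hK, ← act_mul_apply, mul_comm, act_mul_apply, e0, toF_add, ← act_toF _ (_ + _),
      ← h1, ← act_mul_apply, ← e4]
  have gen : ∀ (P A B C : GA (Λ × ℤ)), P * K = A * (B * κ1 + ∑ i, κ2 i) + C * κB →
      sp Λ P * sp Λ K = sp Λ A * (sp Λ B * sp Λ κ1 + ∑ i, sp Λ (κ2 i)) + sp Λ C * sp Λ κB := by
    intro P A B C h
    rw [← map_mul, h]
    simp only [map_add, map_mul, map_sum]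
  have e6 := gen _ _ _ _ e5
  have s1 : sp Λ (1 + ch (0, -1)) = 0 := by simp [sp_ch]
  have s2 : sp Λ (Den wt (univ.image L.y)) = ∏ c, (1 - ch (wt (L.y c)).1) := by
    rw [Den, prod_image fun _ _ _ _ h => L.y_inj h, map_prod]
    exact prod_congr rfl fun c _ => by simp [sp_ch, hW.y2]
  have s3 : sp Λ (Den wt (univ.image L.τ)) =
      (1 - ch Q) ^ (Fintype.card I * r) * (-ch (-Q)) ^ (Fintype.card I * r) := by
    rw [Den, prod_image fun _ _ _ _ h => L.τ_inj h, map_prod, ← mul_pow,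
      prod_congr rfl (g := fun _ => (1 - ch Q) * -ch (-Q)) fun s _ => by
        rw [hW.τ, map_sub, map_one, sp_ch, Int.negOnePow_even _ (even_two : Even (2 : ℤ)), sub_mul,
          mul_neg, mul_neg, ← ch_add]
        simp [sub_eq_add_neg, add_comm]]
    simp
  have s4 : (∏ c, -ch (wt (L.y c)).1) * sp Λ (∏ c, (1 + ch ((0, 1) - wt (L.y c)))) =
      ∏ c, (1 - ch (wt (L.y c)).1) := by
    rw [map_prod, ← prod_mul_distrib]
    refine prod_congr rfl fun c _ => ?_
    rw [map_add, map_one, sp_ch, mul_add, mul_smul_comm, neg_mul (ch _) (ch _), ← ch_add]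
    simp [hW.y2, sub_eq_add_neg, add_comm]
  have s5 : ∏ c, (1 - ch (wt (L.y c)).1) ≠ 0 :=
    prod_ne_zero_iff.mpr fun c _ => one_sub_ch_ne_zero (hW.y1 c)
  refine ⟨(∏ c, -ch (wt (L.y c)).1) * ((-ch (-Q)) ^ (Fintype.card I * r) * sp Λ κ1),
    fun i => (∏ c, -ch (wt (L.y c)).1) * sp Λ (κ2 i), fun i => Ideal.mul_mem_left _ _ ?_, ?_⟩
  · exact sp_mem_JD hW.even (h2 i)
  · apply mul_left_cancel₀ s5
    rw [s1, zero_mul, add_zero, s2, s3] at e6
    rw [← mul_sum univ (fun i => sp Λ (κ2 i))]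
    linear_combination (∏ c, -ch (wt (L.y c)).1) * e6 - sp Λ K * s4

end Vale.Agent.P200
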