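import Vale.Agent.P200.Core2
import Vale.Agent.P200.Prim

/-! The construction of the quasi-commuting operators. -/

namespace Vale.Agent.P200

open MvPolynomial Module Finset

universe u

variable {F : Type u} [Field F] {n c r m a : ℕ} [NeZero a]

/-- The operators over the universal ring. -/
noncomputable def zz (r m a : ℕ) (emb : Fin c → Fin n) (l : Fin n → MvPolynomial (Fin n) F) (ω : F)
    (j : Fin n) :
    Matrix (GG c m a) (GG c m a) (MvPolynomial (Fin n) (MvPolynomial (Var n c r m a) F)) :=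
  (∑ k ∈ univ.filter (fun k : Blk c m => emb (ofLex k).1 = j), zb n r a ω k) +
    (map (C : F →+* MvPolynomial (Var n c r m a) F) (l j)) • 1

variable {emb : Fin c → Fin n} {l : Fin n → MvPolynomial (Fin n) F} {ω : F}

omit [NeZero a] in
lemma zz_emb (hinj : Function.Injective emb) (hl : ∀ i, l (emb i) = 0) (i : Fin c) :
    zz r m a emb l ω (emb i) =
      ∑ k ∈ univ.filter (fun k : Blk c m => (ofLex k).1 = i), zb n r a ω k := by
  simp [zz, hl, hinj.eq_iff]

omit [NeZero a] in
lemma zz_out {j : Fin n} (hj : j ∉ Set.range emb) : zz r m a emb l ω j =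
    (map (C : F →+* MvPolynomial (Var n c r m a) F) (l j)) • 1 := by
  rw [zz, filter_false_of_mem fun k _ h => hj ⟨_, h⟩, sum_empty, zero_add]

lemma zz_comm (hinj : Function.Injective emb) (hl : ∀ i, l (emb i) = 0) (hω : ω ^ a = 1)
    (i j : Fin n) : ∃ z : F, z ≠ 0 ∧
      zz r m a emb l ω i * zz r m a emb l ω j = z • (zz r m a emb l ω j * zz r m a emb l ω i) := by
  have hω0 : ω ≠ 0 := by
    rintro rfl
    rw [zero_pow (NeZero.ne a)] at hω
    exact zero_ne_one hω
  by_cases hi : i ∈ Set.range emb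
  swap
  · exact ⟨1, one_ne_zero, by simp [zz_out hi]⟩
  by_cases hj : j ∈ Set.range emb
  swap
  · exact ⟨1, one_ne_zero, by simp [zz_out hj]⟩
  obtain ⟨i, rfl⟩ := hi
  obtain ⟨j, rfl⟩ := hj
  have key : ∀ i j : Fin c, i < j → zz r m a emb l ω (emb j) * zz r m a emb l ω (emb i) =
      ω • (zz r m a emb l ω (emb i) * zz r m a emb l ω (emb j)) := by
    intro i j hij
    rw [zz_emb hinj hl, zz_emb hinj hl, sum_mul_sum, sum_mul_sum, sum_comm, smul_sum]
    refine sum_congr rfl fun k hk => ?_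
    rw [smul_sum]
    refine sum_congr rfl fun k' hk' => ?_
    have hkk : k < k' := by
      rw [Prod.Lex.lt_iff, (mem_filter.mp hk).2, (mem_filter.mp hk').2]
      exact Or.inl hij
    rw [zb, zb, tsh_comm (by rw [← map_pow, ← map_pow, hω, map_one, map_one]) hkk]
    exact algebraMap_smul _ ω _
  rcases lt_trichotomy i j with h | rfl | h
  · refine ⟨ω⁻¹, inv_ne_zero hω0, ?_⟩
    rw [key i j h, smul_smul, inv_mul_cancel₀ hω0, one_smul]
  · exact ⟨1, one_ne_zero, by simp⟩
  · exact ⟨ω, hω0, key j i h⟩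

lemma zz_pow (hinj : Function.Injective emb) (hl : ∀ i, l (emb i) = 0) (hω : QRoot a ω)
    (i : Fin c) : zz r m a emb l ω (emb i) ^ a = gg F n r m a i • 1 := by
  rw [zz_emb hinj hl]
  refine (sum_tsh_pow hω.pow_eq_one (fun x y h => hω.add_pow h) _ _).trans ?_
  congr 1
  rw [gg]
  refine sum_bij' (fun k _ => (ofLex k).2) (fun k _ => toLex (i, k)) (by simp) (by simp) ?_
    (by simp) ?_
  · intro k hk
    rw [← (mem_filter.mp hk).2]; rfl
  · intro k hk
    rw [← (mem_filter.mp hk).2]; rfl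

omit [NeZero a] in
lemma zz_hom (hl : ∀ j, (l j).IsHomogeneous 1) (j : Fin n) (β γ : GG c m a) :
    (zz r m a emb l ω j β γ).IsHomogeneous 1 := by
  rw [zz, Matrix.add_apply, Matrix.sum_apply]
  refine (IsHomogeneous.sum _ _ _ fun k _ => ?_).add ?_
  · rw [zb, tsh, wsh, Matrix.of_apply, ← twf_map]
    split_ifs
    · simpa using (isHomogeneous_C _ _).mul (lin_hom _)
    · exact isHomogeneous_zero _ _ _
  · rw [Matrix.smul_apply, Matrix.one_apply]
    split_ifs
    · simpa using (hl j).map _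
    · simpa using isHomogeneous_zero _ _ _

lemma gg_hom (i : Fin c) : (gg F n r m a i).IsHomogeneous a := by
  refine IsHomogeneous.sum _ _ _ fun k _ => ?_
  simpa using IsHomogeneous.prod univ (fun t => lin (xv F n r (toLex (i, k)) t)) (fun _ => 1)
    fun t _ => lin_hom _

omit [NeZero a] in
lemma map_rename_C (k : Blk c m) (p : MvPolynomial (Fin n) F) :
    map (rename (R := F) (pV n r k)).toRingHom
      (map (C : F →+* MvPolynomial (Var n c r m a) F) p) = map C p := by
  rw [MvPolynomial.map_map]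
  congr 2
  ext x : 1
  simp

lemma EE_zz (hω : ω ^ a = 1) (k : Blk c m) (j : Fin n) (f : TT F n c r m a) :
    EE ω k ((zz r m a emb l ω j).mulVec f) = (zz r m a emb l ω j).mulVec (EE ω k f) := by
  simp only [zz, Matrix.add_mulVec, Matrix.sum_mulVec, map_add, map_sum, EE_zb hω,
    Matrix.smul_mulVec, Matrix.one_mulVec]
  congr 1
  funext β
  simp only [EE_apply, Pi.smul_apply, smul_eq_mul, map_mul, map_rename_C]
  ring

lemma HomT.zz (hinj : Function.Injective emb) (hl : ∀ i, l (emb i) = 0) {χ : Lam c m a}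
    {f : TT F n c r m a} (h : HomT χ f) (j : Fin n) :
    ∃ χ', HomT χ' ((zz r m a emb l ω j).mulVec f) := by
  by_cases hj : j ∈ Set.range emb
  · obtain ⟨j, rfl⟩ := hj
    refine ⟨χ + (1, 0), fun β => ?_⟩
    rw [zz_emb hinj hl, Matrix.sum_mulVec, Finset.sum_apply]
    exact CH.sum _ fun k _ => h.zb ω k β
  · refine ⟨χ, fun β => ?_⟩
    rw [zz_out hj, Matrix.smul_mulVec, Matrix.one_mulVec, ← zero_add (_ - _)]
    exact (CH_map _).mul (h β)

variable {E : Type*} [Field E] [Algebra F E]

lemma map_map_C {σ : Type*} (φ : MvPolynomial σ F →ₐ[F] E) (p : MvPolynomial (Fin n) F) :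
    map (φ : MvPolynomial σ F →+* E) (map (C : F →+* MvPolynomial σ F) p) =
      map (algebraMap F E) p := by
  rw [MvPolynomial.map_map]
  congr 2
  ext x : 1
  exact φ.commutes x

lemma map_smul_one {R R' G : Type*} [CommRing R] [CommRing R'] [DecidableEq G] (f : R →+* R')
    (x : R) : (x • (1 : Matrix G G R)).map f = f x • 1 := by
  ext β γ
  by_cases h : β = γ <;> simp [h]

lemma span_smul_mem (Z : Fin n → Matrix (GG c m a) (GG c m a) (MvPolynomial (Fin n) E))
    (hZ : ∀ j β γ, (Z j β γ).IsHomogeneous 1) (J : Set (Fin n)) (D : ℕ)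
    {H : Set (MvPolynomial (Fin n) E)} (hH : ∀ h ∈ H, ∃ j ∈ J, ∃ A, h • 1 = Z j * A)
    (hD : Prim (Ideal.span H) (D + 1)) : Td (GG c m a) n E (D + 1) ≤
      ⨆ j ∈ J, (Td (GG c m a) n E D).map ((Z j).mulVecLin.restrictScalars E) := by
  let N : Submodule (MvPolynomial (Fin n) E) (GG c m a → MvPolynomial (Fin n) E) :=
    ⨆ j ∈ J, LinearMap.range (Z j).mulVecLin
  have h1 : ∀ p ∈ Ideal.span H, ∀ t, p • t ∈ N := by
    intro p hp t
    induction hp using Submodule.span_induction with
    | mem x hx =>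
      obtain ⟨j, hj, A, hA⟩ := hH x hx
      refine Submodule.mem_iSup_of_mem j (Submodule.mem_iSup_of_mem hj ⟨A.mulVec t, ?_⟩)
      rw [Matrix.mulVecLin_apply, Matrix.mulVec_mulVec, ← hA, Matrix.smul_mulVec, Matrix.one_mulVec]
    | zero => simp
    | add x y _ _ hx hy => rw [add_smul]; exact add_mem hx hy
    | smul q x _ hx => rw [smul_assoc]; exact N.smul_mem _ hx
  have h2 : ∀ t ∈ N, (fun β => homogeneousComponent (D + 1) (t β)) ∈
      ⨆ j ∈ J, (Td (GG c m a) n E D).map ((Z j).mulVecLin.restrictScalars E) := by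
    intro t ht
    induction ht using Submodule.iSup_induction' with
    | mem j t ht =>
      by_cases hj : j ∈ J
      · rw [iSup_pos hj] at ht
        obtain ⟨t, rfl⟩ := ht
        refine Submodule.mem_iSup_of_mem j (Submodule.mem_iSup_of_mem hj
          ⟨fun β => homogeneousComponent D (t β),
            mem_piSub.mpr fun β => homogeneousComponent_mem _ _, funext fun β => ?_⟩)
        simp [Matrix.mulVec, dotProduct, hc_mul (hZ _ _ _)]
      · rw [iSup_neg hj, Submodule.mem_bot] at ht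
        subst ht
        simp only [Pi.zero_apply, map_zero]
        exact zero_mem _
    | zero =>
      simp only [Pi.zero_apply, map_zero]
      exact zero_mem _
    | add x y _ _ hx hy =>
      simp only [Pi.add_apply, map_add]
      exact add_mem hx hy
  refine Td_le_of_smul (d := D + 1) (e := 0) fun p hp t ht => ?_
  convert h2 _ (h1 p (hD p hp) t) using 1
  funext β
  exact (homogeneousComponent_eq_self (mem_piSub.mp (smul_mem_Td hp ht) β)).symm

/-- The setup given by a generic point. -/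
noncomputable def mkSetup (ψ : Fin r → (Fin n →₀ ℕ) → F) (ha : 2 ≤ a)
    (hs : ∀ v : Fin r → F, ∃ g, ∀ s, fn a (ψ s) g = v s) {N : ℕ}
    (hN : ∀ j, (X j : MvPolynomial (Fin n) F) ^ N ∈
      Ideal.span {u | u.IsHomogeneous a ∧ ∀ s, fn a (ψ s) u = 0}) (hm : c * r + r + 1 ≤ m)
    {e : Fin c → Fin r → Fin m × Fin n} {P : Ideal (MvPolynomial (Var n c r m a) F)}
    (hP : (sys c m a ψ).GenPt e P) (φ : MvPolynomial (Var n c r m a) F →ₐ[F] E)
    (hφ : ∀ p, φ p = 0 ↔ p ∈ P) (hfr : ∀ z, ∃ p q, q ∉ P ∧ z * φ q = φ p) (hω : QRoot a ω)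
    (hinj : Function.Injective emb) (hl : ∀ i, l (emb i) = 0) (hl1 : ∀ j, (l j).IsHomogeneous 1)
    {D : ℕ} (hD : Prim (Ideal.span (map (φ : MvPolynomial (Var n c r m a) F →+* E) ''
      (Set.range (gg F n r m a) ∪ map C '' Set.range l))) (D + 1)) :
    Setup F E n (GG c m a) where
  Z j := (zz r m a emb l ω j).map (map (φ : MvPolynomial (Var n c r m a) F →+* E))
  hom j β γ := (zz_hom hl1 j β γ).map _
  comm i j := by
    obtain ⟨z, hz, h⟩ := zz_comm (r := r) (m := m) hinj hl hω.pow_eq_one i j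
    refine ⟨algebraMap F E z, by simpa using hz, ?_⟩
    rw [← Matrix.map_mul, ← Matrix.map_mul, h]
    ext β γ μ
    simp only [Matrix.map_apply, Matrix.smul_apply, coeff_map, coeff_smul, RingHom.coe_coe, map_smul,
      algebraMap_smul]
  Good A := ∃ Y : Set (TT F n c r m a), (∀ y ∈ Y, ∃ χ, HomT χ y) ∧ (∀ k, ∀ y ∈ Y, EE ω k y ∈ Y) ∧
    A = Submodule.span E
      ((fun y β => map (φ : MvPolynomial (Var n c r m a) F →+* E) (y β)) '' Y)
  good_sup := by
    rintro _ _ ⟨Y, h1, h2, rfl⟩ ⟨Y', h1', h2', rfl⟩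
    refine ⟨Y ∪ Y', ?_, fun k => ?_, by rw [Set.image_union, Submodule.span_union]⟩
    · rintro y (hy | hy)
      exacts [h1 y hy, h1' y hy]
    · rintro y (hy | hy)
      exacts [Or.inl (h2 k y hy), Or.inr (h2' k y hy)]
  good_map j := by
    rintro _ ⟨Y, h1, h2, rfl⟩
    refine ⟨(zz r m a emb l ω j).mulVec '' Y, ?_, fun k => ?_, ?_⟩
    · rintro _ ⟨y, hy, rfl⟩
      obtain ⟨χ, h⟩ := h1 y hy
      exact h.zz hinj hl j
    · rintro _ ⟨y, hy, rfl⟩
      exact ⟨_, h2 k y hy, (EE_zz hω.pow_eq_one k j y).symm⟩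
    · rw [Submodule.map_span, Set.image_image, Set.image_image]
      congr 2
      funext y β
      exact (RingHom.map_mulVec _ _ _ _).symm
  good_BB d A _ := by
    refine ⟨{y | ∃ β, ∃ p ∈ A, y = Pi.single β (map C p)}, ?_, fun k => ?_,
      le_antisymm (fun t ht => ?_) (Submodule.span_le.mpr ?_)⟩
    · rintro _ ⟨β, p, -, rfl⟩
      refine ⟨(shv β).1, fun γ => ?_⟩
      by_cases h : γ = β
      · subst h
        rw [Pi.single_eq_same, show (((shv γ).1, 0) : Lam c m a × ℤ) = shv γ from rfl, sub_self]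
        exact CH_map _
      · rw [Pi.single_eq_of_ne h]
        exact fun _ => isWeightedHomogeneous_zero _ _ _
    · rintro _ ⟨β, p, hp, rfl⟩
      refine ⟨β + Pi.single k 1, _, A.smul_mem (twf ω (univ.filter (k < ·)) (β + Pi.single k 1)) hp,
        funext fun γ => ?_⟩
      by_cases h : γ = β + Pi.single k 1
      · subst h
        rw [EE_apply, add_sub_cancel_right, Pi.single_eq_same, Pi.single_eq_same, map_rename_C,
          smul_eq_C_mul, map_mul, map_C]
      · rw [EE_apply, Pi.single_eq_of_ne h, Pi.single_eq_of_ne (by rwa [Ne, sub_eq_iff_eq_add]),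
          map_zero, mul_zero]
    · rw [← univ_sum_single t]
      refine Submodule.sum_mem _ fun β _ => ?_
      have := Submodule.mem_map_of_mem (f := LinearMap.single E (fun _ : GG c m a =>
        MvPolynomial (Fin n) E) β) (mem_piSub.mp ht β)
      rw [ext1, Submodule.map_span] at this
      refine Submodule.span_mono ?_ this
      rintro _ ⟨_, ⟨p, hp, rfl⟩, rfl⟩
      refine ⟨_, ⟨β, p, hp, rfl⟩, funext fun γ => ?_⟩
      by_cases h : γ = β
      · subst h; simp [map_map_C]
      · simp [Pi.single_eq_of_ne h]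
    · rintro _ ⟨_, ⟨β, p, hp, rfl⟩, rfl⟩
      refine mem_piSub.mpr fun γ => ?_
      by_cases h : γ = β
      · subst h
        simp only [Pi.single_eq_same, map_map_C]
        exact Submodule.subset_span ⟨p, hp, rfl⟩
      · simp [Pi.single_eq_of_ne h]
  dvd d := by
    rintro _ ⟨Y, h1, h2, rfl⟩ hd
    refine core ψ ha hs hN hm hP _ hφ hfr (fun h => ?_) Y h1 h2 d hd
    have := hω.pow_eq_one
    rw [h, zero_pow (NeZero.ne a)] at this
    exact zero_ne_one this
  prim := by
    refine ⟨D, (span_smul_mem (fun j => (zz r m a emb l ω j).map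
      (map (φ : MvPolynomial (Var n c r m a) F →+* E))) (fun j β γ => (zz_hom hl1 j β γ).map _)
      Set.univ D ?_ hD).trans (by simp)⟩
    rintro _ ⟨_, ⟨i, rfl⟩ | ⟨_, ⟨j, rfl⟩, rfl⟩, rfl⟩
    · refine ⟨emb i, trivial, (zz r m a emb l ω (emb i) ^ (a - 1)).map
        (map (φ : MvPolynomial (Var n c r m a) F →+* E)), ?_⟩
      rw [← Matrix.map_mul, ← pow_succ', Nat.sub_add_cancel (by omega), zz_pow hinj hl hω,
        map_smul_one]
    · by_cases hj : j ∈ Set.range emb
      · obtain ⟨i, rfl⟩ := hj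
        exact ⟨emb i, trivial, 0, by simp [hl]⟩
      · refine ⟨j, trivial, 1, ?_⟩
        rw [zz_out hj, mul_one, map_smul_one]
  nonempty := inferInstance

end Vale.Agent.P200
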