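import Vale.Agent.P200.End3

/-! Combinatorics of the first two variables. -/

namespace Vale.Agent.P200

open MvPolynomial Module Finset

variable {n : ℕ}

/-- Monomials with given tail. -/
noncomputable def hd (τ : Fin (n + 2) →₀ ℕ) (k i : ℕ) : Fin (n + 2) →₀ ℕ :=
  τ + Finsupp.single 0 i + Finsupp.single 1 (k - i)

/-- The tail of a monomial. -/
noncomputable def tl (β : Fin (n + 2) →₀ ℕ) : Fin (n + 2) →₀ ℕ := (β.erase 0).erase 1

/-- Comparison of tails. -/
def ltT (γ τ : Fin (n + 2) →₀ ℕ) : Prop := ∃ j, 1 < j ∧ (∀ k, j < k → τ k = γ k) ∧ τ j < γ j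

lemma fin_cases3 (j : Fin (n + 2)) : j = 0 ∨ j = 1 ∨ 1 < j := by
  rcases j with ⟨_ | _ | j, h⟩
  · exact Or.inl rfl
  · exact Or.inr (Or.inl rfl)
  · exact Or.inr (Or.inr (by simp [Fin.lt_def]))

lemma ne_of_one_lt {j : Fin (n + 2)} (h : 1 < j) : j ≠ 0 ∧ j ≠ 1 :=
  ⟨(lt_trans Fin.zero_lt_one h).ne', h.ne'⟩

lemma hd_big (τ : Fin (n + 2) →₀ ℕ) (k i : ℕ) {j : Fin (n + 2)} (h : 1 < j) : hd τ k i j = τ j := by
  simp [hd, Finsupp.single_eq_of_ne (ne_of_one_lt h).1, Finsupp.single_eq_of_ne (ne_of_one_lt h).2]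

lemma tl_big (β : Fin (n + 2) →₀ ℕ) {j : Fin (n + 2)} (h : 1 < j) : tl β j = β j := by
  simp [tl, Finsupp.erase_ne (ne_of_one_lt h).1, Finsupp.erase_ne (ne_of_one_lt h).2]

@[simp] lemma tl_zero (β : Fin (n + 2) →₀ ℕ) : tl β 0 = 0 := by simp [tl, Finsupp.erase_ne]

@[simp] lemma tl_one (β : Fin (n + 2) →₀ ℕ) : tl β 1 = 0 := by simp [tl]

@[simp] lemma hd_zero (τ : Fin (n + 2) →₀ ℕ) (k i : ℕ) : hd τ k i 0 = τ 0 + i := by simp [hd]

@[simp] lemma hd_one (τ : Fin (n + 2) →₀ ℕ) (k i : ℕ) : hd τ k i 1 = τ 1 + (k - i) := by simp [hd]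

lemma ext3 {β γ : Fin (n + 2) →₀ ℕ} (h0 : β 0 = γ 0) (h1 : β 1 = γ 1)
    (h : ∀ j, 1 < j → β j = γ j) : β = γ := by
  ext j
  rcases fin_cases3 j with rfl | rfl | hj
  exacts [h0, h1, h j hj]

lemma hd_tl (β : Fin (n + 2) →₀ ℕ) : hd (tl β) (β 0 + β 1) (β 0) = β :=
  ext3 (by simp) (by simp) fun j hj => by rw [hd_big _ _ _ hj, tl_big _ hj]

lemma tl_eq {β τ : Fin (n + 2) →₀ ℕ} (h0 : τ 0 = 0) (h1 : τ 1 = 0) (h : ∀ j, 1 < j → τ j = β j) :
    tl β = τ := ext3 (by simp [h0]) (by simp [h1]) fun j hj => by rw [tl_big _ hj, h j hj]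

lemma deg_hd (τ : Fin (n + 2) →₀ ℕ) {k i : ℕ} (h : i ≤ k) : (hd τ k i).degree = k + τ.degree := by
  simp only [hd, map_add, Finsupp.degree_single]
  omega

lemma deg_tl (β : Fin (n + 2) →₀ ℕ) : β.degree = β 0 + β 1 + (tl β).degree := by
  conv_lhs => rw [← hd_tl β, deg_hd _ (Nat.le_add_right _ _)]

lemma key_hd {τ γ : Fin (n + 2) →₀ ℕ} (h0 : τ 0 = 0) (h1 : τ 1 = 0) {k i : ℕ} (hi : i ≤ k)
    (hγ : γ.degree = k + τ.degree) :
    key γ < key (hd τ k i) ↔ ltT γ τ ∨ ∃ i' < i, γ = hd τ k i' := by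
  rw [key_lt_iff]
  constructor
  · rintro ⟨j, hj1, hj2⟩
    by_cases hj : 1 < j
    · refine Or.inl ⟨j, hj, fun k' hk => ?_, by rwa [hd_big _ _ _ hj] at hj2⟩
      rw [← hj1 k' hk, hd_big _ _ _ (hj.trans hk)]
    · have ht : tl γ = τ := tl_eq h0 h1 fun k' hk => by
        rw [← hj1 k' (lt_of_le_of_lt (not_lt.mp hj) hk), hd_big _ _ _ hk]
      have hd' := deg_tl γ
      rw [ht] at hd'
      refine Or.inr ⟨γ 0, ?_, by rw [← ht, show k = γ 0 + γ 1 by omega, hd_tl]⟩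
      rcases fin_cases3 j with rfl | rfl | hj'
      · have := hj1 1 Fin.zero_lt_one
        simp only [hd_zero, hd_one] at this hj2
        omega
      · simp only [hd_one] at hj2
        omega
      · exact absurd hj' hj
  · rintro (⟨j, hj, hj1, hj2⟩ | ⟨i', hi', rfl⟩)
    · exact ⟨j, fun k' hk => by rw [hd_big _ _ _ (hj.trans hk), hj1 k' hk],
        by rwa [hd_big _ _ _ hj]⟩
    · exact ⟨1, fun k' hk => by rw [hd_big _ _ _ hk, hd_big _ _ _ hk], by simp; omega⟩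

lemma card_fiber (p : (Fin (n + 2) →₀ ℕ) → Prop) [DecidablePred p] (d : ℕ) :
    ((Mon (n + 2) d).filter p).card = ∑ τ ∈ (Mon (n + 2) d).image tl,
      ((range (d - τ.degree + 1)).filter fun i => p (hd τ (d - τ.degree) i)).card := by
  rw [card_eq_sum_card_fiberwise (f := tl) (t := (Mon (n + 2) d).image tl)
    fun β hβ => mem_coe.mpr (mem_image_of_mem _ (mem_filter.mp hβ).1)]
  refine sum_congr rfl fun τ hτ => ?_
  obtain ⟨γ, hγ, rfl⟩ := mem_image.mp hτ
  have h1 := deg_tl γ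
  rw [mem_Mon.mp hγ] at h1
  refine card_nbij' (fun β => β 0) (hd (tl γ) (d - (tl γ).degree)) ?_ ?_ ?_ ?_
  · intro β hβ
    simp only [coe_filter, mem_filter, mem_Mon, Set.mem_ofPred_eq, mem_range] at hβ ⊢
    have h2 := deg_tl β
    rw [← hβ.2, show d - (tl β).degree = β 0 + β 1 by omega, hd_tl]
    exact ⟨by omega, hβ.1.2⟩
  · intro i hi
    simp only [coe_filter, mem_filter, mem_Mon, Set.mem_ofPred_eq, mem_range] at hi ⊢
    exact ⟨⟨by rw [deg_hd _ (by omega)]; omega, hi.2⟩,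
      tl_eq (by simp) (by simp) fun j hj => (hd_big _ _ _ hj).symm⟩
  · intro β hβ
    simp only [coe_filter, mem_filter, mem_Mon, Set.mem_ofPred_eq] at hβ
    have h2 := deg_tl β
    rw [← hβ.2, show d - (tl β).degree = β 0 + β 1 by omega, hd_tl]
  · intro i _
    simp

open Classical in
/-- The number of standard monomials with given tail. -/
noncomputable def hh (s : Set (Fin (n + 2) →₀ ℕ)) (τ : Fin (n + 2) →₀ ℕ) (k : ℕ) : ℕ :=
  ((range (k + 1)).filter fun i => hd τ k i ∉ s).card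

lemma hh_le (s : Set (Fin (n + 2) →₀ ℕ)) (τ : Fin (n + 2) →₀ ℕ) (k : ℕ) : hh s τ k ≤ k + 1 := by
  classical
  exact (card_filter_le _ _).trans (by simp)

lemma hd_succ (τ : Fin (n + 2) →₀ ℕ) {k i : ℕ} (h : i ≤ k) :
    hd τ k i ≤ hd τ (k + 1) i ∧ hd τ k i ≤ hd τ (k + 1) (i + 1) := by
  constructor <;> intro j <;> rcases fin_cases3 j with rfl | rfl | hj <;>
    first | (rw [hd_big _ _ _ hj, hd_big _ _ _ hj]) | (simp; try omega)

lemma hh_macaulay {s : Set (Fin (n + 2) →₀ ℕ)} (hs : IsUpperSet s) (τ : Fin (n + 2) →₀ ℕ) {k : ℕ}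
    (h : hh s τ k ≤ k) : hh s τ (k + 1) ≤ hh s τ k := by
  classical
  obtain ⟨i0, hi0, h0⟩ : ∃ i ≤ k, hd τ k i ∈ s := by
    by_contra hc
    push Not at hc
    rw [hh, filter_true_of_mem fun i hi => hc i (by simpa [Nat.lt_succ_iff] using hi),
      card_range] at h
    omega
  have e1 := hs (hd_succ τ hi0).1 h0
  have e2 := hs (hd_succ τ hi0).2 h0
  refine card_le_card_of_injOn (fun i => if i < i0 then i else i - 1) (fun i hi => ?_)
    fun i hi j hj hij => ?_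
  · simp only [coe_filter, mem_range, Set.mem_ofPred_eq] at hi ⊢
    split_ifs with h1
    · exact ⟨by omega, fun h => hi.2 (hs (hd_succ τ (by omega)).1 h)⟩
    · have : i ≠ i0 := by rintro rfl; exact hi.2 e1
      obtain ⟨i, rfl⟩ : ∃ j, i = j + 1 := ⟨i - 1, by omega⟩
      exact ⟨by omega, fun h => hi.2 (hs (hd_succ τ (by omega)).2 h)⟩
  · simp only [coe_filter, mem_range, Set.mem_ofPred_eq] at hi hj hij
    have : i ≠ i0 := by rintro rfl; exact hi.2 e1
    have : j ≠ i0 := by rintro rfl; exact hj.2 e1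
    split_ifs at hij <;> omega

lemma hh_mono {s : Set (Fin (n + 2) →₀ ℕ)} (hs : IsUpperSet s) {τ τ' : Fin (n + 2) →₀ ℕ}
    (h : τ ≤ τ') (k : ℕ) : hh s τ' k ≤ hh s τ k := by
  classical
  refine card_le_card fun i hi => ?_
  rw [mem_filter] at hi ⊢
  exact ⟨hi.1, fun h' => hi.2 (hs (by unfold hd; gcongr) h')⟩

open Classical in
theorem replace {s : Set (Fin (n + 2) →₀ ℕ)} (hs : IsUpperSet s) {a b : ℕ} (ha : 1 ≤ a)
    (hab : a ≤ b) (h3 : hh s 0 a ≤ a) (h4 : ∀ τ e, τ 0 = 0 → τ 1 = 0 → b ≤ e + 1 →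
      0 < hh s τ (e + 1) → hh s τ (e + 1) < hh s τ e) :
    ∃ s' : Set (Fin (n + 2) →₀ ℕ), IsUpperSet s' ∧ Finsupp.single 0 a ∈ s' ∧
      Finsupp.single 1 b ∈ s' ∧ (∀ τ ∈ s, τ 0 = 0 → τ 1 = 0 → τ ∈ s') ∧
      ∀ d, ((Mon (n + 2) d).filter (· ∈ s')).card = ((Mon (n + 2) d).filter (· ∈ s)).card := by
  have K : ∀ β e, 0 < hh s (tl β) (e + 1) →
      e + 1 + 1 - b + hh s (tl β) (e + 1) ≤ e + 1 - b + hh s (tl β) e ∨
        hh s (tl β) e = e + 1 ∧ e + 1 < b := by
    intro β e h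
    by_cases hb : b ≤ e + 1
    · have := h4 (tl β) e (by simp) (by simp) hb h
      omega
    · have h1 := hh_le s (tl β) e
      have h2 := hh_macaulay hs (tl β) (k := e)
      omega
  have V : ∀ β e, 0 < hh s (tl β) e → e + 1 - b + hh s (tl β) e ≤ e + 1 := by
    intro β e
    induction e with
    | zero => have := hh_le s (tl β) 0; omega
    | succ e ih =>
      intro h
      have h1 := K β e h
      have h2 := hh_le s (tl β) (e + 1)
      omega
  have t0 : ∀ (j : Fin (n + 2)) (β : Fin (n + 2) →₀ ℕ) k, ¬ 1 < j →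
      tl (β + Finsupp.single j k) = tl β := fun j β k hj =>
    tl_eq (by simp) (by simp) fun i hi => by
      rw [tl_big _ hi, Finsupp.add_apply, Finsupp.single_eq_of_ne (by rintro rfl; exact hj hi),
        add_zero]
  have s01 : ∀ k : ℕ, (Finsupp.single (0 : Fin (n + 2)) k) 1 = 0 := fun k => by simp
  have s10 : ∀ k : ℕ, (Finsupp.single (1 : Fin (n + 2)) k) 0 = 0 := fun k => by simp
  have t1 : tl (0 : Fin (n + 2) →₀ ℕ) = 0 := by simp [tl]
  obtain ⟨s', hs'⟩ : ∃ s' : Set (Fin (n + 2) →₀ ℕ), ∀ β, β ∈ s' ↔ ¬ (β 0 + β 1 + 1 - b ≤ β 0 ∧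
    β 0 < β 0 + β 1 + 1 - b + hh s (tl β) (β 0 + β 1)) := ⟨Set.ofPred _, fun _ => Iff.rfl⟩
  refine ⟨s', fun β γ hle hβ => ?_, ?_, ?_, fun τ hτ h0 h1 => ?_, fun d => ?_⟩
  · obtain ⟨δ, rfl⟩ := exists_add_of_le hle
    clear hle
    induction δ using finsupp_ind with
    | h0 => simpa using hβ
    | h1 δ j ih =>
      rw [← add_assoc]
      generalize β + δ = γ at ih
      rw [hs'] at ih ⊢
      intro hc
      refine ih ?_
      have h1 := K γ (γ 0 + γ 1)
      have h2 := hh_le s (tl γ) (γ 0 + γ 1 + 1)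
      rcases fin_cases3 j with rfl | rfl | hj
      · rw [t0 _ _ _ (by simp)] at hc
        simp only [Finsupp.add_apply, Finsupp.single_eq_same, s01, add_zero,
          add_right_comm (γ 0) 1] at hc
        omega
      · rw [t0 _ _ _ (by simp)] at hc
        simp only [Finsupp.add_apply, Finsupp.single_eq_same, s10, add_zero, ← add_assoc] at hc
        omega
      · have h3 := hh_mono hs (τ := tl γ) (τ' := tl (γ + Finsupp.single j 1)) (fun i => by
          rcases fin_cases3 i with rfl | rfl | hi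
          · simp
          · simp
          · simp [tl_big _ hi]) (γ 0 + γ 1)
        simp only [Finsupp.add_apply, Finsupp.single_eq_of_ne (ne_of_one_lt hj).1.symm,
          Finsupp.single_eq_of_ne (ne_of_one_lt hj).2.symm, add_zero] at hc
        omega
  · have h1 := t0 0 0 a (by simp)
    obtain ⟨a, rfl⟩ : ∃ a', a = a' + 1 := ⟨a - 1, by omega⟩
    have h2 := K 0 a
    have h5 := V 0 a
    rw [zero_add, t1] at h1
    rw [t1] at h2 h5
    simp only [hs', h1, Finsupp.single_eq_same, s01, add_zero]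
    omega
  · simp [hs']
  · have : hh s τ 0 = 0 := by simpa [hh, hd] using hτ
    simp only [hs', tl_eq h0 h1 fun _ _ => rfl, h0, h1, add_zero, this]
    omega
  · have h1 := card_filter_add_card_filter_not (s := Mon (n + 2) d) (· ∈ s)
    refine Nat.add_right_cancel ((card_filter_add_card_filter_not (s := Mon (n + 2) d) _).trans
      (h1.symm.trans (congrArg _ ?_)))
    rw [card_fiber, card_fiber]
    refine sum_congr rfl fun τ hτ => ?_
    obtain ⟨γ, -, rfl⟩ := mem_image.mp hτ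
    generalize d - (tl γ).degree = k
    have h2 := V γ k
    change hh s (tl γ) k = _
    rw [show hh s (tl γ) k = (Ico (k + 1 - b) (k + 1 - b + hh s (tl γ) k)).card by simp]
    congr 1
    ext i
    have h5 : tl (hd (tl γ) k i) = tl γ :=
      tl_eq (by simp) (by simp) fun j hj => (hd_big _ _ _ hj).symm
    simp only [mem_Ico, mem_filter, mem_range, hs', not_not, h5, hd_zero, hd_one,
      tl_zero, tl_one, zero_add]
    by_cases hi : i ≤ k
    · rw [Nat.add_sub_cancel' hi]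
      omega
    · omega

end Vale.Agent.P200
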