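import Vale.Agent.P200.Two1
import Vale.Agent.P200.BC

/-! The first two variables: module arguments. -/

namespace Vale.Agent.P200

open MvPolynomial Module Finset

variable {K L : Type*} [Field K] [Field L] [Algebra K L] {n : ℕ} {ι : Type*} [Fintype ι]
  [DecidableEq ι]

namespace Setup

section gen

variable (S : Setup K L n ι)

lemma act_add (β γ : Fin n →₀ ℕ) (N : Submodule L (ι → MvPolynomial (Fin n) L)) :
    S.act (β + γ) N = S.act β (S.act γ N) := by
  simp only [act, map_add, Multiset.foldr_add]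

lemma act_map (β : Fin n →₀ ℕ) (i : Fin n) (N : Submodule L (ι → MvPolynomial (Fin n) L)) :
    S.act β (N.map (S.op i)) = (S.act β N).map (S.op i) := by
  rw [← act_add_single, act_add, ← zero_add (Finsupp.single i 1), act_add_single, act_zero]

lemma exists_mat (β : Fin n →₀ ℕ) : ∃ M : Matrix ι ι (MvPolynomial (Fin n) L),
    ∀ N, S.act β N = N.map (M.mulVecLin.restrictScalars L) := by
  induction β using finsupp_ind with
  | h0 => exact ⟨1, fun N => by rw [act_zero, Matrix.mulVecLin_one]; exact (Submodule.map_id _).symm⟩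
  | h1 β i ih =>
    obtain ⟨M, hM⟩ := ih
    exact ⟨S.Z i * M, fun N => by
      rw [act_add_single, hM, ← Submodule.map_comp, Matrix.mulVecLin_mul]; rfl⟩

lemma good_finsup {α : Type*} (s : Finset α) (O : α → Submodule L (ι → MvPolynomial (Fin n) L))
    (h : ∀ x ∈ s, S.Good (O x)) : S.Good (s.sup O) :=
  Finset.sup_induction S.good_bot (fun _ h _ h' => S.good_sup _ _ h h') h

lemma good_O (β : Fin n →₀ ℕ) : S.Good (S.O β) := S.good_act β (S.good_Td 0)

lemma notMem_NS_bot (β : Fin n →₀ ℕ) : β ∉ S.NS ⊥ := by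
  classical
  have h := S.card_NS ⊥ β.degree
  rw [show Id (⊥ : Ideal (MvPolynomial (Fin n) K)) β.degree = ⊥ by simp [Id], finrank_bot,
    card_eq_zero, filter_eq_empty_iff] at h
  exact h (mem_Mon.mpr rfl)

end gen

variable (S : Setup K L (n + 2) ι)

open Classical in
/-- The part of the filtration below a tail. -/
noncomputable def RR (τ : Fin (n + 2) →₀ ℕ) (k : ℕ) :
    Submodule L (ι → MvPolynomial (Fin (n + 2)) L) :=
  ((Mon (n + 2) (k + τ.degree)).filter (ltT · τ)).sup S.O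

lemma le_RR {τ γ : Fin (n + 2) →₀ ℕ} {k : ℕ} (h : γ.degree = k + τ.degree) (h' : ltT γ τ) :
    S.O γ ≤ S.RR τ k := by
  classical
  exact le_sup (f := S.O) (mem_filter.mpr ⟨mem_Mon.mpr h, h'⟩)

lemma RR_le {τ : Fin (n + 2) →₀ ℕ} {k : ℕ} {N : Submodule L (ι → MvPolynomial (Fin (n + 2)) L)}
    (h : ∀ γ, γ.degree = k + τ.degree → ltT γ τ → S.O γ ≤ N) : S.RR τ k ≤ N := by
  classical
  exact Finset.sup_le fun γ hγ => h γ (mem_Mon.mp (mem_filter.mp hγ).1) (mem_filter.mp hγ).2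

lemma RR_le_Td (τ : Fin (n + 2) →₀ ℕ) (k : ℕ) : S.RR τ k ≤ Td ι (n + 2) L (k + τ.degree) :=
  S.RR_le fun _ h _ => S.O_le_Td (mem_Mon.mpr h)

lemma good_RR (τ : Fin (n + 2) →₀ ℕ) (k : ℕ) : S.Good (S.RR τ k) :=
  S.good_finsup _ _ fun β _ => S.good_O β

lemma map_RR (τ : Fin (n + 2) →₀ ℕ) (k : ℕ) {i : Fin (n + 2)} (hi : ¬ 1 < i) :
    (S.RR τ k).map (S.op i) ≤ S.RR τ (k + 1) := by
  rw [Submodule.map_le_iff_le_comap]
  refine S.RR_le fun γ h ⟨j, h1, h2, h3⟩ => ?_
  have e : ∀ k, 1 < k → (γ + Finsupp.single i 1 : Fin (n + 2) →₀ ℕ) k = γ k := fun k hk => by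
    rw [Finsupp.add_apply, Finsupp.single_eq_of_ne (by rintro rfl; exact hi hk), add_zero]
  rw [← Submodule.map_le_iff_le_comap, ← O_add_single]
  exact S.le_RR (by simp [h]; omega) ⟨j, h1, fun k hk => by rw [e k (h1.trans hk), h2 k hk],
    by rwa [e j h1]⟩

lemma F_hd (I : Ideal (MvPolynomial (Fin (n + 2)) K)) {τ : Fin (n + 2) →₀ ℕ} (h0 : τ 0 = 0)
    (h1 : τ 1 = 0) {k i : ℕ} (hi : i ≤ k) : S.F I (hd τ k i) =
      BB ι L (Id I (k + τ.degree)) ⊔ S.RR τ k ⊔
        ((range (k + 1)).filter (· < i)).sup fun i => S.O (hd τ k i) := by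
  rw [F, deg_hd _ hi, sup_assoc]
  congr 1
  refine le_antisymm (Finset.sup_le fun γ hγ => ?_) (sup_le (S.RR_le fun γ h h' => ?_)
    (Finset.sup_le fun i' hi' => ?_))
  · rw [mem_filter, mem_Mon] at hγ
    rcases (key_hd h0 h1 hi hγ.1).mp hγ.2 with h | ⟨i', hi', rfl⟩
    · exact le_sup_of_le_left (S.le_RR hγ.1 h)
    · exact le_sup_of_le_right (le_sup (f := fun i => S.O (hd τ k i)) (by simp; omega))
  · exact le_sup (f := S.O) (mem_filter.mpr ⟨mem_Mon.mpr h, (key_hd h0 h1 hi h).mpr (Or.inl h')⟩)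
  · have h := deg_hd τ ((mem_filter.mp hi').2.le.trans hi)
    exact le_sup (f := S.O) (mem_filter.mpr ⟨mem_Mon.mpr h, (key_hd h0 h1 hi h).mpr
      (Or.inr ⟨i', (mem_filter.mp hi').2, rfl⟩)⟩)

lemma ltT_add {τ γ : Fin (n + 2) →₀ ℕ} (h : ltT γ 0) : ltT (τ + γ) τ := by
  obtain ⟨j, h1, h2, h3⟩ := h
  exact ⟨j, h1, fun k hk => by simp [← h2 k hk], by simpa using h3⟩

lemma ltT_or (γ : Fin (n + 2) →₀ ℕ) : ltT γ 0 ∨ γ = hd 0 γ.degree (γ 0) := by
  classical
  by_cases h : tl γ = 0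
  · have h1 := deg_tl γ
    rw [h, show Finsupp.degree (0 : Fin (n + 2) →₀ ℕ) = 0 from map_zero _, add_zero] at h1
    rw [h1, ← h, hd_tl]
    exact Or.inr rfl
  · have hne := Finsupp.support_nonempty_iff.mpr h
    have h1 := Finsupp.mem_support_iff.mp (max'_mem _ hne)
    have h2 : 1 < (tl γ).support.max' hne := by
      rcases fin_cases3 ((tl γ).support.max' hne) with h | h | h
      · simp [h] at h1
      · simp [h] at h1
      · exact h
    refine Or.inl ⟨_, h2, fun k hk => ?_, by rw [tl_big _ h2] at h1; exact Nat.pos_of_ne_zero h1⟩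
    rw [← tl_big γ (h2.trans hk)]
    by_contra h3
    exact absurd (le_max' _ _ (Finsupp.mem_support_iff.mpr (Ne.symm h3))) (not_le.mpr hk)

theorem exists_Q (I : Ideal (MvPolynomial (Fin (n + 2)) K)) {τ : Fin (n + 2) →₀ ℕ} (h0 : τ 0 = 0)
    (h1 : τ 1 = 0) : ∃ Q : ℕ → Submodule L (ι → MvPolynomial (Fin (n + 2)) L),
      (∀ k, Q k ≤ Td ι (n + 2) L k) ∧ (∀ k, S.RR 0 k ≤ Q k) ∧
      (∀ k i, ¬ 1 < i → (Q k).map (S.op i) ≤ Q (k + 1)) ∧
      (∀ d m, ∀ f ∈ ext1 L (Id I d), ∀ t ∈ Td ι (n + 2) L m, f • t ∈ Q (d + m)) ∧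
      ∀ k, Fintype.card ι * hh (S.NS I) τ k + finrank L (Q k) = finrank L (Td ι (n + 2) L k) := by
  classical
  obtain ⟨M, hM⟩ := S.exists_mat τ
  have hO : ∀ γ, (S.O γ).map (M.mulVecLin.restrictScalars L) = S.O (τ + γ) := fun γ => by
    rw [← hM, O, O, act_add]
  have hT : ∀ k, (Td ι (n + 2) L k).map (M.mulVecLin.restrictScalars L) ≤
      Td ι (n + 2) L (k + τ.degree) := fun k => hM _ ▸ S.act_le_Td τ le_rfl
  have hR : ∀ k, S.RR 0 k ≤ (S.RR τ k).comap (M.mulVecLin.restrictScalars L) := fun k =>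
    S.RR_le fun γ h h' => by
      rw [← Submodule.map_le_iff_le_comap, hO]
      exact S.le_RR (by simp [h, add_comm]) (ltT_add h')
  refine ⟨fun k => Td ι (n + 2) L k ⊓ (BB ι L (Id I (k + τ.degree)) ⊔ S.RR τ k).comap
    (M.mulVecLin.restrictScalars L), fun k => inf_le_left, fun k => le_inf
      (by simpa using S.RR_le_Td 0 k) ((hR k).trans (Submodule.comap_mono le_sup_right)),
    fun k i hi => le_inf (S.map_le_Td i inf_le_left) ?_, fun d m f hf t ht =>
      ⟨smul_mem_Td (ext1_le_homog inf_le_left hf) ht, Submodule.mem_sup_left ?_⟩, fun k => ?_⟩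
  · rw [← Submodule.map_le_iff_le_comap, ← hM, act_map, hM]
    refine (Submodule.map_mono (Submodule.map_le_iff_le_comap.mpr inf_le_right)).trans ?_
    rw [Submodule.map_sup, add_right_comm]
    exact sup_le_sup (S.map_BB_le I _ i) (S.map_RR τ k hi)
  · rw [LinearMap.restrictScalars_apply, map_smul]
    refine mem_piSub.mpr fun β => mul_mem_ext1 (A := Id I d)
      (B := homogeneousSubmodule (Fin (n + 2)) K (m + τ.degree)) (D := Id I (d + m + τ.degree))
      (fun p hp q hq =>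
        ⟨by rw [add_assoc]; exact IsHomogeneous.mul hp.1 hq, I.mul_mem_right _ hp.2⟩) hf ?_
    rw [ext1_homog]
    exact mem_piSub.mp (hT m (Submodule.mem_map_of_mem ht)) β
  · have hP : BB ι L (Id I (k + τ.degree)) ⊔ S.RR τ k ≤ Td ι (n + 2) L (k + τ.degree) :=
      sup_le (BB_le_Td I _) (S.RR_le_Td τ k)
    have := Submodule.finiteDimensional_of_le hP
    have h2 := (count_jumps (fun i : ℕ => i) (fun _ _ h => h) S.Good S.good_sup
      (Td ι (n + 2) L (k + τ.degree)) (Fintype.card ι) (S.dvd _) _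
      (S.good_sup _ _ (S.good_BB _ (Id I _) inf_le_left) (S.good_RR τ k)) hP
      (fun i => S.O (hd τ k i)) (range (k + 1)) fun i hi => ⟨S.good_O _, S.O_le_Td
        (mem_Mon.mpr (deg_hd _ (by simpa [Nat.lt_succ_iff] using hi))), S.finrank_O _⟩).2
    rw [filter_congr (q := fun i => hd τ k i ∉ S.NS I) fun i hi => by
      rw [← S.F_hd I h0 h1 (by simpa [Nat.lt_succ_iff] using hi)]; rfl] at h2
    have h3 := finrank_four (M.mulVecLin.restrictScalars L) (Td ι (n + 2) L k)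
      (BB ι L (Id I (k + τ.degree)) ⊔ S.RR τ k)
    have h4 : BB ι L (Id I (k + τ.degree)) ⊔ S.RR τ k ⊔
        (Td ι (n + 2) L k).map (M.mulVecLin.restrictScalars L) =
        BB ι L (Id I (k + τ.degree)) ⊔ S.RR τ k ⊔ (range (k + 1)).sup fun i => S.O (hd τ k i) := by
      refine le_antisymm (sup_le le_sup_left ?_) (sup_le_sup_left (Finset.sup_le fun i hi => ?_) _)
      · rw [Submodule.map_le_iff_le_comap]
        refine (S.Td_le_mon k).trans (Finset.sup_le fun γ hγ => ?_)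
        rw [← Submodule.map_le_iff_le_comap]
        refine (hO γ).trans_le ?_
        rw [mem_Mon] at hγ
        rcases ltT_or γ with h | h
        · exact le_sup_of_le_left (le_sup_of_le_right
            (S.le_RR (by simp [hγ, add_comm]) (ltT_add h)))
        · have := deg_tl γ
          rw [h, hγ, show τ + hd 0 k (γ 0) = hd τ k (γ 0) by simp [hd, add_assoc]]
          exact le_sup_of_le_right (le_sup (f := fun i => S.O (hd τ k i)) (by simp; omega))
      · rw [show hd τ k i = τ + hd 0 k i by simp [hd, add_assoc], ← hO]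
        exact Submodule.map_mono (S.O_le_Td (mem_Mon.mpr
          (by rw [deg_hd _ (by simpa [Nat.lt_succ_iff] using hi)]; simp)))
    rw [h4, h2] at h3
    rw [hh]
    beta_reduce
    omega

lemma RR_zero_le (k : ℕ) : S.RR 0 k ≤ Td ι (n + 2) L k := by simpa using S.RR_le_Td 0 k

instance (k : ℕ) : FiniteDimensional L (S.RR 0 k) :=
  Submodule.finiteDimensional_of_le (S.RR_zero_le k)

lemma free_count (k : ℕ) (s : Finset ℕ) (hs : ∀ i ∈ s, i ≤ k) :
    finrank L ↥(S.RR 0 k ⊔ s.sup fun i => S.O (hd 0 k i)) =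
      finrank L (S.RR 0 k) + Fintype.card ι * s.card := by
  classical
  have h2 := (count_jumps (fun i : ℕ => i) (fun _ _ h => h) S.Good S.good_sup
    (Td ι (n + 2) L k) (Fintype.card ι) (S.dvd _) _ (S.good_RR 0 k) (S.RR_zero_le k)
    (fun i => S.O (hd 0 k i)) s fun i hi => ⟨S.good_O _, S.O_le_Td
      (mem_Mon.mpr (by simpa using deg_hd 0 (hs i hi))), S.finrank_O _⟩).2
  rwa [filter_true_of_mem] at h2
  refine fun i hi h => S.notMem_NS_bot (hd 0 k i) (h.trans ?_)
  rw [S.F_hd ⊥ rfl rfl (hs i hi)]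
  refine sup_le_sup le_sup_right (Finset.sup_mono fun j hj => ?_)
  rw [mem_filter] at hj ⊢
  exact ⟨by have := hs j hj.1; simp; omega, hj.2⟩

lemma Td_eq (k : ℕ) :
    Td ι (n + 2) L k = S.RR 0 k ⊔ (range (k + 1)).sup fun i => S.O (hd 0 k i) := by
  refine le_antisymm ((S.Td_le_mon k).trans (Finset.sup_le fun γ hγ => ?_))
    (sup_le (S.RR_zero_le k) (Finset.sup_le fun i hi => S.O_le_Td (mem_Mon.mpr
      (by simpa using deg_hd 0 (by simpa [Nat.lt_succ_iff] using hi)))))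
  rw [mem_Mon] at hγ
  rcases ltT_or γ with h | h
  · exact le_sup_of_le_left (S.le_RR (by simp [hγ]) h)
  · have := deg_tl γ
    rw [h, hγ]
    exact le_sup_of_le_right (le_sup (f := fun i => S.O (hd 0 k i)) (by simp; omega))

lemma finrank_Td_eq (k : ℕ) :
    finrank L (Td ι (n + 2) L k) = finrank L (S.RR 0 k) + Fintype.card ι * (k + 1) := by
  rw [S.Td_eq k, S.free_count k _ (by simp), card_range]

lemma map_Td_le_RR {j : Fin (n + 2)} (hj : 1 < j) (k : ℕ) :
    (Td ι (n + 2) L k).map (S.op j) ≤ S.RR 0 (k + 1) := by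
  rw [Submodule.map_le_iff_le_comap]
  refine (S.Td_le_mon k).trans (Finset.sup_le fun γ hγ => ?_)
  rw [← Submodule.map_le_iff_le_comap]
  refine (S.O_add_single γ j).ge.trans ?_
  refine S.le_RR (by simp [mem_Mon.mp hγ]) ((ltT_or _).resolve_right fun h => ?_)
  have := DFunLike.congr_fun h j
  rw [hd_big _ _ _ hj] at this
  simp at this

lemma smul_mem_RR {d k : ℕ} {p : MvPolynomial (Fin (n + 2)) L} (hp : p.IsHomogeneous d)
    {t : ι → MvPolynomial (Fin (n + 2)) L} (ht : t ∈ S.RR 0 k) : p • t ∈ S.RR 0 (d + k) := by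
  refine (S.RR_le (N := (S.RR 0 (d + k)).comap ((LinearMap.lsmul (MvPolynomial (Fin (n + 2)) L)
    (ι → MvPolynomial (Fin (n + 2)) L) p).restrictScalars L)) fun γ h ⟨j, h1, _, h3⟩ => ?_) ht
  obtain ⟨γ, rfl⟩ := exists_eq_add_single h3.ne'
  rw [O_add_single]
  rintro _ ⟨u, hu, rfl⟩
  change p • S.op j u ∈ S.RR 0 (d + k)
  rw [← op_smul, show d + k = d + γ.degree + 1 by simp at h; omega]
  exact S.map_Td_le_RR h1 _ ⟨_, smul_mem_Td hp (S.O_le_Td (mem_Mon.mpr rfl) hu), rfl⟩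

lemma Td_succ_le (k : ℕ) : Td ι (n + 2) L (k + 1) ≤ S.RR 0 (k + 1) ⊔
    (Td ι (n + 2) L k).map (S.op 0) ⊔ (Td ι (n + 2) L k).map (S.op 1) := by
  refine (S.Td_le_W S.Td_one_le k).trans (Finset.sup_le fun j _ => ?_)
  rcases fin_cases3 j with rfl | rfl | hj
  · exact le_sup_of_le_left le_sup_right
  · exact le_sup_right
  · exact le_sup_of_le_left (le_sup_of_le_left (S.map_Td_le_RR hj k))

lemma sup_map_le {k k' : ℕ} (φ : (ι → MvPolynomial (Fin (n + 2)) L) →ₗ[L] _)
    (hφ : (S.RR 0 k).map φ ≤ S.RR 0 k') {B : Submodule L (ι → MvPolynomial (Fin (n + 2)) L)}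
    (hB : S.RR 0 k ≤ B) (hB' : B ≤ Td ι (n + 2) L k) :
    finrank L ↥(S.RR 0 k' ⊔ B.map φ) + finrank L (S.RR 0 k) ≤
      finrank L (S.RR 0 k') + finrank L B := by
  have := Submodule.finiteDimensional_of_le hB'
  have h1 := finrank_four φ B (S.RR 0 k')
  have := Submodule.finiteDimensional_of_le (inf_le_left (a := B) (b := (S.RR 0 k').comap φ))
  have h2 := Submodule.finrank_mono (le_inf hB (Submodule.map_le_iff_le_comap.mp hφ))
  omega

lemma step {k : ℕ} {A B : Submodule L (ι → MvPolynomial (Fin (n + 2)) L)}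
    (hA' : A ≤ Td ι (n + 2) L k) (hB : S.RR 0 (k + 1) ≤ B) (hB' : B ≤ Td ι (n + 2) L (k + 1))
    (h0 : A.map (S.op 0) ≤ B) (h1 : A.map (S.op 1) ≤ B) :
    finrank L ↥(S.RR 0 (k + 2) ⊔ B.map (S.op 0) ⊔ B.map (S.op 1)) + finrank L A +
      2 * finrank L (S.RR 0 (k + 1)) ≤
        2 * finrank L B + finrank L (S.RR 0 k) + finrank L (S.RR 0 (k + 2)) := by
  have := Submodule.finiteDimensional_of_le hA'
  have := Submodule.finiteDimensional_of_le hB'
  have e0 := S.sup_map_le _ (S.map_RR 0 (k + 1) (i := 0) (by simp)) hB hB'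
  have e1 := S.sup_map_le _ (S.map_RR 0 (k + 1) (i := 1) (by simp)) hB hB'
  have e2 := Submodule.finrank_sup_add_finrank_inf_eq (S.RR 0 (k + 2) ⊔ B.map (S.op 0))
    (S.RR 0 (k + 2) ⊔ B.map (S.op 1))
  rw [← sup_sup_distrib_left, ← sup_assoc] at e2
  let φ := (S.op 0).comp (S.op 1)
  have e3 : S.RR 0 (k + 2) ⊔ A.map φ ≤
      (S.RR 0 (k + 2) ⊔ B.map (S.op 0)) ⊓ (S.RR 0 (k + 2) ⊔ B.map (S.op 1)) := by
    refine le_inf (sup_le_sup_left ?_ _) (sup_le_sup_left ?_ _)
    · rw [Submodule.map_comp]; exact Submodule.map_mono h1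
    · rw [Submodule.map_comp, S.map_comm]; exact Submodule.map_mono h0
  have e4 := Submodule.finrank_mono e3
  have e5 := finrank_four φ A (S.RR 0 (k + 2))
  have e6 := finrank_four φ (Td ι (n + 2) L k) (S.RR 0 (k + 2))
  have hφ : (S.RR 0 k).map φ ≤ S.RR 0 (k + 2) := by
    rw [Submodule.map_comp]
    exact (Submodule.map_mono (S.map_RR 0 k (by simp))).trans (S.map_RR 0 _ (by simp))
  have e7 : S.RR 0 (k + 2) ⊔ ((range (k + 1)).image (· + 1)).sup (fun i => S.O (hd 0 (k + 2) i)) ≤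
      S.RR 0 (k + 2) ⊔ (Td ι (n + 2) L k).map φ := by
    refine sup_le_sup_left (Finset.sup_le fun i hi => ?_) _
    obtain ⟨i, hi', rfl⟩ := mem_image.mp hi
    rw [mem_range] at hi'
    rw [show hd (0 : Fin (n + 2) →₀ ℕ) (k + 2) (i + 1) =
      hd 0 k i + Finsupp.single 1 1 + Finsupp.single 0 1 from ext3 (by simp) (by simp; omega)
        fun j hj => by simp [hd_big _ _ _ hj, Finsupp.single_eq_of_ne (ne_of_one_lt hj).1,
          Finsupp.single_eq_of_ne (ne_of_one_lt hj).2],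
      O_add_single, O_add_single, Submodule.map_comp]
    exact Submodule.map_mono (Submodule.map_mono (S.O_le_Td (mem_Mon.mpr
      (by simpa using deg_hd 0 (k := k) (i := i) (by omega)))))
  have e8 := Submodule.finrank_mono e7
  rw [S.free_count _ _ (by simp; omega), card_image_of_injective _ (add_left_injective 1),
    card_range] at e8
  have := Submodule.finiteDimensional_of_le
    (inf_le_left (a := Td ι (n + 2) L k) (b := (S.RR 0 (k + 2)).comap φ))
  have e9 := Submodule.finrank_mono (inf_le_inf_right ((S.RR 0 (k + 2)).comap φ) hA')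
  have e10 := S.finrank_Td_eq k
  rw [show k + 1 + 1 = k + 2 from rfl] at e0 e1
  omega

/-- Multiples of a form. -/
noncomputable def mulT (f : MvPolynomial (Fin (n + 2)) L) (ι : Type*) :
    (ι → MvPolynomial (Fin (n + 2)) L) →ₗ[L] (ι → MvPolynomial (Fin (n + 2)) L) :=
  (LinearMap.lsmul (MvPolynomial (Fin (n + 2)) L) _ f).restrictScalars L

theorem two_free (I : Ideal (MvPolynomial (Fin (n + 2)) K)) {a b : ℕ} (ha : 1 ≤ a) (hab : a ≤ b)
    {f g : MvPolynomial (Fin (n + 2)) L} (hf : f ∈ ext1 L (Id I a)) (hg : g ∈ ext1 L (Id I b))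
    {D0 : ℕ} (hD : ∀ D, D0 ≤ D → Td ι (n + 2) L D ≤ S.RR 0 D ⊔
      (Td ι (n + 2) L (D - a)).map (mulT f ι) ⊔ (Td ι (n + 2) L (D - b)).map (mulT g ι)) :
    hh (S.NS I) 0 a ≤ a ∧ ∀ τ e, τ 0 = 0 → τ 1 = 0 → b ≤ e + 1 →
      0 < hh (S.NS I) τ (e + 1) → hh (S.NS I) τ (e + 1) < hh (S.NS I) τ e := by
  have hι : 0 < Fintype.card ι := by have := S.nonempty; exact Fintype.card_pos
  have hf' : f.IsHomogeneous a := ext1_le_homog inf_le_left hf
  have hg' : g.IsHomogeneous b := ext1_le_homog inf_le_left hg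
  constructor
  · by_contra hc
    obtain ⟨Q, q1, q2, -, q4, q5⟩ := S.exists_Q I (τ := 0) rfl rfl
    have := Submodule.finiteDimensional_of_le (q1 a)
    have h1 : S.RR 0 a = Q a := Submodule.eq_of_le_of_finrank_le (q2 a) (by
      have h1 := q5 a
      have h2 := S.finrank_Td_eq a
      have h3 := Nat.mul_le_mul_left (Fintype.card ι) (not_le.mp hc)
      simp only [Nat.succ_eq_add_one] at h3
      omega)
    have h2 : (Td ι (n + 2) L (D0 + b - a)).map (mulT f ι) ≤ S.RR 0 (D0 + b) := by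
      rw [Submodule.map_le_iff_le_comap]
      refine Td_le_of_smul (e := 0) fun p hp t ht => ?_
      change f • p • t ∈ S.RR 0 (D0 + b)
      rw [smul_comm, show D0 + b = D0 + b - a + a by omega]
      exact S.smul_mem_RR hp (h1 ▸ q4 a 0 f hf t ht)
    have h3 := hD (D0 + b) (by omega)
    rw [sup_eq_left.mpr h2, Nat.add_sub_cancel] at h3
    have h4 := Submodule.finrank_mono h3
    have h5 := S.sup_map_le (k' := D0 + b) (mulT g ι) (by
      rintro _ ⟨t, ht, rfl⟩
      rw [add_comm D0]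
      exact S.smul_mem_RR hg' ht) (S.RR_zero_le D0) le_rfl
    have h6 := S.finrank_Td_eq D0
    have h7 := S.finrank_Td_eq (D0 + b)
    nlinarith
  intro τ e h0 h1 hb hpos
  by_contra hc
  obtain ⟨Q, q1, q2, q3, q4, q5⟩ := S.exists_Q I h0 h1
  obtain ⟨G, hG0, hG⟩ : ∃ G : ℕ → Submodule L (ι → MvPolynomial (Fin (n + 2)) L),
      G 0 = Q (e + 1) ∧ ∀ k, G (k + 1) =
        S.RR 0 (e + k + 2) ⊔ (G k).map (S.op 0) ⊔ (G k).map (S.op 1) :=
    ⟨fun k => Nat.rec (Q (e + 1))
      (fun k B => S.RR 0 (e + k + 2) ⊔ B.map (S.op 0) ⊔ B.map (S.op 1)) k, rfl, fun _ => rfl⟩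
  have g1 : ∀ k, G k ≤ Td ι (n + 2) L (e + k + 1) := by
    intro k
    induction k with
    | zero => exact hG0 ▸ q1 _
    | succ k ih =>
      rw [hG]
      exact sup_le (sup_le (S.RR_zero_le _) (S.map_le_Td 0 ih)) (S.map_le_Td 1 ih)
  have g2 : ∀ k, S.RR 0 (e + k + 1) ≤ G k := by
    rintro (_ | k)
    · exact hG0 ▸ q2 _
    · exact hG k ▸ le_sup_of_le_left le_sup_left
  have g3 : ∀ k : ℕ, ∃ A : Submodule L (ι → MvPolynomial (Fin (n + 2)) L),
      A ≤ Td ι (n + 2) L (e + k) ∧ A.map (S.op 0) ≤ G k ∧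
      A.map (S.op 1) ≤ G k ∧ finrank L ↥(G k) < finrank L (Td ι (n + 2) L (e + k + 1)) ∧
      finrank L ↥(G k) + finrank L (Td ι (n + 2) L (e + k)) ≤
        finrank L A + finrank L (Td ι (n + 2) L (e + k + 1)) := by
    intro k
    induction k with
    | zero =>
      have h2 := q5 e
      have h3 := q5 (e + 1)
      have h4 := Nat.mul_le_mul_left (Fintype.card ι) (not_lt.mp hc)
      have h5 := Nat.mul_pos hι hpos
      rw [hG0]
      refine ⟨Q e, q1 e, q3 e 0 (by simp), q3 e 1 (by simp), ?_, ?_⟩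
      · change finrank L (Q (e + 1)) < finrank L (Td ι (n + 2) L (e + 1))
        omega
      · change finrank L (Q (e + 1)) + finrank L (Td ι (n + 2) L e) ≤
          finrank L (Q e) + finrank L (Td ι (n + 2) L (e + 1))
        omega
    | succ k ih =>
      obtain ⟨A, a2, a3, a4, a5, a6⟩ := ih
      have h2 := S.step a2 (g2 k) (g1 k) a3 a4
      have h3 := S.finrank_Td_eq (e + k)
      have h4 := S.finrank_Td_eq (e + k + 1)
      have h5 := S.finrank_Td_eq (e + k + 2)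
      rw [← hG] at h2
      simp only [mul_add, mul_one] at h3 h4 h5
      refine ⟨G k, g1 k, hG k ▸ le_sup_of_le_left le_sup_right, hG k ▸ le_sup_right, ?_, ?_⟩
      · change _ < finrank L (Td ι (n + 2) L (e + k + 2))
        omega
      · change _ + finrank L (Td ι (n + 2) L (e + k + 1)) ≤
          _ + finrank L (Td ι (n + 2) L (e + k + 2))
        omega
  have g4 : ∀ d, d ≤ e + 1 → ∀ p ∈ ext1 L (Id I d), ∀ k,
      (Td ι (n + 2) L (e + k + 1 - d)).map (mulT p ι) ≤ G k := by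
    intro d hd p hp k
    induction k with
    | zero =>
      rintro _ ⟨t, ht, rfl⟩
      have := q4 d _ p hp t ht
      rwa [show d + (e + 0 + 1 - d) = e + 1 by omega, ← hG0] at this
    | succ k ih =>
      rw [show e + (k + 1) + 1 - d = e + k + 1 - d + 1 by omega]
      refine (Submodule.map_mono (S.Td_succ_le _)).trans ?_
      rw [Submodule.map_sup, Submodule.map_sup, hG]
      refine sup_le_sup (sup_le_sup ?_ ?_) ?_
      · rintro _ ⟨t, ht, rfl⟩
        rw [show e + k + 2 = d + (e + k + 1 - d + 1) by omega]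
        exact S.smul_mem_RR (ext1_le_homog inf_le_left hp) ht
      · rintro _ ⟨_, ⟨t, ht, rfl⟩, rfl⟩
        exact ⟨_, ih ⟨t, ht, rfl⟩, S.op_smul 0 p t⟩
      · rintro _ ⟨_, ⟨t, ht, rfl⟩, rfl⟩
        exact ⟨_, ih ⟨t, ht, rfl⟩, S.op_smul 1 p t⟩
  obtain ⟨-, -, -, -, h2, -⟩ := g3 D0
  have := Submodule.finiteDimensional_of_le (g1 D0)
  exact absurd (Submodule.finrank_mono ((hD _ (by omega)).trans (sup_le (sup_le (g2 D0)
    (g4 a (by omega) f hf D0)) (g4 b hb g hg D0)))) (not_le.mpr h2)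

end Setup

end Vale.Agent.P200
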