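import Vale.Agent.P200.Two2

/-! The case of two free degrees. -/

namespace Vale.Agent.P200

open MvPolynomial Module Finset

universe u

lemma exchange {F : Type*} [Field F] [Infinite F] {n : ℕ} {H : Set (MvPolynomial (Fin n) F)}
    (hH : ∀ h ∈ H, ∃ e, h.IsHomogeneous e) {f : MvPolynomial (Fin n) F}
    (hf : constantCoeff f = 0) {D : ℕ} (hD : Prim (Ideal.span (insert f H)) D) :
    ∃ y : MvPolynomial (Fin n) F, y.IsHomogeneous 1 ∧ ∃ D, Prim (Ideal.span (insert y H)) D := by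
  classical
  have hfin := Ideal.finite_minimalPrimes_of_isNoetherianRing _ (Ideal.span H)
  let s := (hfin.toFinset.filter fun P => ¬ ∀ j, X j ∈ P).image fun P =>
    (P.restrictScalars F).comap (homogeneousSubmodule (Fin n) F 1).subtype
  have hs : ⊤ ∉ s := by
    simp only [s, mem_image, mem_filter, not_exists, not_and, and_imp]
    intro P _ hP htop
    refine hP fun j => ?_
    have : (⟨X j, isHomogeneous_X F j⟩ : homogeneousSubmodule (Fin n) F 1) ∈
        (P.restrictScalars F).comap (homogeneousSubmodule (Fin n) F 1).subtype := by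
      rw [htop]; trivial
    exact this
  obtain ⟨l, hl⟩ := (Set.ne_univ_iff_exists_notMem _).mp
    (Subspace.biUnion_ne_univ_of_top_notMem hs)
  refine ⟨l, l.2, prim_of_pow fun j => ?_⟩
  change X j ∈ (Ideal.span _).radical
  rw [Ideal.radical_eq_sInf, Submodule.mem_sInf]
  rintro P ⟨hle, hP⟩
  let := gradedAlgebra (σ := Fin n) (R := F)
  let Q := Ideal.homogeneousCore (homogeneousSubmodule (Fin n) F) P
  have hQ : Q.toIdeal.IsPrime := hP.homogeneousCore
  have hQP : Q.toIdeal ≤ P := Ideal.toIdeal_homogeneousCore_le _ _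
  by_contra hj
  obtain ⟨P', hP', hPQ⟩ := Ideal.exists_minimalPrimes_le (I := Ideal.span H) (J := Q.toIdeal)
    (Ideal.span_le.mpr fun x hx => Ideal.mem_homogeneousCore_of_homogeneous_of_mem (hH x hx)
      (hle (Ideal.subset_span (Set.mem_insert_of_mem _ hx))))
  have : P'.IsPrime := hP'.1.1
  have h1 : l.1 ∉ P' := fun h => hl (Set.mem_biUnion (mem_coe.mpr (mem_image_of_mem _
    (mem_filter.mpr ⟨hfin.mem_toFinset.mpr hP', fun h => hj (hQP (hPQ (h j)))⟩))) h)
  have h2 : l.1 ∈ Q.toIdeal := Ideal.mem_homogeneousCore_of_homogeneous_of_mem ⟨1, l.2⟩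
    (hle (Ideal.subset_span (Set.mem_insert _ _)))
  let M := RingHom.ker (constantCoeff : MvPolynomial (Fin n) F →+* F)
  have hM : M.IsPrime := RingHom.ker_isPrime _
  have hQM : Q.toIdeal ≤ M := fun p hp => by
    have := homogeneousComponent_mem_of_mem Q.isHomogeneous hp 0
    rw [homogeneousComponent_zero] at this
    by_contra h0
    exact hQ.ne_top (Ideal.eq_top_of_isUnit_mem _ this ((isUnit_iff_ne_zero.mpr h0).map C))
  have h3 := Ideal.map_height_le_one_of_mem_minimalPrimes (I := P') (p := M) (x := f)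
    ⟨⟨hM, sup_le (hPQ.trans hQM) ((Ideal.span_singleton_le_iff_mem _).mpr hf)⟩, by
      rintro N ⟨hN, hN'⟩ - p hp
      have h4 : Ideal.span (insert f H) ≤ N := by
        rw [Ideal.span_insert, sup_comm]
        exact (sup_le_sup_right hP'.1.2 _).trans hN'
      refine (show Ideal.span (X '' Set.univ) ≤ N from Ideal.span_le.mpr ?_)
        (mem_ideal_span_X_image.mpr fun m hm => ?_)
      · rintro _ ⟨i, -, rfl⟩
        exact hN.mem_of_pow_mem D (h4 (hD _ (isHomogeneous_X_pow i D)))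
      · by_contra h
        push Not at h
        rw [show m = 0 from Finsupp.ext fun i => h i trivial] at hm
        exact MvPolynomial.mem_support_iff.mp hm hp⟩
  have := Ideal.isPrime_map_quotientMk_of_isPrime hPQ
  have := Ideal.isPrime_map_quotientMk_of_isPrime (hPQ.trans hQM)
  have h5 : (⊥ : Ideal _) < Q.toIdeal.map (Ideal.Quotient.mk P') :=
    bot_lt_iff_ne_bot.mpr fun h => h1 (Ideal.Quotient.eq_zero_iff_mem.mp
      ((Ideal.mem_bot (R := _ ⧸ P')).mp (h ▸ Ideal.mem_map_of_mem _ h2)))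
  have h6 : Q.toIdeal.map (Ideal.Quotient.mk P') < M.map (Ideal.Quotient.mk P') :=
    lt_of_le_of_ne (Ideal.map_mono hQM) fun h => hj (hQP ((Ideal.mem_quotient_iff_mem hPQ).mp
      (h ▸ Ideal.mem_map_of_mem _ (by simp [M]))))
  have h7 := Ideal.height_add_one_le_of_lt_of_isPrime h5
  have h8 := (Ideal.height_add_one_le_of_lt_of_isPrime h6).trans h3
  have h9 : (1 : ℕ∞) + 1 ≤ 1 := le_trans (by gcongr; exact le_trans le_add_self h7) h8
  exact absurd h9 (by decide)

lemma span_smul_mem' {E ι κ : Type*} [Field E] [Fintype ι] [DecidableEq ι] {n : ℕ}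
    (Z : κ → Matrix ι ι (MvPolynomial (Fin n) E)) (d : κ → ℕ)
    (hZ : ∀ j β γ, (Z j β γ).IsHomogeneous (d j)) {D : ℕ} (hd : ∀ j, d j ≤ D)
    {H : Set (MvPolynomial (Fin n) E)} (hH : ∀ h ∈ H, ∃ j A, h • 1 = Z j * A)
    (hD : Prim (Ideal.span H) D) : Td ι n E D ≤
      ⨆ j, (Td ι n E (D - d j)).map ((Z j).mulVecLin.restrictScalars E) := by
  let N : Submodule (MvPolynomial (Fin n) E) (ι → MvPolynomial (Fin n) E) :=
    ⨆ j, LinearMap.range (Z j).mulVecLin
  have h1 : ∀ p ∈ Ideal.span H, ∀ t, p • t ∈ N := by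
    intro p hp t
    induction hp using Submodule.span_induction with
    | mem x hx =>
      obtain ⟨j, A, hA⟩ := hH x hx
      refine Submodule.mem_iSup_of_mem j ⟨A.mulVec t, ?_⟩
      rw [Matrix.mulVecLin_apply, Matrix.mulVec_mulVec, ← hA, Matrix.smul_mulVec, Matrix.one_mulVec]
    | zero => simp
    | add x y _ _ hx hy => rw [add_smul]; exact add_mem hx hy
    | smul q x _ hx => rw [smul_assoc]; exact N.smul_mem _ hx
  have h2 : ∀ t ∈ N, (fun β => homogeneousComponent D (t β)) ∈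
      ⨆ j, (Td ι n E (D - d j)).map ((Z j).mulVecLin.restrictScalars E) := by
    intro t ht
    induction ht using Submodule.iSup_induction' with
    | mem j t ht =>
      obtain ⟨t, rfl⟩ := ht
      refine Submodule.mem_iSup_of_mem j ⟨fun β => homogeneousComponent (D - d j) (t β),
        mem_piSub.mpr fun β => homogeneousComponent_mem _ _, funext fun β => ?_⟩
      simp [Matrix.mulVec, dotProduct, hc_mul (hZ _ _ _), hd]
    | zero =>
      simp only [Pi.zero_apply, map_zero]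
      exact zero_mem _
    | add x y _ _ hx hy =>
      simp only [Pi.add_apply, map_add]
      exact add_mem hx hy
  refine Td_le_of_smul (d := D) (e := 0) fun p hp t ht => ?_
  convert h2 _ (h1 p (hD p hp) t) using 1
  funext β
  exact (homogeneousComponent_eq_self (mem_piSub.mp (smul_mem_Td hp ht) β)).symm

lemma hom_smul_one {R ι : Type*} [CommRing R] [DecidableEq ι] {n d : ℕ}
    {p : MvPolynomial (Fin n) R} (hp : p.IsHomogeneous d) (β γ : ι) :
    ((p • (1 : Matrix ι ι (MvPolynomial (Fin n) R))) β γ).IsHomogeneous d := by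
  rw [Matrix.smul_apply, Matrix.one_apply]
  split_ifs
  · simpa using hp
  · simpa using isHomogeneous_zero _ _ _

theorem two_closed {F : Type u} [Field F] [IsAlgClosed F] {n c : ℕ} (hcn : c + 2 ≤ n + 2)
    {a : Fin (c + 2) → ℕ} {b : ℕ} (h0 : 1 ≤ a 0) (h01 : a 0 ≤ a 1) (h1b : a 1 ≤ b + 1) (hb : 1 ≤ b)
    (hab : ∀ i : Fin c, a i.succ.succ = b + 1) {f : Fin (c + 2) → MvPolynomial (Fin (n + 2)) F}
    (hf : ∀ i, (f i).IsHomogeneous (a i))
    (hreg : ∀ i g, g * f i ∈ Ideal.span (f '' {j | j < i}) → g ∈ Ideal.span (f '' {j | j < i}))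
    (I : Ideal (MvPolynomial (Fin (n + 2)) F)) (hfI : ∀ i, f i ∈ I) : EGH hcn a I := by
  classical
  obtain ⟨l0, h1, h2, D, hD⟩ := exists_lin_prim hcn (fun i => ⟨_, hf i⟩) hreg
  let f' : Fin c → MvPolynomial (Fin (n + 2)) F := fun i => f i.succ.succ
  have hf' : ∀ i, (f' i).IsHomogeneous (b + 1) := fun i => hab i ▸ hf _
  have hH : ∀ h ∈ Set.range f' ∪ Set.range l0, ∃ e, h.IsHomogeneous e := by
    rintro _ (⟨i, rfl⟩ | ⟨i, rfl⟩)
    exacts [⟨_, hf' i⟩, ⟨_, h1 i⟩]
  have hc : ∀ i, 1 ≤ a i → constantCoeff (f i) = 0 := fun i hi =>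
    (hf i).coeff_eq_zero (by simp; omega)
  have hD' : Prim (Ideal.span (insert (f 1) (insert (f 0) (Set.range f' ∪ Set.range l0)))) D := by
    refine hD.mono (Ideal.span_mono ?_) le_rfl
    rintro _ (⟨i, rfl⟩ | h)
    · refine Fin.cases (by simp) (fun i => Fin.cases (by simp) (fun i => ?_) i) i
      exact Or.inr (Or.inr (Or.inl ⟨i, rfl⟩))
    · exact Or.inr (Or.inr (Or.inr h))
  obtain ⟨y1, hy1, D1, hD1⟩ := exchange (by
    rintro _ (rfl | h)
    exacts [⟨_, hf 0⟩, hH _ h]) (hc 1 (by omega)) hD'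
  rw [Set.insert_comm] at hD1
  obtain ⟨y0, hy0, D2, hD2⟩ := exchange (by
    rintro _ (rfl | h)
    exacts [⟨_, hy1⟩, hH _ h]) (hc 0 h0) hD1
  let l : Fin (n + 2) → MvPolynomial (Fin (n + 2)) F :=
    fun j => if j = 0 then y0 else if j = 1 then y1 else l0 j
  have hl : ∀ j, 1 < j → l j = l0 j := fun j hj => by
    simp [l, (ne_of_one_lt hj).1, (ne_of_one_lt hj).2]
  let emb : Fin c → Fin (n + 2) := fun i => Fin.castLE hcn i.succ.succ
  have hemb : ∀ i, 1 < emb i := fun i => by simp [emb, Fin.lt_def]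
  obtain ⟨D0, hD0⟩ := UU_prim (I := I) (b := b) (by
    rintro _ ⟨i, rfl⟩
    refine ⟨hfI i, _, ?_, hf i⟩
    refine Fin.cases (by omega) (fun i => Fin.cases (by simpa using h1b) (fun i => ?_) i) i
    exact (hab i).le) hD
  obtain ⟨E, _, _, ι, _, _, S, g, hg, hZ, hZ', htr⟩ := exists_setup (a := b + 1) (by omega)
    (by omega) (emb := emb) (fun i j h => by simpa [emb] using h) (l := l)
    (fun i => by rw [hl _ (hemb i), h2 _ i.succ.succ.2]) (fun j => by
      simp only [l]
      split_ifs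
      exacts [hy0, hy1, h1 j]) _ (UU_le h1 b) hD0 f'
    (fun i => Submodule.mem_sup_left ⟨hf' i, hfI _⟩) (hD2.mono (Ideal.span_le.mpr (by
      rintro _ (rfl | rfl | h | ⟨j, rfl⟩)
      · exact Ideal.subset_span (Or.inr ⟨0, by simp [l]⟩)
      · exact Ideal.subset_span (Or.inr ⟨1, by simp [l]⟩)
      · exact Ideal.subset_span (Or.inl h)
      · by_cases hj : 1 < j
        · exact Ideal.subset_span (Or.inr ⟨j, hl j hj⟩)
        · rw [h2 j (by rw [Fin.lt_def, Fin.val_one] at hj; omega)]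
          exact zero_mem _)) le_rfl)
  have hP := htr (insert (f 1) (insert (f 0) (Set.range l0))) (by
    rintro _ (rfl | rfl | ⟨j, rfl⟩)
    exacts [⟨_, hf 1⟩, ⟨_, hf 0⟩, ⟨_, h1 j⟩]) D (by
      rwa [Set.union_insert, Set.union_insert])
  obtain ⟨h3, h4⟩ := S.two_free I h0 h01 (f := map (algebraMap F E) (f 0))
    (g := map (algebraMap F E) (f 1)) (Submodule.subset_span ⟨_, ⟨hf 0, hfI 0⟩, rfl⟩)
    (Submodule.subset_span ⟨_, ⟨hf 1, hfI 1⟩, rfl⟩) (D0 := D + a 1) fun D' hD' => by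
      refine (span_smul_mem' (fun j : Fin (n + 2) =>
        if j = 0 then map (algebraMap F E) (f 0) • 1 else
          if j = 1 then map (algebraMap F E) (f 1) • 1 else S.Z j)
        (fun j => if j = 0 then a 0 else if j = 1 then a 1 else 1) (fun j β γ => ?_) (fun j => ?_)
        ?_ (hP.mono le_rfl (by omega))).trans (iSup_le fun j => ?_)
      · split_ifs
        exacts [hom_smul_one ((hf 0).map _) _ _, hom_smul_one ((hf 1).map _) _ _, S.hom j β γ]
      · split_ifs <;> omega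
      · rintro _ (⟨i, rfl⟩ | ⟨_, rfl | rfl | ⟨j, rfl⟩, rfl⟩)
        · refine ⟨emb i, S.Z (emb i) ^ b, ?_⟩
          rw [if_neg (ne_of_one_lt (hemb i)).1, if_neg (ne_of_one_lt (hemb i)).2, ← pow_succ', hZ]
        · exact ⟨1, 1, by simp⟩
        · exact ⟨0, 1, by simp⟩
        · by_cases hj : (j : ℕ) < c + 2
          · exact ⟨0, 0, by simp [h2 j hj]⟩
          · have hj' : 1 < j := by rw [Fin.lt_def, Fin.val_one]; omega
            refine ⟨j, 1, ?_⟩
            rw [if_neg (ne_of_one_lt hj').1, if_neg (ne_of_one_lt hj').2, mul_one, hZ', hl j hj']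
            rintro ⟨i, rfl⟩
            exact hj i.succ.succ.2
      · rcases fin_cases3 j with rfl | rfl | hj
        · refine le_sup_of_le_left (le_sup_of_le_right ?_)
          rintro _ ⟨t, ht, rfl⟩
          exact ⟨t, ht, by simp [Setup.mulT]⟩
        · refine le_sup_of_le_right ?_
          rintro _ ⟨t, ht, rfl⟩
          exact ⟨t, ht, by simp [Setup.mulT]⟩
        · rw [if_neg (ne_of_one_lt hj).1, if_neg (ne_of_one_lt hj).2, if_neg (ne_of_one_lt hj).1,
            if_neg (ne_of_one_lt hj).2]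
          refine le_sup_of_le_left (le_sup_of_le_left ((S.map_Td_le_RR hj _).trans_eq ?_))
          rw [Nat.sub_add_cancel (by omega)]
  obtain ⟨s, s1, s2, s3, s4, s5⟩ := replace (S.isUpperSet_NS I) h0 h01 h3 h4
  refine ⟨s, s1, fun i => ?_, fun d => (s5 d).trans (S.card_NS I d)⟩
  refine Fin.cases s2 (fun i => Fin.cases s3 (fun i => ?_) i) i
  refine s4 _ ?_ (Finsupp.single_eq_of_ne (ne_of_one_lt (hemb i)).1.symm)
    (Finsupp.single_eq_of_ne (ne_of_one_lt (hemb i)).2.symm)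
  rw [hab]
  refine S.single_mem_of_UU (emb i) (fun j => ?_) (hg i) (hZ i)
  by_cases hj : (j : ℕ) < c + 2
  · exact Or.inl (h2 j hj)
  · have hj' : 1 < j := by rw [Fin.lt_def, Fin.val_one]; omega
    refine Or.inr ⟨Nat.lt_of_lt_of_le i.succ.succ.2 (Nat.le_of_not_lt hj), ?_⟩
    rw [hZ', hl j hj']
    rintro ⟨k, rfl⟩
    exact hj k.succ.succ.2

theorem main_closed {F : Type u} [Field F] [IsAlgClosed F] {n c : ℕ} (hc : 1 ≤ c) (hcn : c ≤ n)
    {a : Fin c → ℕ} (ha : ∀ i, 2 ≤ a i) (hmono : Monotone a)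
    (heq : ∀ i j : Fin c, 2 ≤ (i : ℕ) → 2 ≤ (j : ℕ) → a i = a j)
    {f : Fin c → MvPolynomial (Fin n) F} (hf : ∀ i, (f i).IsHomogeneous (a i))
    (hreg : ∀ i g, g * f i ∈ Ideal.span (f '' {j | j < i}) → g ∈ Ideal.span (f '' {j | j < i}))
    (I : Ideal (MvPolynomial (Fin n) F)) (hfI : ∀ i, f i ∈ I) : EGH hcn a I := by
  rcases hc.eq_or_lt with rfl | hc
  · obtain ⟨b, rfl⟩ : ∃ b, a = fun _ => b := ⟨a 0, funext fun i => by rw [Subsingleton.elim i 0]⟩
    exact equal_closed hcn (by omega) (ha 0) hf hreg I hfI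
  obtain ⟨c, rfl⟩ : ∃ c', c = c' + 2 := ⟨c - 2, by omega⟩
  obtain ⟨n, rfl⟩ : ∃ n', n = n' + 2 := ⟨n - 2, by omega⟩
  have h1 := ha (Fin.last _)
  have h2 := ha 0
  refine two_closed hcn (b := a (Fin.last _) - 1) (by omega) (hmono Fin.zero_lt_one.le) ?_
    (by omega) (fun i => ?_) hf hreg I hfI
  · rw [Nat.sub_add_cancel (by omega)]
    exact hmono (Fin.le_last _)
  · rw [Nat.sub_add_cancel (by omega)]
    have := i.2
    exact heq _ _ (by simp) (by simp; omega)

end Vale.Agent.P200
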